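import Vale.Agent.Lib.P371.Sharp.RowsApprox

/-!
Definitions for the calibration family with the extra term `h(M) = -a tan(M/2)`.
-/

namespace Vale.Agent.Lib.P371.SharpA

open Vale.Agent.Lib.P371.Sharp.Rows

variable {κ ι : Type*} [Fintype κ] [Fintype ι]

/-- The trace of the square of `Aᵀ A`. -/
def tr2 (A : κ → ι → ℝ) : ℝ := ∑ i, ∑ j, qm A i j ^ 2

end Vale.Agent.Lib.P371.SharpA
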