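import Vale.Agent.Lib.P371.Sharp.RowsDeriv

/-!
Derivatives of the pairings with `R = (J_A + t)⁻¹ I`.
-/

open Real

set_option linter.unusedSectionVars false

namespace Vale.Agent.Lib.P371.SharpA

open Vale.Agent.Lib.P371.Sharp Vale.Agent.Lib.P371.Sharp.Rows

variable {r ι : Type*} [Fintype r] [Fintype ι] [DecidableEq ι]

/-- The identity array. -/
def idm : ι → ι → ℝ := fun i j => if i = j then 1 else 0

/-- The resolvent of the identity, `(J_A + t)⁻¹ I`, which is `(A + t)⁻¹`. -/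
noncomputable def Rsol (A : ι → ι → ℝ) (t : ℝ) : ι → ι → ℝ := Ring.inverse (Jop A t) idm

lemma idm_symm (i j : ι) : (idm i j : ℝ) = idm j i := by
  simp only [idm, eq_comm]

/-- The polarized form of `dpr_jordan_tens`. -/
lemma dpr_jordan_tens2 (ψ : ι → ℝ) {X Y : ι → ι → ℝ} (hX : ∀ i j, X i j = X j i)
    (hY : ∀ i j, Y i j = Y j i) :
    dpr X (Jop (tens ψ) 0 Y) = ∑ i, xi X ψ i * xi Y ψ i := by
  have h1 : ∑ i, ∑ j, X i j * ∑ k, tens ψ i k * Y k j = ∑ i, xi X ψ i * xi Y ψ i := by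
    simp only [xi, tens]
    rw [Finset.sum_comm]
    refine Finset.sum_congr rfl fun j _ => ?_
    have e1 : ∀ i, ∑ k, ψ i * ψ k * Y k j = ψ i * ∑ k, Y j k * ψ k := by
      intro i
      rw [Finset.mul_sum]
      exact Finset.sum_congr rfl fun k _ => by rw [hY k j]; ring
    simp only [e1]
    rw [Finset.sum_mul]
    refine Finset.sum_congr rfl fun i _ => ?_
    rw [hX i j]
    ring
  have h2 : ∑ i, ∑ j, X i j * ∑ k, Y i k * tens ψ k j = ∑ i, xi X ψ i * xi Y ψ i := by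
    simp only [xi, tens]
    refine Finset.sum_congr rfl fun i _ => ?_
    have e1 : ∀ j, ∑ k, Y i k * (ψ k * ψ j) = (∑ k, Y i k * ψ k) * ψ j := by
      intro j
      rw [Finset.sum_mul]
      exact Finset.sum_congr rfl fun k _ => by ring
    simp only [e1]
    rw [Finset.sum_mul]
    refine Finset.sum_congr rfl fun j _ => ?_
    ring
  simp only [dpr, Jop_apply2, zero_mul, add_zero]
  have e : ∑ i, ∑ j, X i j * ((1 / 2 : ℝ) * (∑ k, tens ψ i k * Y k j + ∑ k, Y i k * tens ψ k j))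
      = (1 / 2 : ℝ) * (∑ i, ∑ j, X i j * ∑ k, tens ψ i k * Y k j +
          ∑ i, ∑ j, X i j * ∑ k, Y i k * tens ψ k j) := by
    rw [← Finset.sum_add_distrib, Finset.mul_sum]
    refine Finset.sum_congr rfl fun i _ => ?_
    rw [← Finset.sum_add_distrib, Finset.mul_sum]
    refine Finset.sum_congr rfl fun j _ => ?_
    ring
  rw [e, h1, h2]
  ring

/-- The polarized form of `dpr_jordan_qq`. -/
lemma dpr_jordan_qq2 (P : r → ι → ℝ) {X Y : ι → ι → ℝ} (hX : ∀ i j, X i j = X j i)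
    (hY : ∀ i j, Y i j = Y j i) :
    dpr X (Jop (qq P) 0 Y) = ∑ a, ∑ i, xi X (P a) i * xi Y (P a) i := by
  have e : dpr X (Jop (qq P) 0 Y) = ∑ a, dpr X (Jop (tens (P a)) 0 Y) := by
    calc dpr X (Jop (qq P) 0 Y) = ∑ i, ∑ j, ∑ a, X i j * Jop (tens (P a)) 0 Y i j := by
          simp only [dpr, Jop_qq_entry, Finset.mul_sum]
      _ = ∑ i, ∑ a, ∑ j, X i j * Jop (tens (P a)) 0 Y i j :=
          Finset.sum_congr rfl fun i _ => Finset.sum_comm
      _ = _ := Finset.sum_comm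
  rw [e]
  exact Finset.sum_congr rfl fun a _ => dpr_jordan_tens2 (P a) hX hY

lemma dpr_smul_Jop2 (b : ℝ) (X S Y : ι → ι → ℝ) :
    dpr X (Jop (b • S) 0 Y) = b * dpr X (Jop S 0 Y) := by
  simp only [dpr, Jop_zero_smul2, Finset.mul_sum]
  exact Finset.sum_congr rfl fun i _ => Finset.sum_congr rfl fun j _ => by ring

/-- The derivative of the resolvent of the identity. -/
lemma hasDerivAt_Rsol {A : ℝ → ι → ι → ℝ} {A' : ι → ι → ℝ} {t x : ℝ}
    (hA : HasDerivAt A A' x) (hu : IsUnit (Jop (A x) t)) :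
    HasDerivAt (fun s => Rsol (A s) t)
      (Ring.inverse (Jop (A x) t) (0 - Jop A' 0 (Rsol (A x) t))) x :=
  hasDerivAt_inverse_apply (hasDerivAt_Jop t hA) (hasDerivAt_const x (idm : ι → ι → ℝ)) hu

/-- `d/dx ⟨Q, R⟩ = 2 ∑_a ⟨Ψ_a', R Ψ_a⟩ - c ∑_a ⟨X Ψ_a, R Ψ_a⟩`, when `A' = c Q`. -/
theorem hasDerivAt_qR {A : ℝ → ι → ι → ℝ} {Ψ : ℝ → r → ι → ℝ} {Ψ' : r → ι → ℝ} {c t x : ℝ}
    (hA : HasDerivAt A (c • qq (Ψ x)) x) (hΨ : ∀ a i, HasDerivAt (fun s => Ψ s a i) (Ψ' a i) x)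
    (hu : IsUnit (Jop (A x) t)) (hs : ∀ a b, A x a b = A x b a) :
    HasDerivAt (fun s => dpr (qq (Ψ s)) (Rsol (A s) t))
      (2 * ∑ a, ∑ i, Ψ' a i * xi (Rsol (A x) t) (Ψ x a) i -
        c * ∑ a, ∑ i, xi (Xsol (A x) t (Ψ x)) (Ψ x a) i * xi (Rsol (A x) t) (Ψ x a) i) x := by
  have hS : HasDerivAt (fun s => qq (Ψ s))
      (fun i j => ∑ a, (Ψ' a i * Ψ x a j + Ψ x a i * Ψ' a j)) x :=
    hasDerivAt_of_entry2 fun i j => HasDerivAt.fun_sum fun a _ => (hΨ a i).mul (hΨ a j)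
  have hY := hasDerivAt_Rsol (A := A) (t := t) hA hu
  have h := hasDerivAt_dpr hS hY
  refine h.congr_deriv ?_
  set R := Rsol (A x) t with hR
  set X := Xsol (A x) t (Ψ x) with hX
  have hXs : ∀ i j, X i j = X j i := inv_symm2 hs hu (qq_symm _)
  have hRs : ∀ i j, R i j = R j i := inv_symm2 hs hu idm_symm
  set S' : ι → ι → ℝ := fun i j => ∑ a, (Ψ' a i * Ψ x a j + Ψ x a i * Ψ' a j) with hS'
  have e0 : dpr (qq (Ψ x)) (Ring.inverse (Jop (A x) t) (0 - Jop (c • qq (Ψ x)) 0 R))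
      = dpr X (0 - Jop (c • qq (Ψ x)) 0 R) := (dpr_inv hs hu _ _).symm
  have e2 : dpr X (0 - Jop (c • qq (Ψ x)) 0 R) = - dpr X (Jop (c • qq (Ψ x)) 0 R) := by
    simp only [dpr, Pi.sub_apply, Pi.zero_apply, zero_sub, mul_neg, Finset.sum_neg_distrib]
  have e1 : dpr S' R = 2 * ∑ a, ∑ i, Ψ' a i * xi R (Ψ x a) i := by
    have e3 : ∀ a, ∑ i, Ψ' a i * xi R (Ψ x a) i = ∑ i, ∑ j, Ψ' a i * Ψ x a j * R i j := by
      intro a
      simp only [xi, Finset.mul_sum]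
      exact Finset.sum_congr rfl fun i _ => Finset.sum_congr rfl fun j _ => by ring
    have e4 : ∀ a, ∑ i, ∑ j, Ψ x a i * Ψ' a j * R i j = ∑ i, ∑ j, Ψ' a i * Ψ x a j * R i j := by
      intro a
      rw [Finset.sum_comm]
      refine Finset.sum_congr rfl fun i _ => Finset.sum_congr rfl fun j _ => ?_
      rw [hRs j i]
      ring
    have e5 : dpr S' R = ∑ a, ∑ i, ∑ j, (Ψ' a i * Ψ x a j + Ψ x a i * Ψ' a j) * R i j := by
      calc dpr S' R = ∑ i, ∑ j, ∑ a, (Ψ' a i * Ψ x a j + Ψ x a i * Ψ' a j) * R i j := by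
            simp only [dpr, hS', Finset.sum_mul]
        _ = ∑ i, ∑ a, ∑ j, (Ψ' a i * Ψ x a j + Ψ x a i * Ψ' a j) * R i j :=
            Finset.sum_congr rfl fun i _ => Finset.sum_comm
        _ = _ := Finset.sum_comm
    rw [e5, Finset.mul_sum]
    refine Finset.sum_congr rfl fun a _ => ?_
    simp only [add_mul, Finset.sum_add_distrib]
    rw [e4, e3]
    ring
  rw [e0, e2, e1, dpr_smul_Jop2, dpr_jordan_qq2 _ hXs hRs]
  ring

/-- `d/dx ⟨I, R⟩ = - c ∑_a |R Ψ_a|²`, when `A' = c Q`. -/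
theorem hasDerivAt_idR {A : ℝ → ι → ι → ℝ} {P : r → ι → ℝ} {c t x : ℝ}
    (hA : HasDerivAt A (c • qq P) x) (hu : IsUnit (Jop (A x) t)) (hs : ∀ a b, A x a b = A x b a) :
    HasDerivAt (fun s => dpr idm (Rsol (A s) t))
      (-(c * ∑ a, ∑ i, xi (Rsol (A x) t) (P a) i ^ 2)) x := by
  have hY := hasDerivAt_Rsol (A := A) (t := t) hA hu
  have h := hasDerivAt_dpr (hasDerivAt_const x (idm : ι → ι → ℝ)) hY
  refine h.congr_deriv ?_
  set R := Rsol (A x) t with hR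
  have hRs : ∀ i j, R i j = R j i := inv_symm2 hs hu idm_symm
  have e0 : dpr idm (Ring.inverse (Jop (A x) t) (0 - Jop (c • qq P) 0 R))
      = dpr R (0 - Jop (c • qq P) 0 R) := (dpr_inv hs hu _ _).symm
  have e2 : dpr R (0 - Jop (c • qq P) 0 R) = - dpr R (Jop (c • qq P) 0 R) := by
    simp only [dpr, Pi.sub_apply, Pi.zero_apply, zero_sub, mul_neg, Finset.sum_neg_distrib]
  have e3 : dpr (0 : ι → ι → ℝ) R = 0 := by
    simp only [dpr, Pi.zero_apply, zero_mul, Finset.sum_const_zero]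
  rw [e0, e2, e3, dpr_smul_Jop2, dpr_jordan_qq _ hRs]
  ring

end Vale.Agent.Lib.P371.SharpA
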