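import Vale.Agent.Lib.P371.Sharp.CotTwo

/-!
Kernel lemmas for the calibration family.
-/

open Real Filter Topology

namespace Vale.Agent.Lib.P371.SharpA

open Vale.Agent.Lib.P371.Sharp

/-- `cot_lemma2` for all large `m`, together with the convergence to the cotangent. -/
theorem cot_lemma3 {η ε : ℝ} (hη : 0 < η) (hε : 0 < ε) :
    ∃ m₀ : ℕ, ∀ m, m₀ ≤ m → ∀ p q : ℝ, p ∈ Set.Icc η (π - η) → q ∈ Set.Icc η (π - η) →
      |phi2 m p q - phi m p * phi m q - (1 - Dfun p q)| ≤ ε ∧ |phi m p| ≤ 1 / η + ε ∧
        |phi m p - Real.cot p| ≤ ε := by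
  have hpi := Real.pi_pos
  by_cases hε2 : η ≤ π / 2
  · set ε' := η / 2 with hε'
    have h0' : 0 < ε' := by positivity
    have h1' : ε' ≤ π / 2 := by linarith
    set C := 2 * (1 / Real.sin ε') + 2 with hC
    have hs : 0 < Real.sin ε' := Real.sin_pos_of_pos_of_lt_pi h0' (by linarith)
    have hC0 : 0 < C := by positivity
    obtain ⟨M, hM⟩ := exists_nat_ge (C / ε)
    obtain ⟨L, hL⟩ := exists_nat_ge (1 / ε)
    refine ⟨max (M + 1) (L + 1), fun m hmm p q hp hq => ?_⟩
    have hm1 : 1 ≤ m := le_trans (le_trans (by omega) (le_max_left _ _)) hmm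
    have hmR : (0 : ℝ) < m := by exact_mod_cast hm1
    have hmM : (M : ℝ) ≤ m := by
      have : M ≤ m := le_trans (le_trans (by omega) (le_max_left _ _)) hmm
      exact_mod_cast this
    have hmL : (L : ℝ) ≤ m := by
      have : L ≤ m := le_trans (le_trans (by omega) (le_max_right _ _)) hmm
      exact_mod_cast this
    have hb : C / (m : ℝ) ≤ ε := by
      rw [div_le_iff₀ hmR]
      have : C / ε ≤ m := hM.trans hmM
      rwa [div_le_iff₀ hε, mul_comm] at this
    have hb2 : 1 / (m : ℝ) ≤ ε := by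
      rw [div_le_iff₀ hmR]
      have : 1 / ε ≤ m := hL.trans hmL
      rwa [div_le_iff₀ hε, mul_comm] at this
    have hp0 : 0 < p := by linarith [hp.1]
    have hp3 : p < π := by linarith [hp.2]
    refine ⟨?_, ?_, ?_⟩
    · rw [phi_eq_cm, phi_eq_cm, phi2_eq_em]
      rcases eq_or_ne p q with rfl | hne
      · -- the diagonal, by continuity
        have sp : 0 < Real.sin p := Real.sin_pos_of_pos_of_lt_pi hp0 hp3
        have hc1 : ContinuousAt (fun q' => em m p q' - cm m p * cm m q' - 1) p :=
          ((continuousAt_em hp0 hp3 hp0 hp3 m).sub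
            (continuousAt_const.mul (continuousAt_cm hp0 hp3 m))).sub continuousAt_const
        have hsin : ContinuousAt Real.sin p := Real.continuous_sin.continuousAt
        have hc2 : ContinuousAt (fun q' => (Real.cos (q' - p) - Real.sinc (q' - p)) /
            (Real.sin p * Real.sin q')) p := by
          refine ContinuousAt.div ?_ (continuousAt_const.mul hsin) (mul_pos sp sp).ne'
          exact ((Real.continuous_cos.comp (continuous_id.sub continuous_const)).sub
            (Real.continuous_sinc.comp (continuous_id.sub continuous_const))).continuousAt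
        have hv : (Real.cos (p - p) - Real.sinc (p - p)) / (Real.sin p * Real.sin p) = 0 := by
          simp
        have ht : Tendsto (fun q' => |em m p q' - cm m p * cm m q' - 1| -
            |(Real.cos (q' - p) - Real.sinc (q' - p)) / (Real.sin p * Real.sin q')|)
            (𝓝[{p}ᶜ] p) (𝓝 (|em m p p - cm m p * cm m p - 1| - |(0 : ℝ)|)) := by
          have h1 := hc1.tendsto.abs
          have h2 := hc2.tendsto.abs
          rw [hv] at h2
          exact (h1.sub h2).mono_left nhdsWithin_le_nhds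
        have hle : |em m p p - cm m p * cm m p - 1| - |(0 : ℝ)| ≤ C / (m : ℝ) := by
          refine le_of_tendsto ht ?_
          have hI : Set.Ioo ε' (π - ε') ∈ 𝓝[{p}ᶜ] p :=
            mem_nhdsWithin_of_mem_nhds (Ioo_mem_nhds (by linarith [hp.1]) (by linarith [hp.2]))
          filter_upwards [self_mem_nhdsWithin, hI] with q' h1 h2
          have hqp : q' ≠ p := h1
          have hq0 : 0 < q' := by linarith [h2.1]
          have hq3 : q' < π := by linarith [h2.2]
          have h3 := abs_sub_D_le h0' h1' (by linarith [hp.1]) (by linarith [hp.2]) h2.1.le h2.2.le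
            hqp.symm hm1
          have h4 := Dfun_eq hp0 hp3 hq0 hq3 hqp.symm
          rw [← h4]
          have h5 : |em m p q' - cm m p * cm m q' - 1| ≤
              |em m p q' - cm m p * cm m q' - (1 - Dfun p q')| + |Dfun p q'| := by
            have : em m p q' - cm m p * cm m q' - 1 =
                (em m p q' - cm m p * cm m q' - (1 - Dfun p q')) - Dfun p q' := by ring
            rw [this]
            exact abs_sub _ _
          linarith
        have hz : Dfun p p = 0 := by simp [Dfun]
        rw [hz, sub_zero]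
        simp only [abs_zero, sub_zero] at hle
        exact hle.trans hb
      · exact (abs_sub_D_le h0' h1' (by linarith [hp.1]) (by linarith [hp.2]) (by linarith [hq.1])
          (by linarith [hq.2]) hne hm1).trans hb
    · rw [phi_eq_cm]
      have h2 := abs_cot_sub_cm_le hp0 hp3 hm1
      have h3 := abs_cot_le_inv hη hp.1 hp.2
      have h5 : |cm m p| ≤ |Real.cot p| + |Real.cot p - cm m p| := by
        have : cm m p = Real.cot p - (Real.cot p - cm m p) := by ring
        calc |cm m p| = |Real.cot p - (Real.cot p - cm m p)| := by rw [← this]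
          _ ≤ _ := abs_sub _ _
      linarith
    · rw [phi_eq_cm, abs_sub_comm]
      exact (abs_cot_sub_cm_le hp0 hp3 hm1).trans hb2
  · refine ⟨0, fun m _ p q hp _ => ?_⟩
    exfalso
    push Not at hε2
    linarith [hp.1, hp.2]


/-- The kernel `Dfun` is nonpositive on `(0, π)`. -/
theorem Dfun_nonpos {p q : ℝ} (hp0 : 0 < p) (hp1 : p < π) (hq0 : 0 < q) (hq1 : q < π) :
    Dfun p q ≤ 0 := by
  rcases eq_or_ne p q with rfl | h
  · simp [Dfun]
  · rw [Dfun_of_ne h]
    exact limit_le_zero hp0 hp1 hq0 hq1 h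

/-- The addition formula for the cotangent, in the form needed. -/
lemma cot_identity {p q : ℝ} (hp0 : π / 2 < p) (hp1 : p < π) (hq0 : π / 2 < q) (hq1 : q < π) :
    (Real.cot p + Real.cot q) * Real.cot (p + q - π) = Real.cot p * Real.cot q - 1 := by
  have hpi := Real.pi_pos
  have sp : 0 < Real.sin p := Real.sin_pos_of_pos_of_lt_pi (by linarith) hp1
  have sq : 0 < Real.sin q := Real.sin_pos_of_pos_of_lt_pi (by linarith) hq1
  have ss : 0 < Real.sin (p + q - π) := Real.sin_pos_of_pos_of_lt_pi (by linarith) (by linarith)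
  have e1 : Real.sin (p + q - π) = -Real.sin (p + q) := Real.sin_sub_pi _
  have e2 : Real.cos (p + q - π) = -Real.cos (p + q) := Real.cos_sub_pi _
  have hs : Real.sin (p + q) ≠ 0 := by
    intro h
    rw [e1, h] at ss
    simp at ss
  rw [Real.cot_eq_cos_div_sin, Real.cot_eq_cos_div_sin, Real.cot_eq_cos_div_sin, e1, e2,
    neg_div_neg_eq]
  have h1 : Real.cos p / Real.sin p + Real.cos q / Real.sin q =
      Real.sin (p + q) / (Real.sin p * Real.sin q) := by
    rw [Real.sin_add]
    field_simp
    ring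
  rw [h1]
  have h2 : Real.sin (p + q) / (Real.sin p * Real.sin q) * (Real.cos (p + q) / Real.sin (p + q)) =
      Real.cos (p + q) / (Real.sin p * Real.sin q) := by
    field_simp
  rw [h2, Real.cos_add]
  field_simp

/-- The Lipschitz estimate behind `kernel_ge`. -/
lemma lip_bound {u v w u0 v0 w0 e B : ℝ} (he : 0 ≤ e) (hB : 0 ≤ B) (h1 : |u - u0| ≤ e)
    (h2 : |v - v0| ≤ e) (h3 : |w - w0| ≤ e) (hv : |v| ≤ B) (hw : |w| ≤ B) (hu : |u| ≤ B)
    (hid : (u0 + v0) * w0 = u0 * v0 - 1) :
    2 - 2 * e * (3 * B + e + e) ≤ u * v + 1 - (u + v) * w := by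
  have hu0 : |u0| ≤ B + e := by
    have : u0 = u - (u - u0) := by ring
    rw [this]
    exact (abs_sub _ _).trans (add_le_add hu h1)
  have hv0 : |v0| ≤ B + e := by
    have : v0 = v - (v - v0) := by ring
    rw [this]
    exact (abs_sub _ _).trans (add_le_add hv h2)
  have a1 : |(u - u0) * v| ≤ e * B := by
    rw [abs_mul]
    exact mul_le_mul h1 hv (abs_nonneg _) he
  have a2 : |u0 * (v - v0)| ≤ (B + e) * e := by
    rw [abs_mul]
    exact mul_le_mul hu0 h2 (abs_nonneg _) (by positivity)
  have a3 : |(u - u0) * w| ≤ e * B := by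
    rw [abs_mul]
    exact mul_le_mul h1 hw (abs_nonneg _) he
  have a4 : |(v - v0) * w| ≤ e * B := by
    rw [abs_mul]
    exact mul_le_mul h2 hw (abs_nonneg _) he
  have a5 : |u0 * (w - w0)| ≤ (B + e) * e := by
    rw [abs_mul]
    exact mul_le_mul hu0 h3 (abs_nonneg _) (by positivity)
  have a6 : |v0 * (w - w0)| ≤ (B + e) * e := by
    rw [abs_mul]
    exact mul_le_mul hv0 h3 (abs_nonneg _) (by positivity)
  have e1 : u * v + 1 - (u + v) * w =
      2 + ((u - u0) * v + u0 * (v - v0)) - ((u - u0) * w + (v - v0) * w + u0 * (w - w0) +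
        v0 * (w - w0)) := by
    have : u * v + 1 - (u + v) * w - 2 = ((u - u0) * v + u0 * (v - v0)) -
        ((u - u0) * w + (v - v0) * w + u0 * (w - w0) + v0 * (w - w0)) +
        (u0 * v0 - 1 - (u0 + v0) * w0) := by ring
    rw [hid] at this
    linarith
  rw [e1]
  have b1 := (abs_le.1 a1).1
  have b2 := (abs_le.1 a2).1
  have b3 := (abs_le.1 a3).2
  have b4 := (abs_le.1 a4).2
  have b5 := (abs_le.1 a5).2
  have b6 := (abs_le.1 a6).2
  nlinarith

/-- The kernel of the extra term is at least `1 - ε`, uniformly on compact subsets. -/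
theorem kernel_ge {η ε : ℝ} (hη : 0 < η) (hε : 0 < ε) :
    ∃ m₀ : ℕ, ∀ m, m₀ ≤ m → ∀ g k : ℝ, g ∈ Set.Icc η (π - η) → k ∈ Set.Icc η (π - η) →
      1 - ε ≤ 1 / 2 * phi2 m ((g + π) / 2) ((k + π) / 2) -
          1 / 2 * (phi m ((g + π) / 2) + phi m ((k + π) / 2)) * phi m ((g + k) / 2) ∧
        |phi2 m ((g + π) / 2) ((g + π) / 2) - phi m ((g + π) / 2) ^ 2 - 1| ≤ ε ∧
        |phi m ((g + π) / 2)| ≤ 2 / η + ε := by
  have hpi := Real.pi_pos
  set e : ℝ := min 1 (ε / (6 / η + 6)) with he
  have hC : 0 < 6 / η + 6 := by positivity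
  have he0 : 0 < e := lt_min one_pos (by positivity)
  have he1 : e ≤ 1 := min_le_left _ _
  have he2 : e * (6 / η + 6) ≤ ε := by
    have : e ≤ ε / (6 / η + 6) := min_le_right _ _
    rwa [le_div_iff₀ hC] at this
  have heε : e ≤ ε := by
    have h5 : 0 < 6 / η := by positivity
    nlinarith
  obtain ⟨m0, hm0⟩ := cot_lemma3 (η := η / 2) (ε := e) (by positivity) he0
  refine ⟨m0, fun m hm g k hg hk => ?_⟩
  have hinv : 1 / (η / 2) = 2 / η := by field_simp
  have hηπ : η ≤ π / 2 := by linarith [hg.1, hg.2]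
  have hmem : ∀ y ∈ Set.Icc η (π - η), (y + π) / 2 ∈ Set.Icc (η / 2) (π - η / 2) := by
    intro y hy
    constructor <;> linarith [hy.1, hy.2]
  have hp := hmem g hg
  have hq := hmem k hk
  have hs : (g + k) / 2 ∈ Set.Icc (η / 2) (π - η / 2) := by
    constructor <;> linarith [hg.1, hg.2, hk.1, hk.2]
  set p := (g + π) / 2 with hpdef
  set q := (k + π) / 2 with hqdef
  set s := (g + k) / 2 with hsdef
  have hspq : s = p + q - π := by
    rw [hsdef, hpdef, hqdef]
    ring
  have h1 := hm0 m hm p q hp hq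
  have h2 := hm0 m hm q s hq hs
  have h3 := hm0 m hm s p hs hp
  have h4 := hm0 m hm p p hp hp
  rw [hinv] at h1 h2 h3 h4
  have hD : Dfun p q ≤ 0 := Dfun_nonpos (by linarith [hp.1]) (by linarith [hp.2])
    (by linarith [hq.1]) (by linarith [hq.2])
  have hid : (Real.cot p + Real.cot q) * Real.cot s = Real.cot p * Real.cot q - 1 := by
    rw [hspq]
    exact cot_identity (by rw [hpdef]; linarith [hg.1]) (by rw [hpdef]; linarith [hg.2])
      (by rw [hqdef]; linarith [hk.1]) (by rw [hqdef]; linarith [hk.2])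
  have hB : 0 ≤ 2 / η + e := by positivity
  have hL := lip_bound he0.le hB h1.2.2 h2.2.2 h3.2.2 h2.2.1 h3.2.1 h1.2.1 hid
  refine ⟨?_, ?_, h4.2.1.trans (by linarith)⟩
  · have h5 := abs_le.1 h1.1
    have h6 : phi m p * phi m q + 1 - e ≤ phi2 m p q := by linarith [h5.1]
    have h7 : e * (3 * (2 / η + e) + e + e) ≤ e * (6 / η + 5) := by
      refine mul_le_mul_of_nonneg_left ?_ he0.le
      have : 3 * (2 / η) = 6 / η := by ring
      nlinarith
    have h10 : e * (6 / η + 6) = e * (6 / η + 5) + e := by ring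
    linarith
  · have h8 : Dfun p p = 0 := by simp [Dfun]
    have h9 := h4.1
    rw [h8, sub_zero] at h9
    rw [sq]
    exact h9.trans heε

end Vale.Agent.Lib.P371.SharpA
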