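import Vale.Agent.Lib.P371.Sharp.RowsAlg
import Vale.Agent.Lib.P371.SharpA.Kernel
import Vale.Agent.Lib.P371.SharpA.Deriv
import Vale.Agent.Lib.P371.SharpA.Defs

/-!
The pointwise inequalities for the extra terms, in an eigenbasis of `M`.
-/

open Real

set_option linter.unusedSectionVars false

namespace Vale.Agent.Lib.P371.SharpA

open Vale.Agent.Lib.P371.Sharp Vale.Agent.Lib.P371.Sharp.Rows

variable {r ι : Type*} [Fintype r] [Fintype ι] [DecidableEq ι]

/-- The shifted array `A = (M + π I) / 2`. -/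
noncomputable def Ash (M : ι → ι → ℝ) : ι → ι → ℝ := fun i j => (M i j + if i = j then π else 0) / 2

lemma band_Ash {M : ι → ι → ℝ} {η : ℝ} (hη : 0 < η) (h : Band M η) : Band (Ash M) (η / 2) := by
  have key : ∀ e : ι → ℝ, ∑ i, e i ^ 2 = 1 → ∑ a, ∑ b, e a * Ash M a b * e b =
      (1 / 2) * (∑ a, ∑ b, e a * M a b * e b) + π / 2 := by
    intro e he
    have h1 : ∀ a, ∑ b, e a * Ash M a b * e b =
        (1 / 2) * ∑ b, e a * M a b * e b + (π / 2) * e a ^ 2 := by
      intro a
      have h2 : ∀ b, e a * Ash M a b * e b =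
          (1 / 2) * (e a * M a b * e b) + (π / 2) * (if a = b then e a * e b else 0) := by
        intro b
        simp only [Ash]
        split_ifs <;> ring
      simp only [h2, Finset.sum_add_distrib, ← Finset.mul_sum]
      simp [sq]
    simp only [h1, Finset.sum_add_distrib, ← Finset.mul_sum, he]
    ring
  refine ⟨?_, ?_, ?_⟩
  · intro a b
    simp only [Ash, h.symm a b, eq_comm]
  · intro e he
    rw [key e he]
    have h1 := h.lower e he
    have h2 := Real.pi_pos
    linarith
  · intro e he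
    rw [key e he]
    have h1 := h.upper e he
    linarith

/-- The eigenbasis of `M` is also an eigenbasis of `Ash M`. -/
noncomputable def eigAsh {M : ι → ι → ℝ} {η : ℝ} (E : EigenData M η) :
    EigenData (Ash M) (η / 2) where
  U := E.U
  lam := fun β => (E.lam β + π) / 2
  orth_col := E.orth_col
  orth_row := E.orth_row
  eig := by
    intro a β
    have h2 : ∀ c, Ash M a c * E.U c β =
        (1 / 2) * (M a c * E.U c β) + (π / 2) * (if a = c then E.U c β else 0) := by
      intro c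
      simp only [Ash]
      split_ifs <;> ring
    simp only [h2, Finset.sum_add_distrib, ← Finset.mul_sum, E.eig]
    simp only [Finset.sum_ite_eq, Finset.mem_univ, if_true]
    ring
  lam_mem := by
    intro β
    have h1 := E.lam_mem β
    have hpi := Real.pi_pos
    constructor
    · have := h1.1
      have h3 := h1.2
      linarith
    · have := h1.2
      linarith

private lemma sum_sym (Q : ι → ι → ℝ) (hQ : ∀ i j, Q i j = Q j i) (f : ι → ι → ℝ) :
    ∑ α, ∑ β, Q α β ^ 2 * f α β = ∑ α, ∑ β, Q α β ^ 2 * f β α := by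
  rw [Finset.sum_comm]
  refine Finset.sum_congr rfl fun α _ => Finset.sum_congr rfl fun β _ => ?_
  rw [hQ]

/-- The pointwise inequalities for the extra terms. -/
theorem alg_rowsA {M : ι → ι → ℝ} {η ε : ℝ} {m : ℕ} (hη : 0 < η) (h : Band M η)
    (hε : 0 ≤ ε)
    (hker : ∀ g k : ℝ, g ∈ Set.Icc η (π - η) → k ∈ Set.Icc η (π - η) →
      1 - ε ≤ 1 / 2 * phi2 m ((g + π) / 2) ((k + π) / 2) -
          1 / 2 * (phi m ((g + π) / 2) + phi m ((k + π) / 2)) * phi m ((g + k) / 2) ∧
        |phi2 m ((g + π) / 2) ((g + π) / 2) - phi m ((g + π) / 2) ^ 2 - 1| ≤ ε ∧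
        |phi m ((g + π) / 2)| ≤ 2 / η + ε)
    (P : r → ι → ℝ) (Y W R : ℤ → ι → ι → ℝ)
    (hY : ∀ k : ℤ, Jop M (k * π) (Y k) = qq P)
    (hW : ∀ k : ℤ, Jop (Ash M) (k * π) (W k) = qq P)
    (hR : ∀ k : ℤ, Jop (Ash M) (k * π) (R k) = idm) :
    (∑ a, ∑ i, (∑ k ∈ Finset.Icc (-(m : ℤ)) m, xi (Y k) (P a) i) *
          (∑ k ∈ Finset.Icc (-(m : ℤ)) m, xi (R k) (P a) i) -
        1 / 2 * ∑ k ∈ Finset.Icc (-(m : ℤ)) m, ∑ a, ∑ i, xi (W k) (P a) i * xi (R k) (P a) i ≤
      -((1 - ε) * tr2 P)) ∧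
    (∑ a, ∑ i, (∑ k ∈ Finset.Icc (-(m : ℤ)) m, xi (R k) (P a) i) ^ 2 -
        (∑ k ∈ Finset.Icc (-(m : ℤ)) m, ∑ a, ∑ i, xi (R k) (P a) i ^ 2 - rh P) ≤ ε * rh P) ∧
    |∑ k ∈ Finset.Icc (-(m : ℤ)) m, dpr (qq P) (R k)| ≤ (2 / η + ε) * rh P := by
  obtain ⟨E⟩ := exists_eigen h
  set T := Finset.Icc (-(m : ℤ)) m with hT
  set Qh := qq (hP E.U P) with hQh
  have hQs : ∀ i j, Qh i j = Qh j i := qq_symm _
  have hpi := Real.pi_pos
  obtain ⟨p, hp⟩ : ∃ p : ι → ℝ, ∀ α, p α = (E.lam α + π) / 2 := ⟨_, fun _ => rfl⟩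
  have hlam := E.lam_mem
  have hp0 : ∀ α, 0 < p α := fun α => by
    rw [hp]
    have := (hlam α).1
    linarith
  have hp1 : ∀ α, p α < π := fun α => by
    rw [hp]
    have := (hlam α).2
    linarith
  have hmid0 : ∀ α β, 0 < (E.lam α + E.lam β) / 2 := fun α β => by
    have := (hlam α).1
    have := (hlam β).1
    linarith
  have hmid1 : ∀ α β, (E.lam α + E.lam β) / 2 < π := fun α β => by
    have := (hlam α).2
    have := (hlam β).2
    linarith
  have hmp0 : ∀ α β, 0 < (p α + p β) / 2 := fun α β => by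
    have := hp0 α
    have := hp0 β
    linarith
  have hmp1 : ∀ α β, (p α + p β) / 2 < π := fun α β => by
    have := hp1 α
    have := hp1 β
    linarith
  have hsA : ∀ a b, Ash M a b = Ash M b a := (band_Ash hη h).symm
  -- the hats
  have hJ : ∀ (t : ℝ) (X : ι → ι → ℝ) (α β : ι),
      hm E.U (Jop (Ash M) t X) α β = ((p α + p β) / 2 + t) * hm E.U X α β := by
    intro t X α β
    have h1 := hm_Jop (eigAsh E) hsA t X α β
    rw [hp, hp]
    exact h1
  have hYh : ∀ (k : ℤ) α β, hm E.U (Y k) α β =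
      Qh α β * (1 / ((E.lam α + E.lam β) / 2 + k * π)) := by
    intro k α β
    have h1 := hm_Jop E h.symm (k * π) (Y k) α β
    rw [hY k, hm_qq E] at h1
    have h2 : (E.lam α + E.lam β) / 2 + k * π ≠ 0 := shift_ne (hmid0 α β) (hmid1 α β) k
    rw [hQh, h1]
    rw [mul_comm ((E.lam α + E.lam β) / 2 + k * π), mul_assoc, mul_one_div_cancel h2, mul_one]
  have hWh : ∀ (k : ℤ) α β, hm E.U (W k) α β =
      Qh α β * (1 / ((p α + p β) / 2 + k * π)) := by
    intro k α β
    have h1 := hJ (k * π) (W k) α β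
    rw [hW k, hm_qq E] at h1
    have h2 : (p α + p β) / 2 + k * π ≠ 0 := shift_ne (hmp0 α β) (hmp1 α β) k
    rw [hQh, h1]
    rw [mul_comm ((p α + p β) / 2 + k * π), mul_assoc, mul_one_div_cancel h2, mul_one]
  have hid : ∀ α β, hm E.U idm α β = if α = β then 1 else 0 := by
    intro α β
    rw [← E.orth_col α β]
    simp only [hm, idm]
    refine Finset.sum_congr rfl fun i _ => ?_
    simp [mul_ite, ite_mul]
  have hne : ∀ α (k : ℤ), p α + k * π ≠ 0 := fun α k => shift_ne (hp0 α) (hp1 α) k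
  have hRh : ∀ (k : ℤ) α β, hm E.U (R k) α β = if α = β then 1 / (p α + k * π) else 0 := by
    intro k α β
    have h1 := hJ (k * π) (R k) α β
    rw [hR k, hid] at h1
    have h2 : (p α + p β) / 2 + k * π ≠ 0 := shift_ne (hmp0 α β) (hmp1 α β) k
    by_cases hab : α = β
    · subst hab
      rw [if_pos rfl] at h1 ⊢
      have h3 := hne α k
      have e : (p α + p α) / 2 = p α := by ring
      rw [e] at h1
      field_simp
      linarith
    · rw [if_neg hab] at h1 ⊢
      have h3 := (mul_eq_zero.mp h1.symm).resolve_left h2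
      exact h3
  have hBR : ∀ (X : ι → ι → ℝ) (l : ℤ), ∑ a, ∑ i, xi X (P a) i * xi (R l) (P a) i =
      ∑ α, ∑ β, hm E.U X α β * (1 / (p α + l * π)) * Qh β α := by
    intro X l
    rw [rows_bilin E]
    refine Finset.sum_congr rfl fun α _ => Finset.sum_congr rfl fun β _ => ?_
    simp only [hRh, mul_ite, ite_mul, mul_zero, zero_mul, Finset.sum_ite_eq, Finset.mem_univ,
      if_true]
    rfl
  have hRR : ∀ (k l : ℤ), ∑ a, ∑ i, xi (R k) (P a) i * xi (R l) (P a) i =
      ∑ α, Qh α α * (1 / (p α + k * π) * (1 / (p α + l * π))) := by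
    intro k l
    rw [hBR]
    refine Finset.sum_congr rfl fun α _ => ?_
    simp only [hRh, mul_ite, ite_mul, mul_zero, zero_mul, Finset.sum_ite_eq, Finset.mem_univ,
      if_true]
    ring
  have hrh : rh P = ∑ α, Qh α α := by
    have h1 : rh P = rh2 (hP E.U P) := (rh2_hP E P).symm
    rw [h1, rh2_eq]
    refine Finset.sum_congr rfl fun α _ => ?_
    simp only [hQh, qq, sq]
  have hQd : ∀ α, 0 ≤ Qh α α := fun α => by
    simp only [hQh, qq]
    exact Finset.sum_nonneg fun _ _ => mul_self_nonneg _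
  have htr : tr2 P = ∑ α, ∑ β, Qh α β ^ 2 := by
    have h1 : tr2 P = dpr (qq P) (qq P) := by
      simp only [tr2, dpr, sq]
      rfl
    rw [h1, dpr_hm E]
    simp only [dpr, hm_qq E, sq]
    rfl
  refine ⟨?_, ?_, ?_⟩
  · -- first claim
    have h1 : ∑ a, ∑ i, (∑ k ∈ T, xi (Y k) (P a) i) * (∑ k ∈ T, xi (R k) (P a) i) =
        ∑ α, ∑ β, Qh α β ^ 2 * (phi m ((E.lam α + E.lam β) / 2) * phi m (p α)) := by
      calc ∑ a, ∑ i, (∑ k ∈ T, xi (Y k) (P a) i) * (∑ k ∈ T, xi (R k) (P a) i)
          = ∑ a, ∑ i, ∑ k ∈ T, ∑ l ∈ T, xi (Y k) (P a) i * xi (R l) (P a) i := by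
            refine Finset.sum_congr rfl fun a _ => Finset.sum_congr rfl fun i _ => ?_
            rw [Finset.sum_mul_sum]
        _ = ∑ a, ∑ k ∈ T, ∑ l ∈ T, ∑ i, xi (Y k) (P a) i * xi (R l) (P a) i := by
            refine Finset.sum_congr rfl fun a _ => ?_
            rw [Finset.sum_comm]
            refine Finset.sum_congr rfl fun k _ => ?_
            rw [Finset.sum_comm]
        _ = ∑ k ∈ T, ∑ l ∈ T, ∑ a, ∑ i, xi (Y k) (P a) i * xi (R l) (P a) i := by
            rw [Finset.sum_comm]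
            refine Finset.sum_congr rfl fun k _ => ?_
            rw [Finset.sum_comm]
        _ = ∑ k ∈ T, ∑ l ∈ T, ∑ α, ∑ β,
              Qh α β ^ 2 * (1 / ((E.lam α + E.lam β) / 2 + k * π) * (1 / (p α + l * π))) := by
            refine Finset.sum_congr rfl fun k _ => Finset.sum_congr rfl fun l _ => ?_
            rw [hBR]
            refine Finset.sum_congr rfl fun α _ => Finset.sum_congr rfl fun β _ => ?_
            rw [hYh, hQs β α]
            ring
        _ = ∑ k ∈ T, ∑ α, ∑ β, ∑ l ∈ T,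
              Qh α β ^ 2 * (1 / ((E.lam α + E.lam β) / 2 + k * π) * (1 / (p α + l * π))) := by
            refine Finset.sum_congr rfl fun k _ => ?_
            rw [Finset.sum_comm]
            refine Finset.sum_congr rfl fun α _ => ?_
            rw [Finset.sum_comm]
        _ = ∑ α, ∑ β, ∑ k ∈ T, ∑ l ∈ T,
              Qh α β ^ 2 * (1 / ((E.lam α + E.lam β) / 2 + k * π) * (1 / (p α + l * π))) := by
            rw [Finset.sum_comm]
            refine Finset.sum_congr rfl fun α _ => ?_
            rw [Finset.sum_comm]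
        _ = _ := by
            refine Finset.sum_congr rfl fun α _ => Finset.sum_congr rfl fun β _ => ?_
            rw [phi, phi, Finset.sum_mul_sum, Finset.mul_sum]
            refine Finset.sum_congr rfl fun k _ => ?_
            rw [Finset.mul_sum]
    obtain ⟨S, hS⟩ : ∃ S : ι → ι → ℝ, ∀ α β, S α β =
        ∑ k ∈ T, 1 / ((p α + p β) / 2 + k * π) * (1 / (p α + k * π)) := ⟨_, fun _ _ => rfl⟩
    have h2 : ∑ k ∈ T, ∑ a, ∑ i, xi (W k) (P a) i * xi (R k) (P a) i =
        ∑ α, ∑ β, Qh α β ^ 2 * S α β := by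
      calc ∑ k ∈ T, ∑ a, ∑ i, xi (W k) (P a) i * xi (R k) (P a) i
          = ∑ k ∈ T, ∑ α, ∑ β, Qh α β ^ 2 *
              (1 / ((p α + p β) / 2 + k * π) * (1 / (p α + k * π))) := by
            refine Finset.sum_congr rfl fun k _ => ?_
            rw [hBR]
            refine Finset.sum_congr rfl fun α _ => Finset.sum_congr rfl fun β _ => ?_
            rw [hWh, hQs β α]
            ring
        _ = ∑ α, ∑ β, ∑ k ∈ T, Qh α β ^ 2 *
              (1 / ((p α + p β) / 2 + k * π) * (1 / (p α + k * π))) := by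
            rw [Finset.sum_comm]
            refine Finset.sum_congr rfl fun α _ => ?_
            rw [Finset.sum_comm]
        _ = _ := by
            refine Finset.sum_congr rfl fun α _ => Finset.sum_congr rfl fun β _ => ?_
            rw [hS, Finset.mul_sum]
    have hSs : ∀ α β, S α β + S β α = 2 * phi2 m (p α) (p β) := by
      intro α β
      rw [hS, hS, phi2, ← Finset.sum_add_distrib, Finset.mul_sum]
      refine Finset.sum_congr rfl fun k _ => ?_
      have e1 := hne α k
      have e2 := hne β k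
      have e3 : (p α + p β) / 2 + k * π ≠ 0 := shift_ne (hmp0 α β) (hmp1 α β) k
      have e4 : (p β + p α) / 2 + k * π = (p α + p β) / 2 + k * π := by ring
      rw [e4]
      have e5 : (p α + p β) / 2 + k * π = ((p α + k * π) + (p β + k * π)) / 2 := by ring
      have e6 : (p α + k * π) + (p β + k * π) ≠ 0 := by
        intro h0
        apply e3
        rw [e5, h0]
        simp
      rw [e5]
      field_simp
      ring
    -- the form with `G`
    obtain ⟨G, hG⟩ : ∃ G : ι → ι → ℝ, ∀ α β, G α β =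
        phi m ((E.lam α + E.lam β) / 2) * phi m (p α) - 1 / 2 * S α β := ⟨_, fun _ _ => rfl⟩
    have h3 : ∑ a, ∑ i, (∑ k ∈ T, xi (Y k) (P a) i) * (∑ k ∈ T, xi (R k) (P a) i) -
        1 / 2 * ∑ k ∈ T, ∑ a, ∑ i, xi (W k) (P a) i * xi (R k) (P a) i =
        ∑ α, ∑ β, Qh α β ^ 2 * G α β := by
      rw [h1, h2, Finset.mul_sum, ← Finset.sum_sub_distrib]
      refine Finset.sum_congr rfl fun α _ => ?_
      rw [Finset.mul_sum, ← Finset.sum_sub_distrib]
      refine Finset.sum_congr rfl fun β _ => ?_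
      rw [hG]
      ring
    have h4 := sum_sym Qh hQs G
    have h5 : ∑ α, ∑ β, Qh α β ^ 2 * G α β + ∑ α, ∑ β, Qh α β ^ 2 * G β α ≤
        ∑ α, ∑ β, Qh α β ^ 2 * (-(2 * (1 - ε))) := by
      rw [← Finset.sum_add_distrib]
      refine Finset.sum_le_sum fun α _ => ?_
      rw [← Finset.sum_add_distrib]
      refine Finset.sum_le_sum fun β _ => ?_
      have h6 := (hker (E.lam α) (E.lam β) (hlam α) (hlam β)).1
      rw [← hp, ← hp] at h6
      have h7 := hSs α β
      have e1 : (E.lam β + E.lam α) / 2 = (E.lam α + E.lam β) / 2 := by ring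
      have h8 : G α β + G β α ≤ -(2 * (1 - ε)) := by
        rw [hG, hG, e1]
        nlinarith
      have h9 := mul_le_mul_of_nonneg_left h8 (sq_nonneg (Qh α β))
      linarith
    have h10 : ∑ α, ∑ β, Qh α β ^ 2 * (-(2 * (1 - ε))) = -(2 * (1 - ε)) * tr2 P := by
      rw [htr, Finset.mul_sum]
      refine Finset.sum_congr rfl fun α _ => ?_
      rw [Finset.mul_sum]
      refine Finset.sum_congr rfl fun β _ => ?_
      ring
    rw [h3]
    rw [h10, ← h4] at h5
    linarith
  · -- second claim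
    have h1 : ∑ a, ∑ i, (∑ k ∈ T, xi (R k) (P a) i) ^ 2 = ∑ α, Qh α α * phi m (p α) ^ 2 := by
      calc ∑ a, ∑ i, (∑ k ∈ T, xi (R k) (P a) i) ^ 2
          = ∑ a, ∑ i, ∑ k ∈ T, ∑ l ∈ T, xi (R k) (P a) i * xi (R l) (P a) i := by
            refine Finset.sum_congr rfl fun a _ => Finset.sum_congr rfl fun i _ => ?_
            rw [sq, Finset.sum_mul_sum]
        _ = ∑ a, ∑ k ∈ T, ∑ l ∈ T, ∑ i, xi (R k) (P a) i * xi (R l) (P a) i := by
            refine Finset.sum_congr rfl fun a _ => ?_
            rw [Finset.sum_comm]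
            refine Finset.sum_congr rfl fun k _ => ?_
            rw [Finset.sum_comm]
        _ = ∑ k ∈ T, ∑ l ∈ T, ∑ a, ∑ i, xi (R k) (P a) i * xi (R l) (P a) i := by
            rw [Finset.sum_comm]
            refine Finset.sum_congr rfl fun k _ => ?_
            rw [Finset.sum_comm]
        _ = ∑ k ∈ T, ∑ l ∈ T, ∑ α, Qh α α * (1 / (p α + k * π) * (1 / (p α + l * π))) := by
            refine Finset.sum_congr rfl fun k _ => Finset.sum_congr rfl fun l _ => hRR k l
        _ = ∑ k ∈ T, ∑ α, ∑ l ∈ T, Qh α α * (1 / (p α + k * π) * (1 / (p α + l * π))) := by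
            refine Finset.sum_congr rfl fun k _ => ?_
            rw [Finset.sum_comm]
        _ = ∑ α, ∑ k ∈ T, ∑ l ∈ T, Qh α α * (1 / (p α + k * π) * (1 / (p α + l * π))) :=
            Finset.sum_comm
        _ = _ := by
            refine Finset.sum_congr rfl fun α _ => ?_
            rw [sq, phi, Finset.sum_mul_sum, Finset.mul_sum]
            refine Finset.sum_congr rfl fun k _ => ?_
            rw [Finset.mul_sum]
    have h2 : ∑ k ∈ T, ∑ a, ∑ i, xi (R k) (P a) i ^ 2 = ∑ α, Qh α α * phi2 m (p α) (p α) := by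
      calc ∑ k ∈ T, ∑ a, ∑ i, xi (R k) (P a) i ^ 2
          = ∑ k ∈ T, ∑ α, Qh α α * (1 / (p α + k * π) * (1 / (p α + k * π))) := by
            refine Finset.sum_congr rfl fun k _ => ?_
            rw [← hRR k k]
            simp only [sq]
        _ = ∑ α, ∑ k ∈ T, Qh α α * (1 / (p α + k * π) * (1 / (p α + k * π))) := Finset.sum_comm
        _ = _ := by
            refine Finset.sum_congr rfl fun α _ => ?_
            rw [phi2, Finset.mul_sum]
            refine Finset.sum_congr rfl fun k _ => ?_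
            rw [one_div_mul_one_div]
    rw [h1, h2, hrh]
    have h3 : ∑ α, Qh α α * phi m (p α) ^ 2 - (∑ α, Qh α α * phi2 m (p α) (p α) - ∑ α, Qh α α) =
        ∑ α, Qh α α * (phi m (p α) ^ 2 - phi2 m (p α) (p α) + 1) := by
      rw [← Finset.sum_sub_distrib, ← Finset.sum_sub_distrib]
      refine Finset.sum_congr rfl fun α _ => ?_
      ring
    rw [h3, Finset.mul_sum]
    refine Finset.sum_le_sum fun α _ => ?_
    have h4 := (hker (E.lam α) (E.lam α) (hlam α) (hlam α)).2.1
    rw [← hp] at h4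
    have h5 := (abs_le.mp h4).1
    have h6 : phi m (p α) ^ 2 - phi2 m (p α) (p α) + 1 ≤ ε := by linarith
    have h7 := mul_le_mul_of_nonneg_left h6 (hQd α)
    linarith
  · -- third claim
    have h1 : ∑ k ∈ T, dpr (qq P) (R k) = ∑ α, Qh α α * phi m (p α) := by
      calc ∑ k ∈ T, dpr (qq P) (R k)
          = ∑ k ∈ T, ∑ α, Qh α α * (1 / (p α + k * π)) := by
            refine Finset.sum_congr rfl fun k _ => ?_
            rw [dpr_hm E]
            refine Finset.sum_congr rfl fun α _ => ?_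
            simp only [hRh, hm_qq E, mul_ite, mul_zero, Finset.sum_ite_eq, Finset.mem_univ, if_true]
            rfl
        _ = ∑ α, ∑ k ∈ T, Qh α α * (1 / (p α + k * π)) := Finset.sum_comm
        _ = _ := by
            refine Finset.sum_congr rfl fun α _ => ?_
            rw [phi, Finset.mul_sum]
    rw [h1, hrh]
    calc |∑ α, Qh α α * phi m (p α)| ≤ ∑ α, |Qh α α * phi m (p α)| :=
          Finset.abs_sum_le_sum_abs _ _
      _ ≤ ∑ α, Qh α α * (2 / η + ε) := by
          refine Finset.sum_le_sum fun α _ => ?_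
          rw [abs_mul, abs_of_nonneg (hQd α)]
          have h2 := (hker (E.lam α) (E.lam α) (hlam α) (hlam α)).2.2
          rw [← hp] at h2
          exact mul_le_mul_of_nonneg_left h2 (hQd α)
      _ = _ := by
          rw [Finset.mul_sum]
          refine Finset.sum_congr rfl fun α _ => ?_
          ring

end Vale.Agent.Lib.P371.SharpA
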