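import Vale.Agent.Lib.P371.SharpA.Mix

/-!
The pointwise comparison `Xcl t ≤ (1/4) Lam1 ((4/3) t)` and the resulting closed form bound
`dMix μ ≤ (1/4) (3/4)^(1-μ) cMix μ`.
-/

open Set MeasureTheory Real Filter Topology

namespace Vale.Agent.Lib.P371.SharpA

noncomputable section

/-- `Xcl` in closed form. -/
def Xf (t : ℝ) : ℝ := 4 / 9 * ((1 + 4 / 3 * t ^ 2) * √(4 * t ^ 2 + 3) - 3 * t - 8 / 3 * t ^ 3)

lemma sq_ww (t : ℝ) : √(4 * t ^ 2 + 3) ^ 2 = 4 * t ^ 2 + 3 := Real.sq_sqrt (by positivity)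

lemma sAux_eq_sub {t : ℝ} (ht : 0 ≤ t) : sAux t = 2 / 3 * (√(4 * t ^ 2 + 3) - 2 * t) := by
  have hw := sq_ww t
  have hw0 : 0 < √(4 * t ^ 2 + 3) := sqrt_aux_pos t
  unfold sAux
  have hd : 0 < 2 * t + √(4 * t ^ 2 + 3) := by linarith
  rw [div_eq_iff hd.ne']
  nlinarith

lemma Xcl_eq_Xf {t : ℝ} (ht : 0 ≤ t) : Xcl t = Xf t := by
  have hw := sq_ww t
  unfold Xcl Xf
  rw [sAux_eq_sub ht]
  obtain ⟨w, hwd⟩ : ∃ w, w = √(4 * t ^ 2 + 3) := ⟨_, rfl⟩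
  rw [← hwd] at hw ⊢
  have h3 : w ^ 3 = w * (4 * t ^ 2 + 3) := by rw [← hw]; ring
  ring_nf
  ring_nf at h3 hw
  rw [h3, hw]
  ring

lemma hasDerivAt_ww (t : ℝ) :
    HasDerivAt (fun t : ℝ => √(4 * t ^ 2 + 3)) (4 * t / √(4 * t ^ 2 + 3)) t := by
  have h1 : HasDerivAt (fun t : ℝ => 4 * t ^ 2 + 3) (4 * (2 * t)) t := by
    have := ((hasDerivAt_id t).pow 2).const_mul (4 : ℝ)
    simpa using this.add_const (3 : ℝ)
  have h2 := h1.sqrt (by positivity)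
  convert h2 using 1
  have hw0 : √(4 * t ^ 2 + 3) ≠ 0 := (sqrt_aux_pos t).ne'
  field_simp

lemma hasDerivAt_Nw (t : ℝ) :
    HasDerivAt (fun t : ℝ => (1 + 4 / 3 * t ^ 2) * √(4 * t ^ 2 + 3))
      (4 * t * √(4 * t ^ 2 + 3)) t := by
  have h1 : HasDerivAt (fun t : ℝ => 1 + 4 / 3 * t ^ 2) (4 / 3 * (2 * t)) t := by
    have := ((hasDerivAt_id t).pow 2).const_mul (4 / 3 : ℝ)
    simpa using this.const_add (1 : ℝ)
  have h2 : HasDerivAt (fun t : ℝ => (1 + 4 / 3 * t ^ 2) * √(4 * t ^ 2 + 3)) _ t :=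
    h1.mul (hasDerivAt_ww t)
  refine h2.congr_deriv ?_
  have hw := sq_ww t
  have hw0 : √(4 * t ^ 2 + 3) ≠ 0 := (sqrt_aux_pos t).ne'
  field_simp
  rw [hw]
  ring

/-- The function whose monotonicity gives the comparison. -/
def Ecmp (t : ℝ) : ℝ :=
  arctan (3 / 4 * t⁻¹) - (4 * Xf t + 8 / 3 * t) / (2 * (1 + 16 / 9 * t ^ 2))

lemma hasDerivAt_Ecmp {t : ℝ} (ht : 0 < t) :
    HasDerivAt Ecmp
      (-(32 / 3 * t * (√(4 * t ^ 2 + 3) * (3 + 16 * t ^ 2) - 18 * t - 32 * t ^ 3) /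
        (9 + 16 * t ^ 2) ^ 2)) t := by
  have h1 : HasDerivAt (fun t : ℝ => 3 / 4 * t⁻¹) (3 / 4 * (-(t ^ 2)⁻¹)) t :=
    (hasDerivAt_inv ht.ne').const_mul _
  have h2 := h1.arctan
  have h3 : HasDerivAt (fun t : ℝ => 4 * Xf t + 8 / 3 * t)
      (4 * (4 / 9 * (4 * t * √(4 * t ^ 2 + 3) - 3 - 8 / 3 * (3 * t ^ 2))) + 8 / 3) t := by
    have a1 := hasDerivAt_Nw t
    have a2 : HasDerivAt (fun t : ℝ => 3 * t) 3 t := by
      simpa using (hasDerivAt_id t).const_mul (3 : ℝ)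
    have a3 : HasDerivAt (fun t : ℝ => 8 / 3 * t ^ 3) (8 / 3 * (3 * t ^ 2)) t := by
      have := ((hasDerivAt_id t).pow 3).const_mul (8 / 3 : ℝ)
      simpa using this
    have a4 := (((a1.sub a2).sub a3).const_mul (4 / 9 : ℝ)).const_mul (4 : ℝ)
    have a5 : HasDerivAt (fun t : ℝ => 8 / 3 * t) (8 / 3) t := by
      simpa using (hasDerivAt_id t).const_mul (8 / 3 : ℝ)
    exact a4.add a5
  have h4 : HasDerivAt (fun t : ℝ => 2 * (1 + 16 / 9 * t ^ 2)) (2 * (16 / 9 * (2 * t))) t := by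
    have := (((hasDerivAt_id t).pow 2).const_mul (16 / 9 : ℝ)).const_add (1 : ℝ)
    simpa using this.const_mul (2 : ℝ)
  have hD : (2 * (1 + 16 / 9 * t ^ 2) : ℝ) ≠ 0 := by positivity
  have h5 : HasDerivAt Ecmp _ t := h2.sub (h3.div h4 hD)
  refine h5.congr_deriv ?_
  unfold Xf
  generalize √(4 * t ^ 2 + 3) = w
  have h9 : (9 + 16 * t ^ 2 : ℝ) ≠ 0 := by positivity
  have h10 : (9 + 16 * t ^ 2 : ℝ) = 9 * (1 + 16 / 9 * t ^ 2) := by ring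
  have h11 : (1 + (3 / 4 * t⁻¹) ^ 2 : ℝ) = (9 + 16 * t ^ 2) / (16 * t ^ 2) := by
    field_simp
    ring
  rw [h11]
  field_simp
  ring

lemma ww_key {t : ℝ} (ht : 0 < t) : 18 * t + 32 * t ^ 3 ≤ √(4 * t ^ 2 + 3) * (3 + 16 * t ^ 2) := by
  have hw := sq_ww t
  have hw0 := sqrt_aux_pos t
  refine le_of_pow_le_pow_left₀ two_ne_zero (by positivity) ?_
  rw [mul_pow, hw]
  nlinarith

lemma deriv_Ecmp_nonpos {t : ℝ} (ht : 0 < t) :
    -(32 / 3 * t * (√(4 * t ^ 2 + 3) * (3 + 16 * t ^ 2) - 18 * t - 32 * t ^ 3) /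
        (9 + 16 * t ^ 2) ^ 2) ≤ 0 := by
  have := ww_key ht
  have h : 0 ≤ √(4 * t ^ 2 + 3) * (3 + 16 * t ^ 2) - 18 * t - 32 * t ^ 3 := by linarith
  have : 0 ≤ 32 / 3 * t * (√(4 * t ^ 2 + 3) * (3 + 16 * t ^ 2) - 18 * t - 32 * t ^ 3) /
        (9 + 16 * t ^ 2) ^ 2 := by positivity
  linarith

lemma antitoneOn_Ecmp : AntitoneOn Ecmp (Ioi 0) := by
  have hd : ∀ t ∈ Ioi (0 : ℝ), HasDerivAt Ecmp _ t := fun t ht => hasDerivAt_Ecmp ht
  refine antitoneOn_of_deriv_nonpos (convex_Ioi 0) ?_ ?_ ?_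
  · exact fun t ht => (hd t ht).continuousAt.continuousWithinAt
  · rw [interior_Ioi]
    exact fun t ht => (hd t ht).differentiableAt.differentiableWithinAt
  · intro t ht
    rw [interior_Ioi] at ht
    rw [(hd t ht).deriv]
    exact deriv_Ecmp_nonpos ht

lemma tendsto_Ecmp : Tendsto Ecmp atTop (𝓝 0) := by
  have h1 : Tendsto (fun t : ℝ => arctan (3 / 4 * t⁻¹)) atTop (𝓝 0) := by
    have h0 : Tendsto (fun t : ℝ => 3 / 4 * t⁻¹) atTop (𝓝 0) := by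
      simpa using tendsto_inv_atTop_zero.const_mul (3 / 4 : ℝ)
    have := (Real.continuous_arctan.tendsto 0).comp h0
    simpa [Function.comp_def] using this
  have h2 : Tendsto (fun t : ℝ => (4 * Xf t + 8 / 3 * t) / (2 * (1 + 16 / 9 * t ^ 2))) atTop
      (𝓝 0) := by
    have h3 : Tendsto (fun t : ℝ => 3 * t⁻¹) atTop (𝓝 0) := by
      simpa using tendsto_inv_atTop_zero.const_mul (3 : ℝ)
    refine squeeze_zero' ?_ ?_ h3
    · filter_upwards [eventually_ge_atTop (1 : ℝ)] with t ht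
      have ht0 : (0 : ℝ) ≤ t := by linarith
      have hX : 0 ≤ Xf t := by
        rw [← Xcl_eq_Xf ht0]
        exact Xcl_nonneg ht0
      positivity
    · filter_upwards [eventually_ge_atTop (1 : ℝ)] with t ht
      have ht0 : (0 : ℝ) ≤ t := by linarith
      have ht1 : (0 : ℝ) < t := by linarith
      have hX : Xf t ≤ 2 := by
        rw [← Xcl_eq_Xf ht0]
        exact (Xcl_le_sAux ht0).trans (sAux_le_two ht0)
      rw [div_le_iff₀ (by positivity)]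
      have e : 3 * t⁻¹ * (2 * (1 + 16 / 9 * t ^ 2)) = 6 * t⁻¹ + 32 / 3 * t := by
        field_simp
        ring
      rw [e]
      have h5 : 0 ≤ t⁻¹ := by positivity
      nlinarith
  have h := h1.sub h2
  rw [sub_zero] at h
  exact h

lemma Ecmp_nonneg {t : ℝ} (ht : 0 < t) : 0 ≤ Ecmp t := by
  refine le_of_tendsto tendsto_Ecmp ?_
  filter_upwards [eventually_ge_atTop t] with s hs
  exact antitoneOn_Ecmp (mem_Ioi.2 ht) (mem_Ioi.2 (lt_of_lt_of_le ht hs)) hs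

/-- **The pointwise comparison.** -/
theorem Xcl_le_Lam1 {t : ℝ} (ht : 0 < t) : Xcl t ≤ 1 / 4 * Lam1 (4 / 3 * t) := by
  rw [Xcl_eq_Xf ht.le]
  have hE := Ecmp_nonneg ht
  unfold Ecmp at hE
  have hD : (0 : ℝ) < 2 * (1 + 16 / 9 * t ^ 2) := by positivity
  have h1 : (4 * Xf t + 8 / 3 * t) / (2 * (1 + 16 / 9 * t ^ 2)) ≤ arctan (3 / 4 * t⁻¹) := by
    linarith
  rw [div_le_iff₀ hD] at h1
  unfold Lam1
  have e1 : 1 / (4 / 3 * t) = 3 / 4 * t⁻¹ := by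
    field_simp
  rw [e1]
  have e2 : (4 / 3 * t) ^ 2 = 16 / 9 * t ^ 2 := by ring
  rw [e2]
  nlinarith

/-- **The closed form bound for the constants.** -/
theorem dMix_le {μ : ℝ} (h0 : 0 < μ) (h1 : μ < 1) :
    dMix μ ≤ 1 / 4 * (3 / 4 : ℝ) ^ (1 - μ) * cMix μ := by
  have hs : ∀ a : ℝ, a ^ (-μ) * (1 / 4 * Lam1 (4 / 3 * a)) =
      1 / 4 * (a ^ (-μ) * Lam1 (a / (3 / 4))) := by
    intro a
    have : a / (3 / 4) = 4 / 3 * a := by ring
    rw [this]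
    ring
  have hI : IntegrableOn (fun a : ℝ => a ^ (-μ) * (1 / 4 * Lam1 (4 / 3 * a))) (Ioi 0) := by
    simp only [hs]
    exact (integrableOn_scale (integrableOn_Lam1 h0 h1) (by norm_num : (0 : ℝ) < 3 / 4)).const_mul _
  have hmono : ∫ t in Ioi (0 : ℝ), t ^ (-μ) * Xcl t ≤
      ∫ t in Ioi (0 : ℝ), t ^ (-μ) * (1 / 4 * Lam1 (4 / 3 * t)) := by
    refine setIntegral_mono_on (integrableOn_Xcl h0 h1) hI measurableSet_Ioi fun t ht => ?_
    exact mul_le_mul_of_nonneg_left (Xcl_le_Lam1 ht) (Real.rpow_nonneg (le_of_lt ht) _)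
  have hval : ∫ t in Ioi (0 : ℝ), t ^ (-μ) * (1 / 4 * Lam1 (4 / 3 * t)) =
      1 / 4 * (3 / 4 : ℝ) ^ (1 - μ) * cMix μ := by
    simp only [hs]
    rw [integral_const_mul, integral_scale Lam1 μ (by norm_num : (0 : ℝ) < 3 / 4)]
    unfold cMix
    ring
  unfold dMix at *
  rw [← hval]
  exact hmono

/-- The bound at `γ = 5/4`: `(2/√3) L^cl_{5/4} = 0.2294…` and `1/4 * (3/4)^(1/2) = √3/8 < 0.22`. -/
theorem numeric_bound : dMix (1 / 2) ≤ 0.22 * cMix (1 / 2) := by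
  have h0 : (0 : ℝ) < 1 / 2 := by norm_num
  have h1 : (1 / 2 : ℝ) < 1 := by norm_num
  refine (dMix_le h0 h1).trans ?_
  refine mul_le_mul_of_nonneg_right ?_ (cMix_pos h0 h1).le
  have e : (1 - 1 / 2 : ℝ) = 1 / 2 := by norm_num
  rw [e, ← Real.sqrt_eq_rpow]
  have : √(3 / 4 : ℝ) ≤ 0.88 := by
    rw [Real.sqrt_le_left (by norm_num)]
    norm_num
  linarith

end

end Vale.Agent.Lib.P371.SharpA
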