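import Vale.Agent.Lib.P371.SharpA.Alg
import Vale.Agent.Lib.P371.Sharp.RowsCore

/-!
The core inequality for the calibration family, on a compact interval, for `C¹` rows.
-/

open Set MeasureTheory Real

set_option linter.unusedSectionVars false

namespace Vale.Agent.Lib.P371.SharpA

open Vale.Agent.Lib.P371.Sharp Vale.Agent.Lib.P371.Sharp.Rows

variable {r ι : Type*} [Fintype r] [Fintype ι] [DecidableEq ι]

/-- The array `η I + b X`. -/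
noncomputable def Mof (η b : ℝ) (X : ι → ι → ℝ) : ι → ι → ℝ :=
  fun i j => (if i = j then η else 0) + b * X i j

/-- The rational potential. -/
noncomputable def Vpot (m : ℕ) (a b η : ℝ) (X : ι → ι → ℝ) : ℝ :=
  a ^ 2 / b * (-2 * ∑ k ∈ Finset.Icc (-(m : ℤ)) m, dpr idm (Rsol (Ash (Mof η b X)) (k * π)) -
    ∑ i, Mof η b X i i)

/-- The integrand on the left side. -/
noncomputable def Fa (a b ε : ℝ) (A : r → ι → ℝ) : ℝ :=
  b ^ 2 / 4 * (tr3 A - ε * ((Fintype.card ι : ℝ) ^ 3 * rh A ^ 3)) + a * b * (1 - ε) * tr2 A -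
    a ^ 2 * ε * rh A

/-- The boundary term. -/
noncomputable def Ba (a b η ε : ℝ) (A : r → ι → ℝ) : ℝ :=
  b / 4 * (1 / η + ε) * rh A ^ 2 + a * (2 / η + ε) * rh A

lemma continuous_tr2_comp {F : ℝ → r → ι → ℝ} (h : ∀ a i, Continuous fun x => F x a i) :
    Continuous fun x => tr2 (F x) := by
  simp only [tr2, qm]
  exact continuous_finsetSum _ fun i _ => continuous_finsetSum _ fun j _ =>
    (continuous_finsetSum _ fun a _ => (h a i).mul (h a j)).pow 2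

lemma sum_qq_diag (P : r → ι → ℝ) : ∑ i, qq P i i = rh P := by
  simp only [qq, rh, sq]
  exact Finset.sum_comm

lemma sq_expand (v Z T : r → ι → ℝ) (a b : ℝ) :
    b * ∑ c, ∑ i, v c i * Z c i + 2 * a * ∑ c, ∑ i, v c i * T c i ≤
      ∑ c, ∑ i, v c i ^ 2 + b ^ 2 / 4 * ∑ c, ∑ i, Z c i ^ 2 +
        a * b * ∑ c, ∑ i, Z c i * T c i + a ^ 2 * ∑ c, ∑ i, T c i ^ 2 := by
  simp only [Finset.mul_sum, ← Finset.sum_add_distrib]
  refine Finset.sum_le_sum fun c _ => Finset.sum_le_sum fun i _ => ?_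
  nlinarith [sq_nonneg (v c i - b / 2 * Z c i - a * T c i)]

/-- The algebra of the differential inequality. -/
lemma pointwise_rowsA {K : Finset ℤ} (ξ τ ω : ℤ → r → ι → ℝ) (v : r → ι → ℝ)
    {a b ρ R1 R2 R3 : ℝ} (hb : 0 < b) (ha : 0 ≤ a)
    (h1 : R1 ≤ ∑ k ∈ K, ∑ c, ∑ i, ξ k c i ^ 2 - ∑ c, ∑ i, (∑ k ∈ K, ξ k c i) ^ 2)
    (h2 : ∑ c, ∑ i, (∑ k ∈ K, ξ k c i) * (∑ k ∈ K, τ k c i) -
      1 / 2 * ∑ k ∈ K, ∑ c, ∑ i, ω k c i * τ k c i ≤ -R2)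
    (h3 : ∑ c, ∑ i, (∑ k ∈ K, τ k c i) ^ 2 - (∑ k ∈ K, ∑ c, ∑ i, τ k c i ^ 2 - ρ) ≤ R3) :
    b / 4 * ∑ k ∈ K, (4 * ∑ c, ∑ i, v c i * ξ k c i - b * ∑ c, ∑ i, ξ k c i ^ 2) +
      a * ∑ k ∈ K, (2 * ∑ c, ∑ i, v c i * τ k c i - b / 2 * ∑ c, ∑ i, ω k c i * τ k c i) -
      a ^ 2 / b * (-2 * ∑ k ∈ K, (-(b / 2 * ∑ c, ∑ i, τ k c i ^ 2)) - b * ρ) ≤
    ∑ c, ∑ i, v c i ^ 2 - b ^ 2 / 4 * R1 - a * b * R2 + a ^ 2 * R3 := by
  have e1 : ∀ f : ℤ → r → ι → ℝ, ∑ k ∈ K, ∑ c, ∑ i, v c i * f k c i =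
      ∑ c, ∑ i, v c i * ∑ k ∈ K, f k c i := by
    intro f
    rw [Finset.sum_comm]
    refine Finset.sum_congr rfl fun c _ => ?_
    rw [Finset.sum_comm]
    refine Finset.sum_congr rfl fun i _ => ?_
    rw [Finset.mul_sum]
  have hs := sq_expand v (fun c i => ∑ k ∈ K, ξ k c i) (fun c i => ∑ k ∈ K, τ k c i) a b
  have e2 : ∑ k ∈ K, (4 * ∑ c, ∑ i, v c i * ξ k c i - b * ∑ c, ∑ i, ξ k c i ^ 2) =
      4 * (∑ c, ∑ i, v c i * ∑ k ∈ K, ξ k c i) - b * ∑ k ∈ K, ∑ c, ∑ i, ξ k c i ^ 2 := by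
    rw [Finset.sum_sub_distrib, ← Finset.mul_sum, ← Finset.mul_sum, e1]
  have e3 : ∑ k ∈ K, (2 * ∑ c, ∑ i, v c i * τ k c i - b / 2 * ∑ c, ∑ i, ω k c i * τ k c i) =
      2 * (∑ c, ∑ i, v c i * ∑ k ∈ K, τ k c i) - b / 2 * ∑ k ∈ K, ∑ c, ∑ i, ω k c i * τ k c i := by
    rw [Finset.sum_sub_distrib, ← Finset.mul_sum, ← Finset.mul_sum, e1]
  have e4 : ∑ k ∈ K, (-(b / 2 * ∑ c, ∑ i, τ k c i ^ 2)) =
      -(b / 2 * ∑ k ∈ K, ∑ c, ∑ i, τ k c i ^ 2) := by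
    rw [Finset.sum_neg_distrib, ← Finset.mul_sum]
  rw [e2, e3, e4]
  generalize (∑ c, ∑ i, v c i * ∑ k ∈ K, ξ k c i) = vZ at *
  generalize (∑ c, ∑ i, v c i * ∑ k ∈ K, τ k c i) = vT at *
  generalize (∑ k ∈ K, ∑ c, ∑ i, ξ k c i ^ 2) = Sξ at *
  generalize (∑ k ∈ K, ∑ c, ∑ i, ω k c i * τ k c i) = Sω at *
  generalize (∑ k ∈ K, ∑ c, ∑ i, τ k c i ^ 2) = Sτ at *
  generalize (∑ c, ∑ i, (∑ k ∈ K, ξ k c i) ^ 2) = Z2 at *
  generalize (∑ c, ∑ i, (∑ k ∈ K, ξ k c i) * (∑ k ∈ K, τ k c i)) = ZT at *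
  generalize (∑ c, ∑ i, (∑ k ∈ K, τ k c i) ^ 2) = T2 at *
  generalize (∑ c, ∑ i, v c i ^ 2) = v2 at *
  have h5 : a ^ 2 / b * (-2 * -(b / 2 * Sτ) - b * ρ) = a ^ 2 * (Sτ - ρ) := by
    field_simp
  rw [h5]
  have h6 := mul_le_mul_of_nonneg_left h1 (by positivity : 0 ≤ b ^ 2 / 4)
  have h7 := mul_le_mul_of_nonneg_left h2 (mul_nonneg ha hb.le)
  have h8 := mul_le_mul_of_nonneg_left h3 (sq_nonneg a)
  nlinarith

/-- The core inequality at fixed `η`, `ε`, `a`, for all large `m`. -/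
theorem core_eps_rowsA {a η ε : ℝ} (ha : 0 ≤ a) (hη : 0 < η) (hε : 0 < ε) :
    ∃ m₀ : ℕ, ∀ m, m₀ ≤ m → ∀ {Ψ Ψ' : ℝ → r → ι → ℝ},
      (∀ a i x, HasDerivAt (fun t => Ψ t a i) (Ψ' x a i) x) →
      (∀ a i, Continuous fun x => Ψ' x a i) →
      ∀ {xL xR : ℝ}, xL < xR → ∀ {G b : ℝ},
      (∀ e : ι → ℝ, ∑ i, e i ^ 2 = 1 → ∑ a, ∫ x in xL..xR, (∑ i, e i * Ψ x a i) ^ 2 ≤ G) →
      0 < b → b * G + 2 * η < π →
      ∫ x in xL..xR, Fa a b ε (Ψ x) ≤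
        (∫ x in xL..xR, rh (Ψ' x)) + Ba a b η ε (Ψ xL) + Ba a b η ε (Ψ xR) +
          (Vpot m a b η (fun i j => ∫ x in xL..xR, qq (Ψ x) i j) - Vpot m a b η (0 : ι → ι → ℝ)) := by
  obtain ⟨m1, hm1⟩ := cot_lemma3 hη hε
  obtain ⟨m2, hm2⟩ := kernel_ge hη hε
  refine ⟨max m1 m2, fun m hm => ?_⟩
  intro Ψ Ψ' hd hc xL xR hx G b hG hb hbη
  have hcot := hm1 m (le_trans (le_max_left _ _) hm)
  have hker := hm2 m (le_trans (le_max_right _ _) hm)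
  have cΨ : ∀ a i, Continuous fun x => Ψ x a i := fun a i =>
    continuous_iff_continuousAt.2 fun x => (hd a i x).continuousAt
  set M := MfunR Ψ η b xL with hMdef
  set K : Finset ℤ := Finset.Icc (-(m : ℤ)) m with hK
  let A : ℝ → ι → ι → ℝ := fun x => Ash (M x)
  let ξ : ℝ → ℤ → r → ι → ℝ := fun x k c i => xi (Xsol (M x) ((k : ℝ) * π) (Ψ x)) (Ψ x c) i
  let τ : ℝ → ℤ → r → ι → ℝ := fun x k c i => xi (Rsol (A x) ((k : ℝ) * π)) (Ψ x c) i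
  let ω : ℝ → ℤ → r → ι → ℝ := fun x k c i => xi (Xsol (A x) ((k : ℝ) * π) (Ψ x)) (Ψ x c) i
  let S : ℝ → ℝ := fun x => b / 4 * ∑ k ∈ K, dpr (qq (Ψ x)) (Xsol (M x) ((k : ℝ) * π) (Ψ x)) +
    a * ∑ k ∈ K, dpr (qq (Ψ x)) (Rsol (A x) ((k : ℝ) * π))
  let V : ℝ → ℝ := fun x => a ^ 2 / b * (-2 * ∑ k ∈ K, dpr idm (Rsol (A x) ((k : ℝ) * π)) -
    ∑ i, M x i i)
  let g' : ℝ → ℝ := fun x =>
    b / 4 * ∑ k ∈ K, (4 * ∑ c, ∑ i, Ψ' x c i * ξ x k c i - b * ∑ c, ∑ i, ξ x k c i ^ 2) +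
      a * ∑ k ∈ K, (2 * ∑ c, ∑ i, Ψ' x c i * τ x k c i -
        b / 2 * ∑ c, ∑ i, ω x k c i * τ x k c i) -
      a ^ 2 / b * (-2 * ∑ k ∈ K, (-(b / 2 * ∑ c, ∑ i, τ x k c i ^ 2)) - b * rh (Ψ x))
  have hband : ∀ x ∈ Icc xL xR, Band (M x) η := fun x hxm => band_MfunR cΨ hG hb hbη hxm
  have hbandA : ∀ x ∈ Icc xL xR, Band (A x) (η / 2) := fun x hxm => band_Ash hη (hband x hxm)
  have hunit : ∀ x ∈ Icc xL xR, ∀ k : ℤ, IsUnit (Jop (M x) ((k : ℝ) * π)) := fun x hxm k =>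
    isUnit_Jop hη (hband x hxm) k
  have hunitA : ∀ x ∈ Icc xL xR, ∀ k : ℤ, IsUnit (Jop (A x) ((k : ℝ) * π)) := fun x hxm k =>
    isUnit_Jop (by positivity) (hbandA x hxm) k
  have hMd : ∀ x, HasDerivAt M (b • qq (Ψ x)) x := fun x => hasDerivAt_MfunR cΨ η b xL x
  have hAd : ∀ x, HasDerivAt A ((b / 2) • qq (Ψ x)) x := by
    intro x
    refine hasDerivAt_of_entry2 fun i j => ?_
    have h1 := (hasDerivAt_entry2 (hMd x) i j).add_const (if i = j then π else 0)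
    have h2 := h1.div_const 2
    refine h2.congr_deriv ?_
    simp only [Pi.smul_apply, smul_eq_mul]
    ring
  have hU : ∀ x ∈ Icc xL xR, HasDerivAt (fun s => S s - V s) (g' x) x := by
    intro x hxm
    have h1 : ∀ k ∈ K, HasDerivAt (fun s => dpr (qq (Ψ s)) (Xsol (M s) ((k : ℝ) * π) (Ψ s)))
        (4 * ∑ c, ∑ i, Ψ' x c i * ξ x k c i - b * ∑ c, ∑ i, ξ x k c i ^ 2) x := by
      intro k _
      exact hasDerivAt_q_rows (hMd x) (fun c i => hd c i x) (hunit x hxm k) (hband x hxm).symm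
    have h2 : ∀ k ∈ K, HasDerivAt (fun s => dpr (qq (Ψ s)) (Rsol (A s) ((k : ℝ) * π)))
        (2 * ∑ c, ∑ i, Ψ' x c i * τ x k c i - b / 2 * ∑ c, ∑ i, ω x k c i * τ x k c i) x := by
      intro k _
      exact hasDerivAt_qR (hAd x) (fun c i => hd c i x) (hunitA x hxm k) (hbandA x hxm).symm
    have h3 : ∀ k ∈ K, HasDerivAt (fun s => dpr idm (Rsol (A s) ((k : ℝ) * π)))
        (-(b / 2 * ∑ c, ∑ i, τ x k c i ^ 2)) x := by
      intro k _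
      exact hasDerivAt_idR (P := Ψ x) (hAd x) (hunitA x hxm k) (hbandA x hxm).symm
    have h4 : HasDerivAt (fun s => ∑ i, M s i i) (b * rh (Ψ x)) x := by
      have h5 : HasDerivAt (fun s => ∑ i, M s i i) (∑ i, (b • qq (Ψ x)) i i) x :=
        HasDerivAt.fun_sum fun i _ => hasDerivAt_entry2 (hMd x) i i
      refine h5.congr_deriv ?_
      simp only [Pi.smul_apply, smul_eq_mul]
      rw [← Finset.mul_sum, sum_qq_diag]
    have hS := ((HasDerivAt.fun_sum h1).const_mul (b / 4)).add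
      ((HasDerivAt.fun_sum h2).const_mul a)
    have hV := (((HasDerivAt.fun_sum h3).const_mul (-2 : ℝ)).sub h4).const_mul (a ^ 2 / b)
    exact hS.sub hV
  have hpt : ∀ x ∈ Icc xL xR,
      g' x ≤ rh (Ψ' x) - Fa a b ε (Ψ x) ∧
      |S x| ≤ Ba a b η ε (Ψ x) := by
    intro x hxm
    have hrows := alg_rows hη (hband x hxm) (fun p q hp hq => ⟨(hcot p q hp hq).1, (hcot p q hp hq).2.1⟩)
      hε.le (Ψ x) (fun k => Xsol (M x) ((k : ℝ) * π) (Ψ x))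
      (fun k => Jop_inv_right2 (hunit x hxm k) _)
    have hA := alg_rowsA hη (hband x hxm) hε.le hker (Ψ x)
      (fun k => Xsol (M x) ((k : ℝ) * π) (Ψ x)) (fun k => Xsol (A x) ((k : ℝ) * π) (Ψ x))
      (fun k => Rsol (A x) ((k : ℝ) * π))
      (fun k => Jop_inv_right2 (hunit x hxm k) _)
      (fun k => Jop_inv_right2 (hunitA x hxm k) _)
      (fun k => Jop_inv_right2 (hunitA x hxm k) _)
    constructor
    · have h := pointwise_rowsA (K := K) (ξ x) (τ x) (ω x) (Ψ' x) (a := a) (b := b)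
        (ρ := rh (Ψ x)) (R1 := tr3 (Ψ x) - ε * ((Fintype.card ι : ℝ) ^ 3 * rh (Ψ x) ^ 3))
        (R2 := (1 - ε) * tr2 (Ψ x)) (R3 := ε * rh (Ψ x)) hb ha hrows.1 hA.1 hA.2.1
      refine h.trans (le_of_eq ?_)
      simp only [Fa]
      show rh (Ψ' x) - _ - _ + _ = _
      ring
    · have h1 := abs_le.1 hrows.2
      have h2 := abs_le.1 hA.2.2
      have h3 : 0 ≤ b / 4 := by positivity
      have h4 := mul_le_mul_of_nonneg_left h1.2 h3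
      have h5 := mul_le_mul_of_nonneg_left h1.1 h3
      have h6 := mul_le_mul_of_nonneg_left h2.2 ha
      have h7 := mul_le_mul_of_nonneg_left h2.1 ha
      simp only [S, Ba]
      change |b / 4 * ∑ k ∈ K, dpr (qq (Ψ x)) (Xsol (M x) ((k : ℝ) * π) (Ψ x)) +
        a * ∑ k ∈ K, dpr (qq (Ψ x)) (Rsol (A x) ((k : ℝ) * π))| ≤ _
      rw [abs_le]
      constructor
      · change _ ≤ b / 4 * ∑ k ∈ Finset.Icc (-(m : ℤ)) m, dpr (qq (Ψ x)) (Xsol (M x) ((k : ℝ) * π) (Ψ x)) +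
          a * ∑ k ∈ Finset.Icc (-(m : ℤ)) m, dpr (qq (Ψ x)) (Rsol (A x) ((k : ℝ) * π))
        have e1 : rh2 (Ψ x) = rh (Ψ x) := rfl
        rw [e1] at h5
        nlinarith
      · change b / 4 * ∑ k ∈ Finset.Icc (-(m : ℤ)) m, dpr (qq (Ψ x)) (Xsol (M x) ((k : ℝ) * π) (Ψ x)) +
          a * ∑ k ∈ Finset.Icc (-(m : ℤ)) m, dpr (qq (Ψ x)) (Rsol (A x) ((k : ℝ) * π)) ≤ _
        have e1 : rh2 (Ψ x) = rh (Ψ x) := rfl
        rw [e1] at h4
        nlinarith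
  have cρ : Continuous fun x => rh (Ψ x) := continuous_rh_comp cΨ
  have c3 : Continuous fun x => tr3 (Ψ x) := continuous_tr3_comp cΨ
  have c2 : Continuous fun x => tr2 (Ψ x) := continuous_tr2_comp cΨ
  have cdens : Continuous fun x => rh (Ψ' x) := continuous_rh_comp hc
  have cF : Continuous fun x => Fa a b ε (Ψ x) := by
    simp only [Fa]
    exact ((continuous_const.mul (c3.sub (continuous_const.mul (continuous_const.mul (cρ.pow 3))))).add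
      (continuous_const.mul c2)).sub (continuous_const.mul cρ)
  have hmain : (S xR - V xR) - (S xL - V xL) ≤
      ∫ y in xL..xR, (rh (Ψ' y) - Fa a b ε (Ψ y)) := by
    apply intervalIntegral.sub_le_integral_of_hasDeriv_right_of_le hx.le
    · intro x hxm
      exact (hU x hxm).continuousAt.continuousWithinAt
    · intro x hxm
      exact (hU x (Ioo_subset_Icc_self hxm)).hasDerivWithinAt
    · exact (cdens.sub cF).continuousOn.integrableOn_Icc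
    · intro x hxm
      exact (hpt x (Ioo_subset_Icc_self hxm)).1
  rw [intervalIntegral.integral_sub (cdens.intervalIntegrable _ _) (cF.intervalIntegrable _ _)] at hmain
  have hbL := abs_le.1 (hpt xL (left_mem_Icc.2 hx.le)).2
  have hbR := abs_le.1 (hpt xR (right_mem_Icc.2 hx.le)).2
  have hVR : V xR = Vpot m a b η (fun i j => ∫ x in xL..xR, qq (Ψ x) i j) := rfl
  have hVL : V xL = Vpot m a b η (0 : ι → ι → ℝ) := by
    have e : (fun i j => ∫ x in xL..xL, qq (Ψ x) i j) = (0 : ι → ι → ℝ) := by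
      funext i j
      simp
    rw [← e]
    rfl
  rw [hVR, hVL] at hmain
  linarith [hbL.1, hbL.2, hbR.1, hbR.2]

end Vale.Agent.Lib.P371.SharpA
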