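import Vale.Agent.Lib.P371.SharpA.ExactBeta

/-!
# P371, sharp route A: the exact value of the mixture constant, part 2

The evaluation of `dMix` by the substitution `t = (√3/4) (1-u)/√u`, `u ∈ (0,1)`.
-/

open Real MeasureTheory Set Filter Topology

namespace Vale.Agent.Lib.P371.SharpA

noncomputable section

/-- The substitution. -/
def tOf (u : ℝ) : ℝ := √3 / 4 * (1 - u) / √u

/-- Its derivative. -/
def tOf' (u : ℝ) : ℝ := -(√3 / 8) * (1 + u) / (u * √u)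

lemma sq3 : √3 ^ 2 = (3 : ℝ) := Real.sq_sqrt (by norm_num)

lemma sqrt3_pos : 0 < √(3 : ℝ) := Real.sqrt_pos.2 (by norm_num)

lemma tOf_pos {u : ℝ} (hu : u ∈ Ioo (0 : ℝ) 1) : 0 < tOf u := by
  unfold tOf
  have h1 : 0 < √u := Real.sqrt_pos.2 hu.1
  have h2 : 0 < 1 - u := by linarith [hu.2]
  have := sqrt3_pos
  positivity

lemma aux_e1 {q r : ℝ} (hq : 0 < q) (hq2 : q ^ 2 = 3) (hr : 0 < r) :
    4 * (q / 4 * (1 - r ^ 2) / r) ^ 2 + 3 = (q * (1 + r ^ 2) / (2 * r)) ^ 2 := by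
  have e : (q / 4 * (1 - r ^ 2) / r) ^ 2 = q ^ 2 * (1 - r ^ 2) ^ 2 / (16 * r ^ 2) := by
    field_simp
    ring
  have e' : (q * (1 + r ^ 2) / (2 * r)) ^ 2 = q ^ 2 * (1 + r ^ 2) ^ 2 / (4 * r ^ 2) := by
    field_simp
    ring
  rw [e, e', hq2]
  field_simp
  ring

lemma sAux_tOf {u : ℝ} (hu : u ∈ Ioo (0 : ℝ) 1) : sAux (tOf u) = 2 * √u / √3 := by
  have hr : 0 < √u := Real.sqrt_pos.2 hu.1
  have hr2 : √u ^ 2 = u := Real.sq_sqrt hu.1.le
  have hq := sqrt3_pos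
  have hq2 := sq3
  unfold sAux tOf
  obtain ⟨q, hqdef⟩ : ∃ q, q = √(3 : ℝ) := ⟨_, rfl⟩
  rw [← hqdef] at hq hq2 ⊢
  obtain ⟨r, hrdef⟩ : ∃ r, r = √u := ⟨_, rfl⟩
  rw [← hrdef] at hr hr2 ⊢
  rw [← hr2, aux_e1 hq hq2 hr, Real.sqrt_sq (by positivity)]
  have e2 : 2 * (q / 4 * (1 - r ^ 2) / r) + q * (1 + r ^ 2) / (2 * r) = q / r := by
    field_simp
    ring
  rw [e2]
  field_simp

lemma Xcl_tOf {u : ℝ} (hu : u ∈ Ioo (0 : ℝ) 1) : Xcl (tOf u) = √u / √3 * (1 + u / 3) := by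
  have hr : 0 < √u := Real.sqrt_pos.2 hu.1
  have hr2 : √u ^ 2 = u := Real.sq_sqrt hu.1.le
  have hq := sqrt3_pos
  have hq2 := sq3
  unfold Xcl
  rw [sAux_tOf hu]
  obtain ⟨q, hqdef⟩ : ∃ q, q = √(3 : ℝ) := ⟨_, rfl⟩
  rw [← hqdef] at hq hq2 ⊢
  obtain ⟨r, hrdef⟩ : ∃ r, r = √u := ⟨_, rfl⟩
  rw [← hrdef] at hr hr2 ⊢
  have e3 : (2 * r / q) ^ 3 = 8 * r ^ 3 / (3 * q) := by
    have : q ^ 3 = 3 * q := by
      rw [pow_succ, hq2]
    rw [div_pow, this]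
    ring
  rw [e3, ← hr2]
  field_simp

lemma tOf_sAux {t : ℝ} (ht : 0 < t) :
    3 / 4 * sAux t ^ 2 ∈ Ioo (0 : ℝ) 1 ∧ tOf (3 / 4 * sAux t ^ 2) = t := by
  have hs := sAux_pos ht.le
  have he := sAux_eq ht.le
  have hq := sqrt3_pos
  have hq2 := sq3
  have h1 : 0 < 3 / 4 * sAux t ^ 2 := by positivity
  have h2 : 3 / 4 * sAux t ^ 2 < 1 := by
    have : 0 < 2 * t * sAux t := by positivity
    linarith
  refine ⟨⟨h1, h2⟩, ?_⟩
  have hr : √(3 / 4 * sAux t ^ 2) = √3 / 2 * sAux t := by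
    rw [show (3 : ℝ) / 4 * sAux t ^ 2 = (√3 / 2 * sAux t) ^ 2 by
      rw [mul_pow, div_pow, hq2]
      norm_num]
    exact Real.sqrt_sq (by positivity)
  unfold tOf
  rw [hr]
  have e : 1 - 3 / 4 * sAux t ^ 2 = 2 * t * sAux t := by linarith
  rw [e]
  field_simp
  ring

lemma image_tOf : tOf '' Ioo (0 : ℝ) 1 = Ioi 0 := by
  ext t
  constructor
  · rintro ⟨u, hu, rfl⟩
    exact tOf_pos hu
  · intro ht
    exact ⟨_, (tOf_sAux ht).1, (tOf_sAux ht).2⟩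

lemma injOn_tOf : InjOn tOf (Ioo (0 : ℝ) 1) := by
  have hinv : ∀ u ∈ Ioo (0 : ℝ) 1, 3 / 4 * sAux (tOf u) ^ 2 = u := by
    intro u hu
    have hr2 : √u ^ 2 = u := Real.sq_sqrt hu.1.le
    have hq := sqrt3_pos
    have hq2 := sq3
    rw [sAux_tOf hu, div_pow, mul_pow, hr2, hq2]
    ring
  intro u hu v hv h
  rw [← hinv u hu, ← hinv v hv, h]

lemma hasDerivAt_tOf {u : ℝ} (hu : 0 < u) : HasDerivAt tOf (tOf' u) u := by
  have hr : 0 < √u := Real.sqrt_pos.2 hu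
  have hr2 : √u ^ 2 = u := Real.sq_sqrt hu.le
  have h1 : HasDerivAt (fun x : ℝ => √3 / 4 * (1 - x)) (√3 / 4 * (-1)) u :=
    ((hasDerivAt_id u).const_sub 1).const_mul _
  have h2 : HasDerivAt (fun x : ℝ => √x) (1 / (2 * √u)) u := Real.hasDerivAt_sqrt hu.ne'
  have h3 := h1.div h2 hr.ne'
  have e : (√3 / 4 * (-1) * √u - √3 / 4 * (1 - u) * (1 / (2 * √u))) / √u ^ 2 = tOf' u := by
    unfold tOf'
    obtain ⟨q, hqdef⟩ : ∃ q, q = √(3 : ℝ) := ⟨_, rfl⟩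
    rw [← hqdef]
    obtain ⟨r, hrdef⟩ : ∃ r, r = √u := ⟨_, rfl⟩
    rw [← hrdef] at hr hr2 ⊢
    rw [← hr2]
    field_simp
    ring
  rw [e] at h3
  exact h3

lemma abs_tOf' {u : ℝ} (hu : 0 < u) : |tOf' u| = √3 / 8 * (1 + u) / (u * √u) := by
  have hr : 0 < √u := Real.sqrt_pos.2 hu
  have hq := sqrt3_pos
  unfold tOf'
  have : -(√3 / 8) * (1 + u) / (u * √u) = -(√3 / 8 * (1 + u) / (u * √u)) := by ring
  rw [this, abs_neg, abs_of_pos (by positivity)]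

/-- `dMix` as an integral over the unit interval. -/
theorem dMix_eq_integral {ν : ℝ} :
    dMix (1 - ν) = (√3 / 4) ^ (ν - 1) * (1 / 8) *
      ∫ u in Ioo (0 : ℝ) 1, (u ^ ((1 - ν) / 2 - 1) * (1 - u) ^ (ν - 1)) * ((1 + u) * (1 + u / 3)) := by
  unfold dMix
  rw [← image_tOf, integral_image_eq_integral_abs_deriv_smul measurableSet_Ioo
    (fun x hx => (hasDerivAt_tOf hx.1).hasDerivWithinAt) injOn_tOf,
    ← integral_const_mul]
  refine setIntegral_congr_fun measurableSet_Ioo fun u hu => ?_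
  have hu0 : 0 < u := hu.1
  have hu1 : 0 < 1 - u := by linarith [hu.2]
  have hr : 0 < √u := Real.sqrt_pos.2 hu0
  have hr2 : √u ^ 2 = u := Real.sq_sqrt hu0.le
  have hq := sqrt3_pos
  have hq4 : 0 < √3 / 4 := by positivity
  simp only [smul_eq_mul]
  rw [abs_tOf' hu0, Xcl_tOf hu]
  have e0 : -(1 - ν) = ν - 1 := by ring
  rw [e0]
  have e1 : tOf u ^ (ν - 1) = (√3 / 4) ^ (ν - 1) * (1 - u) ^ (ν - 1) / u ^ ((ν - 1) / 2) := by
    unfold tOf
    rw [Real.div_rpow (by positivity) hr.le, Real.mul_rpow hq4.le hu1.le, Real.sqrt_eq_rpow u,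
      ← Real.rpow_mul hu0.le]
    congr 2
    ring
  rw [e1]
  have e2 : u ^ ((1 - ν) / 2 - 1) = (u ^ ((ν - 1) / 2))⁻¹ / u := by
    have : (1 - ν) / 2 - 1 = -((ν - 1) / 2) + -1 := by ring
    rw [this, Real.rpow_add hu0, Real.rpow_neg hu0.le, Real.rpow_neg_one]
    rfl
  rw [e2]
  have hZ : 0 < u ^ ((ν - 1) / 2) := Real.rpow_pos_of_pos hu0 _
  generalize (√3 / 4) ^ (ν - 1) = X
  generalize (1 - u) ^ (ν - 1) = Y
  generalize u ^ ((ν - 1) / 2) = Z at hZ ⊢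
  field_simp

/-- **`dMix` in terms of the Gamma function.** -/
theorem dMix_gamma {ν : ℝ} (h0 : 0 < ν) (h1 : ν < 1) :
    dMix (1 - ν) = (√3 / 4) ^ (ν - 1) *
      (Real.Gamma ((1 - ν) / 2) * Real.Gamma ν / Real.Gamma ((1 - ν) / 2 + ν)) /
        ((1 + ν) * (3 + ν)) := by
  obtain ⟨b, hb⟩ : ∃ b : ℝ, b = (1 - ν) / 2 := ⟨_, rfl⟩
  have hb0 : 0 < b := by rw [hb]; linarith
  rw [dMix_eq_integral, ← hb]
  have i0 := integrableOn_beta hb0 h0
  have i1 := integrableOn_beta (α := b + 1) (by linarith) h0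
  have i2 := integrableOn_beta (α := b + 2) (by linarith) h0
  have hI : ∫ u in Ioo (0 : ℝ) 1, (u ^ (b - 1) * (1 - u) ^ (ν - 1)) * ((1 + u) * (1 + u / 3))
      = (∫ u in Ioo (0 : ℝ) 1, u ^ (b - 1) * (1 - u) ^ (ν - 1))
        + 4 / 3 * (∫ u in Ioo (0 : ℝ) 1, u ^ (b + 1 - 1) * (1 - u) ^ (ν - 1))
        + 1 / 3 * (∫ u in Ioo (0 : ℝ) 1, u ^ (b + 2 - 1) * (1 - u) ^ (ν - 1)) := by
    have i1' : IntegrableOn (fun u : ℝ => 4 / 3 * (u ^ (b + 1 - 1) * (1 - u) ^ (ν - 1))) (Ioo 0 1) :=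
      i1.const_mul _
    have i2' : IntegrableOn (fun u : ℝ => 1 / 3 * (u ^ (b + 2 - 1) * (1 - u) ^ (ν - 1))) (Ioo 0 1) :=
      i2.const_mul _
    have i01 : IntegrableOn (fun u : ℝ => u ^ (b - 1) * (1 - u) ^ (ν - 1)
        + 4 / 3 * (u ^ (b + 1 - 1) * (1 - u) ^ (ν - 1))) (Ioo 0 1) := i0.add i1'
    rw [← integral_const_mul, ← integral_const_mul, ← integral_add i0 i1',
      ← integral_add i01 i2']
    refine setIntegral_congr_fun measurableSet_Ioo fun u hu => ?_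
    have hu0 : 0 < u := hu.1
    have e1 : u ^ (b + 1 - 1) = u ^ (b - 1) * u := by
      have : b + 1 - 1 = (b - 1) + 1 := by ring
      rw [this, Real.rpow_add hu0, Real.rpow_one]
    have e2 : u ^ (b + 2 - 1) = u ^ (b - 1) * u ^ 2 := by
      have : b + 2 - 1 = (b - 1) + (2 : ℕ) := by push_cast; ring
      rw [this, Real.rpow_add hu0, Real.rpow_natCast]
    rw [e1, e2]
    ring
  rw [hI, integral_beta hb0 h0, integral_beta (by linarith) h0, integral_beta (by linarith) h0]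
  have hbν : 0 < b + ν := by linarith
  have g1 : Real.Gamma (b + 1) = b * Real.Gamma b := Real.Gamma_add_one hb0.ne'
  have g2 : Real.Gamma (b + 2) = (b + 1) * (b * Real.Gamma b) := by
    have : b + 2 = (b + 1) + 1 := by ring
    rw [this, Real.Gamma_add_one (by linarith), g1]
  have g3 : Real.Gamma (b + 1 + ν) = (b + ν) * Real.Gamma (b + ν) := by
    have : b + 1 + ν = (b + ν) + 1 := by ring
    rw [this, Real.Gamma_add_one hbν.ne']
  have g4 : Real.Gamma (b + 2 + ν) = (b + ν + 1) * ((b + ν) * Real.Gamma (b + ν)) := by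
    have : b + 2 + ν = (b + ν + 1) + 1 := by ring
    rw [this, Real.Gamma_add_one (by linarith), Real.Gamma_add_one hbν.ne']
  rw [g1, g2, g3, g4]
  have hG : 0 < Real.Gamma (b + ν) := Real.Gamma_pos_of_pos hbν
  have hνb : ν = 1 - 2 * b := by rw [hb]; ring
  have h3 : 0 < 1 + ν := by linarith
  have h4 : 0 < 3 + ν := by linarith
  generalize (√3 / 4) ^ (ν - 1) = X
  generalize Real.Gamma b = Gb
  generalize Real.Gamma ν = Gν
  generalize Real.Gamma (b + ν) = GG at hG ⊢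
  have h5 : b + ν = (1 + ν) / 2 := by rw [hb]; ring
  have h6 : b + ν + 1 = (3 + ν) / 2 := by rw [hb]; ring
  rw [h6, h5]
  have h7 : b = (1 - ν) / 2 := hb
  rw [h7]
  field_simp
  ring

end

end Vale.Agent.Lib.P371.SharpA
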