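import Vale.Agent.Lib.P371.SharpA.ExactC
import Vale.Agent.Lib.P371.SharpA.ExactD

/-!
# P371, sharp route A: the exact value of the mixture constant

`dMix μ / cMix μ = (2/√3)^μ L^cl_γ` with `μ = 3 - 2 γ`, `L^cl_γ = Γ(γ+1) / (2 √π Γ(γ+3/2))`.
-/

open Real MeasureTheory Set

namespace Vale.Agent.Lib.P371.SharpA

noncomputable section

/-- **The exact value of the mixture constant.** -/
theorem dMix_eq {γ : ℝ} (h1 : 1 < γ) (h2 : γ < 3 / 2) :
    dMix (3 - 2 * γ) = (2 / √3) ^ (3 - 2 * γ) *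
      (Real.Gamma (γ + 1) / (2 * √π * Real.Gamma (γ + 3 / 2))) * cMix (3 - 2 * γ) := by
  obtain ⟨ν, hν⟩ : ∃ ν, γ = 1 + ν / 2 := ⟨2 * γ - 2, by ring⟩
  subst hν
  have h0 : 0 < ν := by linarith
  have h1' : ν < 1 := by linarith
  have e : 3 - 2 * (1 + ν / 2) = 1 - ν := by ring
  rw [e, dMix_gamma h0 h1', cMix_gamma h0 h1']
  have hq : 0 < √(3 : ℝ) := Real.sqrt_pos.2 (by norm_num)
  have hπ : 0 < √π := Real.sqrt_pos.2 Real.pi_pos
  -- the Gamma values
  have hh : 0 < ν / 2 := by linarith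
  have hs : 0 < (1 + ν) / 2 := by linarith
  have g1 : Real.Gamma ((1 - ν) / 2 + ν) = Real.Gamma ((1 + ν) / 2) := by
    congr 1
    ring
  have g2 : Real.Gamma ((ν + 3) / 2) = (1 + ν) / 2 * Real.Gamma ((1 + ν) / 2) := by
    have : (ν + 3) / 2 = (1 + ν) / 2 + 1 := by ring
    rw [this, Real.Gamma_add_one hs.ne']
  have g3 : Real.Gamma (1 + ν / 2 + 3 / 2) =
      ((1 + ν) / 2 + 1) * ((1 + ν) / 2 * Real.Gamma ((1 + ν) / 2)) := by
    have : 1 + ν / 2 + 3 / 2 = ((1 + ν) / 2 + 1) + 1 := by ring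
    rw [this, Real.Gamma_add_one (by linarith), Real.Gamma_add_one hs.ne']
  have g4 : Real.Gamma (1 + ν / 2 + 1) = (ν / 2 + 1) * (ν / 2 * Real.Gamma (ν / 2)) := by
    have : 1 + ν / 2 + 1 = (ν / 2 + 1) + 1 := by ring
    rw [this, Real.Gamma_add_one (by linarith), Real.Gamma_add_one hh.ne']
  have dup := Real.Gamma_mul_Gamma_add_half (ν / 2)
  have e1 : ν / 2 + 1 / 2 = (1 + ν) / 2 := by ring
  have e2 : 2 * (ν / 2) = ν := by ring
  rw [e1, e2] at dup
  have hP : (√3 / 4) ^ (ν - 1) = (2 / √3) ^ (1 - ν) * (2 : ℝ) ^ (1 - ν) := by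
    rw [← Real.mul_rpow (by positivity) (by norm_num)]
    have e3 : 2 / √3 * 2 = (√3 / 4)⁻¹ := by
      field_simp
      norm_num
    rw [e3, Real.inv_rpow (by positivity), ← Real.rpow_neg (by positivity)]
    congr 1
    ring
  rw [g1, g2, g3, g4, hP]
  have hGs : 0 < Real.Gamma ((1 + ν) / 2) := Real.Gamma_pos_of_pos hs
  have hGb : 0 < Real.Gamma ((1 - ν) / 2) := Real.Gamma_pos_of_pos (by linarith)
  have hGh : 0 < Real.Gamma (ν / 2) := Real.Gamma_pos_of_pos hh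
  generalize (2 / √3) ^ (1 - ν) = A at *
  generalize (2 : ℝ) ^ (1 - ν) = T at *
  generalize Real.Gamma ((1 - ν) / 2) = Gb at *
  generalize Real.Gamma ((1 + ν) / 2) = Gs at *
  generalize Real.Gamma (ν / 2) = Gh at *
  generalize Real.Gamma ν = Gν at *
  generalize √π = R at *
  have key : T * Gν / Gs = Gh / R := by
    rw [div_eq_div_iff hGs.ne' hπ.ne']
    linarith
  have h3 : 0 < 1 + ν := by linarith
  have h4 : 0 < 3 + ν := by linarith
  have h5 : 0 < ν + 1 := by linarith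
  have h6 : 0 < ν + 2 := by linarith
  calc A * T * (Gb * Gν / Gs) / ((1 + ν) * (3 + ν))
      = A * (T * Gν / Gs) * Gb / ((1 + ν) * (3 + ν)) := by ring
    _ = A * (Gh / R) * Gb / ((1 + ν) * (3 + ν)) := by rw [key]
    _ = _ := by
        field_simp
        ring

end

end Vale.Agent.Lib.P371.SharpA
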