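import Vale.Agent.Lib.P371.SharpA.Mix

/-!
# P371, sharp route A: the exact value of the mixture constant, part 1

The real Beta integral and the evaluation of `dMix` by the substitution
`t = (√3/4) (1-u)/√u`, `u ∈ (0,1)`.
-/

open Real MeasureTheory Set Filter Topology

namespace Vale.Agent.Lib.P371.SharpA

noncomputable section

/-! ### The real Beta integral -/

private lemma beta_re_eq {α β x : ℝ} (hx : x ∈ Ioo (0 : ℝ) 1) :
    (((x : ℂ) ^ ((α : ℂ) - 1) * (1 - (x : ℂ)) ^ ((β : ℂ) - 1)) : ℂ).re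
      = x ^ (α - 1) * (1 - x) ^ (β - 1) := by
  have h1 : (0 : ℝ) ≤ x := hx.1.le
  have h2 : (0 : ℝ) ≤ 1 - x := by linarith [hx.2]
  have e1 : (x : ℂ) ^ ((α : ℂ) - 1) = ((x ^ (α - 1) : ℝ) : ℂ) := by
    rw [Complex.ofReal_cpow h1]
    push_cast
    rfl
  have e2 : (1 - (x : ℂ)) ^ ((β : ℂ) - 1) = (((1 - x) ^ (β - 1) : ℝ) : ℂ) := by
    rw [Complex.ofReal_cpow h2]
    push_cast
    rfl
  rw [e1, e2, ← Complex.ofReal_mul, Complex.ofReal_re]

/-- The Beta density is integrable. -/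
theorem integrableOn_beta {α β : ℝ} (hα : 0 < α) (hβ : 0 < β) :
    IntegrableOn (fun x : ℝ => x ^ (α - 1) * (1 - x) ^ (β - 1)) (Ioo 0 1) := by
  have h := Complex.betaIntegral_convergent (u := (α : ℂ)) (v := (β : ℂ)) (by simpa) (by simpa)
  rw [intervalIntegrable_iff_integrableOn_Ioo_of_le zero_le_one] at h
  have h2 := h.re
  refine IntegrableOn.congr_fun h2 (fun x hx => ?_) measurableSet_Ioo
  exact beta_re_eq hx

/-- The real Beta integral. -/
theorem integral_beta {α β : ℝ} (hα : 0 < α) (hβ : 0 < β) :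
    ∫ x in Ioo (0 : ℝ) 1, x ^ (α - 1) * (1 - x) ^ (β - 1)
      = Real.Gamma α * Real.Gamma β / Real.Gamma (α + β) := by
  have h := ProbabilityTheory.beta_eq_betaIntegralReal α β hα hβ
  have hint := Complex.betaIntegral_convergent (u := (α : ℂ)) (v := (β : ℂ)) (by simpa) (by simpa)
  rw [intervalIntegrable_iff_integrableOn_Ioc_of_le zero_le_one] at hint
  rw [Complex.betaIntegral, intervalIntegral.integral_of_le zero_le_one] at h
  have h3 : (∫ x in Ioc (0 : ℝ) 1, ((x : ℂ) ^ ((α : ℂ) - 1) * (1 - (x : ℂ)) ^ ((β : ℂ) - 1))).re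
      = ∫ x in Ioc (0 : ℝ) 1, ((x : ℂ) ^ ((α : ℂ) - 1) * (1 - (x : ℂ)) ^ ((β : ℂ) - 1)).re := by
    have := integral_re (𝕜 := ℂ) hint
    simpa using this.symm
  rw [h3, integral_Ioc_eq_integral_Ioo] at h
  rw [setIntegral_congr_fun measurableSet_Ioo (fun x hx => beta_re_eq (α := α) (β := β) hx)] at h
  rw [← h]
  rfl

end

end Vale.Agent.Lib.P371.SharpA
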