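import Vale.Agent.Lib.P371.SharpA.ExactBeta

/-!
# P371, sharp route A: the exact value of the mixture constant, part 3

The evaluation of `cMix`: three integrations by parts reduce it to
`∫_0^∞ t^(ν+2)/(1+t²)² dt`, a Beta integral by the substitution `t = √(y/(1-y))`.
-/

open Real MeasureTheory Set Filter Topology

namespace Vale.Agent.Lib.P371.SharpA

noncomputable section

/-! ### Integration by parts for Mellin integrals -/

/-- Integrability with the power bounds used in this file. -/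
lemma mellin_integrable {ν C : ℝ} {g : ℝ → ℝ} (h0 : 0 < ν) (h1 : ν < 1)
    (hm : ContinuousOn g (Ioi 0))
    (hs : ∀ t, 0 < t → t ≤ 1 → |g t| ≤ C * t ^ (ν - 1))
    (hl : ∀ t, 1 < t → |g t| ≤ C * t ^ (ν - 2)) :
    IntegrableOn g (Ioi 0) := by
  refine integrableOn_of_bounds (μ := 1 - ν) (C := C) (by linarith) (by linarith)
    (hm.aestronglyMeasurable measurableSet_Ioi) ?_ ?_
  · intro t ht ht1
    have := hs t ht ht1
    rwa [show -(1 - ν) = ν - 1 by ring]
  · intro t ht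
    have := hl t ht
    rwa [show -1 - (1 - ν) = ν - 2 by ring]

/-- Integration by parts for Mellin integrals, with the power bounds used in this file. -/
theorem mellin_parts {ν p C : ℝ} {f f' : ℝ → ℝ} (h0 : 0 < ν) (h1 : ν < 1) (hp : ν ≤ p)
    (hC : 0 ≤ C)
    (hd : ∀ t ∈ Ioi (0 : ℝ), HasDerivAt f (f' t) t)
    (hc' : ContinuousOn f' (Ioi 0))
    (hs : ∀ t, 0 < t → t ≤ 1 → |f t| ≤ C) (hs' : ∀ t, 0 < t → t ≤ 1 → |f' t| ≤ C)
    (hl : ∀ t, 1 < t → |f t| ≤ C * t ^ (ν - 1 - p))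
    (hl' : ∀ t, 1 < t → |f' t| ≤ C * t ^ (ν - 2 - p)) :
    ∫ t in Ioi (0 : ℝ), t ^ (p - 1) * f t = -(1 / p) * ∫ t in Ioi (0 : ℝ), t ^ p * f' t := by
  have hp0 : 0 < p := by linarith
  have hcf : ContinuousOn f (Ioi 0) := fun t ht => (hd t ht).continuousAt.continuousWithinAt
  have hcp : ∀ q : ℝ, ContinuousOn (fun t : ℝ => t ^ q) (Ioi 0) := fun q t ht =>
    (Real.continuousAt_rpow_const _ _ (Or.inl (ne_of_gt ht))).continuousWithinAt
  -- integrability
  have hi1 : IntegrableOn (fun t : ℝ => t ^ (p - 1) * f t) (Ioi 0) := by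
    refine mellin_integrable (C := C) h0 h1 ((hcp _).mul hcf) ?_ ?_
    · intro t ht ht1
      have e := hs t ht ht1
      rw [abs_mul, abs_of_pos (Real.rpow_pos_of_pos ht _)]
      have e2 : t ^ (p - 1) ≤ t ^ (ν - 1) :=
        Real.rpow_le_rpow_of_exponent_ge ht ht1 (by linarith)
      have e3 : 0 ≤ t ^ (p - 1) := (Real.rpow_pos_of_pos ht _).le
      nlinarith [abs_nonneg (f t)]
    · intro t ht
      have ht0 : 0 < t := by linarith
      have e := hl t ht
      rw [abs_mul, abs_of_pos (Real.rpow_pos_of_pos ht0 _)]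
      have e3 : 0 ≤ t ^ (p - 1) := (Real.rpow_pos_of_pos ht0 _).le
      calc t ^ (p - 1) * |f t| ≤ t ^ (p - 1) * (C * t ^ (ν - 1 - p)) :=
            mul_le_mul_of_nonneg_left e e3
        _ = C * (t ^ (p - 1) * t ^ (ν - 1 - p)) := by ring
        _ = C * t ^ (ν - 2) := by
            rw [← Real.rpow_add ht0]
            congr 2
            ring
  have hi2 : IntegrableOn (fun t : ℝ => t ^ p * f' t) (Ioi 0) := by
    refine mellin_integrable (C := C) h0 h1 ((hcp _).mul hc') ?_ ?_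
    · intro t ht ht1
      have e := hs' t ht ht1
      rw [abs_mul, abs_of_pos (Real.rpow_pos_of_pos ht _)]
      have e2 : t ^ p ≤ t ^ (ν - 1) :=
        Real.rpow_le_rpow_of_exponent_ge ht ht1 (by linarith)
      have e3 : 0 ≤ t ^ p := (Real.rpow_pos_of_pos ht _).le
      nlinarith [abs_nonneg (f' t)]
    · intro t ht
      have ht0 : 0 < t := by linarith
      have e := hl' t ht
      rw [abs_mul, abs_of_pos (Real.rpow_pos_of_pos ht0 _)]
      have e3 : 0 ≤ t ^ p := (Real.rpow_pos_of_pos ht0 _).le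
      calc t ^ p * |f' t| ≤ t ^ p * (C * t ^ (ν - 2 - p)) :=
            mul_le_mul_of_nonneg_left e e3
        _ = C * (t ^ p * t ^ (ν - 2 - p)) := by ring
        _ = C * t ^ (ν - 2) := by
            rw [← Real.rpow_add ht0]
            congr 2
            ring
  -- the parts
  have hv : ∀ t ∈ Ioi (0 : ℝ), HasDerivAt (fun t : ℝ => t ^ p / p) (t ^ (p - 1)) t := by
    intro t ht
    have h := (Real.hasDerivAt_rpow_const (x := t) (p := p) (Or.inl (ne_of_gt ht))).div_const p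
    have e : p * t ^ (p - 1) / p = t ^ (p - 1) := by
      field_simp
    rw [e] at h
    exact h
  have hzero : Tendsto (f * fun t : ℝ => t ^ p / p) (𝓝[>] 0) (𝓝 0) := by
    have hb : Tendsto (fun t : ℝ => C * t ^ p / p) (𝓝[>] 0) (𝓝 0) := by
      have h2 : Tendsto (fun t : ℝ => t ^ p) (𝓝[>] 0) (𝓝 0) := by
        have h3 := (Real.continuousAt_rpow_const (0 : ℝ) p (Or.inr hp0.le)).tendsto
        rw [Real.zero_rpow hp0.ne'] at h3
        exact h3.mono_left nhdsWithin_le_nhds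
      have h4 := (h2.const_mul C).div_const p
      simpa using h4
    refine squeeze_zero_norm' ?_ hb
    have hev : ∀ᶠ t : ℝ in 𝓝[>] 0, t ∈ Ioc (0 : ℝ) 1 := Ioc_mem_nhdsGT zero_lt_one
    filter_upwards [hev] with t ht
    have e := hs t ht.1 ht.2
    simp only [Pi.mul_apply, Real.norm_eq_abs, abs_mul]
    rw [abs_of_pos (div_pos (Real.rpow_pos_of_pos ht.1 _) hp0)]
    have e3 : 0 ≤ t ^ p / p := (div_pos (Real.rpow_pos_of_pos ht.1 _) hp0).le
    calc |f t| * (t ^ p / p) ≤ C * (t ^ p / p) := mul_le_mul_of_nonneg_right e e3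
      _ = C * t ^ p / p := by ring
  have hinf : Tendsto (f * fun t : ℝ => t ^ p / p) atTop (𝓝 0) := by
    have hb : Tendsto (fun t : ℝ => C / p * t ^ (-(1 - ν))) atTop (𝓝 0) := by
      have h3 := (tendsto_rpow_neg_atTop (y := 1 - ν) (by linarith)).const_mul (C / p)
      simpa using h3
    refine squeeze_zero_norm' ?_ hb
    filter_upwards [eventually_gt_atTop (1 : ℝ)] with t ht
    have ht0 : 0 < t := by linarith
    have e := hl t ht
    simp only [Pi.mul_apply, Real.norm_eq_abs, abs_mul]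
    rw [abs_of_pos (div_pos (Real.rpow_pos_of_pos ht0 _) hp0)]
    have e3 : 0 ≤ t ^ p / p := (div_pos (Real.rpow_pos_of_pos ht0 _) hp0).le
    calc |f t| * (t ^ p / p) ≤ (C * t ^ (ν - 1 - p)) * (t ^ p / p) :=
          mul_le_mul_of_nonneg_right e e3
      _ = C / p * (t ^ (ν - 1 - p) * t ^ p) := by ring
      _ = C / p * t ^ (-(1 - ν)) := by
          rw [← Real.rpow_add ht0]
          congr 2
          ring
  have hi3 : IntegrableOn (f' * fun t : ℝ => t ^ p / p) (Ioi 0) := by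
    have := hi2.const_mul (1 / p)
    refine IntegrableOn.congr_fun this (fun t _ => ?_) measurableSet_Ioi
    simp only [Pi.mul_apply]
    ring
  have hi4 : IntegrableOn (f * fun t : ℝ => t ^ (p - 1)) (Ioi 0) := by
    refine IntegrableOn.congr_fun hi1 (fun t _ => ?_) measurableSet_Ioi
    simp only [Pi.mul_apply]
    ring
  have key := integral_Ioi_mul_deriv_eq_deriv_mul (a := 0) (u := f) (v := fun t : ℝ => t ^ p / p)
    (u' := f') (v' := fun t : ℝ => t ^ (p - 1)) hd hv hi4 hi3 hzero hinf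
  have e1 : ∫ t in Ioi (0 : ℝ), t ^ (p - 1) * f t = ∫ t in Ioi (0 : ℝ), f t * t ^ (p - 1) :=
    setIntegral_congr_fun measurableSet_Ioi fun t _ => by ring
  have e2 : ∫ t in Ioi (0 : ℝ), f' t * (t ^ p / p) = 1 / p * ∫ t in Ioi (0 : ℝ), t ^ p * f' t := by
    rw [← integral_const_mul]
    exact setIntegral_congr_fun measurableSet_Ioi fun t _ => by ring
  rw [e1, key, e2]
  ring

/-! ### The three functions -/

/-- `1 - t arctan (1/t)`. -/
def PP (t : ℝ) : ℝ := 1 - t * arctan (1 / t)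

/-- `arctan (1/t) - t/(1+t²)`. -/
def RR (t : ℝ) : ℝ := arctan (1 / t) - t / (1 + t ^ 2)

lemma hasDerivAt_arctan_inv {t : ℝ} (ht : 0 < t) :
    HasDerivAt (fun t : ℝ => arctan (1 / t)) (-(1 / (1 + t ^ 2))) t := by
  have h1 : HasDerivAt (fun t : ℝ => 1 / t) (-(1 / t ^ 2)) t := by
    have := (hasDerivAt_inv ht.ne')
    simpa [one_div] using this
  have h2 := h1.arctan
  convert h2 using 1
  field_simp
  ring

lemma hasDerivAt_Lam1 {t : ℝ} (ht : 0 < t) : HasDerivAt Lam1 (-4 * PP t) t := by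
  have h1 := hasDerivAt_arctan_inv ht
  have h2 : HasDerivAt (fun t : ℝ => 1 + t ^ 2) (2 * t) t := by
    simpa using (hasDerivAt_pow 2 t).const_add 1
  have h3 := ((h1.const_mul 2).mul h2).sub ((hasDerivAt_id t).const_mul 2)
  have e : 2 * -(1 / (1 + t ^ 2)) * (1 + t ^ 2) + 2 * arctan (1 / t) * (2 * t) - 2 * 1
      = -4 * PP t := by
    unfold PP
    field_simp
    ring
  rw [e] at h3
  exact h3

lemma hasDerivAt_PP {t : ℝ} (ht : 0 < t) : HasDerivAt PP (-RR t) t := by
  have h1 := hasDerivAt_arctan_inv ht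
  have h3 := ((hasDerivAt_id t).mul h1).const_sub 1
  have e : -(1 * arctan (1 / t) + id t * -(1 / (1 + t ^ 2))) = -RR t := by
    unfold RR
    simp only [id]
    field_simp
    ring
  rw [e] at h3
  exact h3

lemma hasDerivAt_RR {t : ℝ} (ht : 0 < t) : HasDerivAt RR (-(2 / (1 + t ^ 2) ^ 2)) t := by
  have h1 := hasDerivAt_arctan_inv ht
  have h2 : HasDerivAt (fun t : ℝ => 1 + t ^ 2) (2 * t) t := by
    simpa using (hasDerivAt_pow 2 t).const_add 1
  have hne : (1 + t ^ 2) ≠ 0 := by positivity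
  have h3 := h1.sub ((hasDerivAt_id t).div h2 hne)
  have e : -(1 / (1 + t ^ 2)) - (1 * (1 + t ^ 2) - id t * (2 * t)) / (1 + t ^ 2) ^ 2
      = -(2 / (1 + t ^ 2) ^ 2) := by
    simp only [id]
    field_simp
    ring
  rw [e] at h3
  exact h3

/-! ### Bounds -/

lemma arctan_lower {x : ℝ} (hx : 0 ≤ x) : x - x ^ 3 / 3 ≤ arctan x := by
  have hm : Monotone (fun x : ℝ => arctan x - x + x ^ 3 / 3) := by
    refine monotone_of_deriv_nonneg
      (Differentiable.add (Differentiable.sub differentiable_arctan differentiable_id)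
        (by fun_prop)) fun y => ?_
    have h : HasDerivAt (fun x : ℝ => arctan x - x + x ^ 3 / 3)
        (1 / (1 + y ^ 2) - 1 + (3 * y ^ 2) / 3) y :=
      ((Real.hasDerivAt_arctan y).sub (hasDerivAt_id y)).add
        ((by simpa using hasDerivAt_pow 3 y : HasDerivAt (fun x : ℝ => x ^ 3) (3 * y ^ 2) y).div_const 3)
    rw [h.deriv]
    have e : 1 / (1 + y ^ 2) - 1 + (3 * y ^ 2) / 3 = y ^ 4 / (1 + y ^ 2) := by
      field_simp
      ring
    rw [e]
    positivity
  have := hm hx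
  simp only [arctan_zero] at this
  norm_num at this
  linarith

lemma arctan_upper {x : ℝ} (hx : 0 ≤ x) : arctan x ≤ x / (1 + x ^ 2) + 2 / 3 * x ^ 3 := by
  have hm : Monotone (fun x : ℝ => x / (1 + x ^ 2) + 2 / 3 * x ^ 3 - arctan x) := by
    refine monotone_of_deriv_nonneg ?_ fun y => ?_
    · refine Differentiable.sub (Differentiable.add ?_ (by fun_prop)) differentiable_arctan
      refine Differentiable.div (by fun_prop) (by fun_prop) fun y => ?_
      positivity
    · have hne : 1 + y ^ 2 ≠ 0 := by positivity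
      have h2 : HasDerivAt (fun t : ℝ => 1 + t ^ 2) (2 * y) y := by
        simpa using (hasDerivAt_pow 2 y).const_add 1
      have h : HasDerivAt (fun x : ℝ => x / (1 + x ^ 2) + 2 / 3 * x ^ 3 - arctan x)
          ((1 * (1 + y ^ 2) - y * (2 * y)) / (1 + y ^ 2) ^ 2 + 2 / 3 * (3 * y ^ 2)
            - 1 / (1 + y ^ 2)) y :=
        (((hasDerivAt_id y).div h2 hne).add
          ((by simpa using hasDerivAt_pow 3 y :
            HasDerivAt (fun x : ℝ => x ^ 3) (3 * y ^ 2) y).const_mul (2 / 3))).sub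
          (Real.hasDerivAt_arctan y)
      rw [h.deriv]
      have e : (1 * (1 + y ^ 2) - y * (2 * y)) / (1 + y ^ 2) ^ 2 + 2 / 3 * (3 * y ^ 2)
            - 1 / (1 + y ^ 2) = 2 * y ^ 2 * ((1 + y ^ 2) ^ 2 - 1) / (1 + y ^ 2) ^ 2 := by
        field_simp
        ring
      rw [e]
      have : 0 ≤ (1 + y ^ 2) ^ 2 - 1 := by nlinarith [sq_nonneg y, sq_nonneg (y ^ 2)]
      positivity
  have := hm hx
  simp only [arctan_zero] at this
  norm_num at this
  linarith

lemma rpow_neg_two {t : ℝ} (ht : 0 < t) : t ^ (-2 : ℝ) = 1 / t ^ 2 := by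
  rw [Real.rpow_neg ht.le, one_div]
  congr 1
  exact_mod_cast Real.rpow_natCast t 2

lemma rpow_neg_three {t : ℝ} (ht : 0 < t) : t ^ (-3 : ℝ) = 1 / t ^ 3 := by
  rw [Real.rpow_neg ht.le, one_div]
  congr 1
  exact_mod_cast Real.rpow_natCast t 3

lemma rpow_neg_four {t : ℝ} (ht : 0 < t) : t ^ (-4 : ℝ) = 1 / t ^ 4 := by
  rw [Real.rpow_neg ht.le, one_div]
  congr 1
  exact_mod_cast Real.rpow_natCast t 4

lemma PP_nonneg {t : ℝ} (ht : 0 < t) : 0 ≤ PP t := by
  unfold PP
  have h := arctan_le_self (x := 1 / t) (by positivity)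
  have : t * arctan (1 / t) ≤ t * (1 / t) := mul_le_mul_of_nonneg_left h ht.le
  have e : t * (1 / t) = 1 := by field_simp
  linarith

lemma PP_le_one {t : ℝ} (ht : 0 < t) : PP t ≤ 1 := by
  unfold PP
  have h : 0 ≤ arctan (1 / t) := arctan_nonneg.2 (by positivity)
  have : 0 ≤ t * arctan (1 / t) := by positivity
  linarith

lemma PP_le {t : ℝ} (ht : 0 < t) : PP t ≤ 1 / 3 * (1 / t ^ 2) := by
  unfold PP
  have h := arctan_lower (x := 1 / t) (by positivity)
  have h2 := mul_le_mul_of_nonneg_left h ht.le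
  have e : t * (1 / t - (1 / t) ^ 3 / 3) = 1 - 1 / 3 * (1 / t ^ 2) := by
    field_simp
  linarith

lemma RR_nonneg {t : ℝ} (ht : 0 < t) : 0 ≤ RR t := by
  have hL := Lam1_pos ht
  have hP := PP_nonneg ht
  unfold Lam1 at hL
  unfold RR
  have h1 : 0 < 1 + t ^ 2 := by positivity
  rw [sub_nonneg, div_le_iff₀ h1]
  nlinarith

lemma RR_le_two {t : ℝ} (ht : 0 < t) : RR t ≤ 2 := by
  unfold RR
  have h := arctan_le_two (1 / t)
  have : 0 ≤ t / (1 + t ^ 2) := by positivity
  linarith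

lemma RR_le {t : ℝ} (ht : 0 < t) : RR t ≤ 2 / 3 * (1 / t ^ 3) := by
  unfold RR
  have h := arctan_upper (x := 1 / t) (by positivity)
  have e : 1 / t / (1 + (1 / t) ^ 2) = t / (1 + t ^ 2) := by
    field_simp
    ring
  rw [e] at h
  have e2 : (1 / t) ^ 3 = 1 / t ^ 3 := by
    field_simp
  rw [e2] at h
  linarith

lemma continuousOn_PP : ContinuousOn PP (Ioi 0) := fun _ ht =>
  (hasDerivAt_PP ht).continuousAt.continuousWithinAt

lemma continuousOn_RR : ContinuousOn RR (Ioi 0) := fun _ ht =>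
  (hasDerivAt_RR ht).continuousAt.continuousWithinAt

/-! ### The three integrations by parts -/

theorem cMix_step1 {ν : ℝ} (h0 : 0 < ν) (h1 : ν < 1) :
    ∫ t in Ioi (0 : ℝ), t ^ (ν - 1) * Lam1 t = 4 / ν * ∫ t in Ioi (0 : ℝ), t ^ ν * PP t := by
  have h := mellin_parts (ν := ν) (p := ν) (C := 8) (f := Lam1) (f' := fun t => -4 * PP t) h0 h1
    le_rfl (by norm_num) (fun t ht => hasDerivAt_Lam1 ht)
    (continuousOn_const.mul continuousOn_PP) ?_ ?_ ?_ ?_
  · rw [h]
    simp only [mul_left_comm _ (-4 : ℝ)]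
    rw [integral_const_mul]
    ring
  · intro t ht ht1
    rw [abs_of_pos (Lam1_pos ht)]
    exact Lam1_le_small ht ht1
  · intro t ht ht1
    have h1 := PP_nonneg ht
    have h2 := PP_le_one ht
    rw [abs_of_nonpos (by linarith)]
    linarith
  · intro t ht
    have ht0 : 0 < t := by linarith
    have e : ν - 1 - ν = -1 := by ring
    rw [e, Real.rpow_neg_one, abs_of_pos (Lam1_pos ht0)]
    have h2 := Lam1_le ht0
    have e2 : 2 / t = 2 * t⁻¹ := by ring
    have hi : 0 < t⁻¹ := by positivity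
    linarith
  · intro t ht
    have ht0 : 0 < t := by linarith
    have e : ν - 2 - ν = -2 := by ring
    rw [e, rpow_neg_two ht0]
    have h1 := PP_nonneg ht0
    have h2 := PP_le ht0
    have hi : 0 < 1 / t ^ 2 := by positivity
    rw [abs_of_nonpos (by linarith)]
    linarith

theorem cMix_step2 {ν : ℝ} (h0 : 0 < ν) (h1 : ν < 1) :
    ∫ t in Ioi (0 : ℝ), t ^ ν * PP t = 1 / (ν + 1) * ∫ t in Ioi (0 : ℝ), t ^ (ν + 1) * RR t := by
  have h := mellin_parts (ν := ν) (p := ν + 1) (C := 2) (f := PP) (f' := fun t => -RR t) h0 h1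
    (by linarith) (by norm_num) (fun t ht => hasDerivAt_PP ht)
    (continuousOn_RR.neg) ?_ ?_ ?_ ?_
  · rw [show ν + 1 - 1 = ν by ring] at h
    rw [h]
    simp only [mul_neg]
    rw [integral_neg]
    ring
  · intro t ht _
    rw [abs_of_nonneg (PP_nonneg ht)]
    linarith [PP_le_one ht]
  · intro t ht _
    rw [abs_neg, abs_of_nonneg (RR_nonneg ht)]
    exact RR_le_two ht
  · intro t ht
    have ht0 : 0 < t := by linarith
    have e : ν - 1 - (ν + 1) = -2 := by ring
    rw [e, rpow_neg_two ht0, abs_of_nonneg (PP_nonneg ht0)]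
    have h2 := PP_le ht0
    have hi : 0 < 1 / t ^ 2 := by positivity
    linarith
  · intro t ht
    have ht0 : 0 < t := by linarith
    have e : ν - 2 - (ν + 1) = -3 := by ring
    rw [e, rpow_neg_three ht0, abs_neg, abs_of_nonneg (RR_nonneg ht0)]
    have h2 := RR_le ht0
    have hi : 0 < 1 / t ^ 3 := by positivity
    linarith

theorem cMix_step3 {ν : ℝ} (h0 : 0 < ν) (h1 : ν < 1) :
    ∫ t in Ioi (0 : ℝ), t ^ (ν + 1) * RR t =
      2 / (ν + 2) * ∫ t in Ioi (0 : ℝ), t ^ (ν + 2) / (1 + t ^ 2) ^ 2 := by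
  have hcont : ContinuousOn (fun t : ℝ => -(2 / (1 + t ^ 2) ^ 2)) (Ioi 0) := by
    refine Continuous.continuousOn ?_
    refine Continuous.neg (Continuous.div continuous_const (by fun_prop) fun t => ?_)
    positivity
  have h := mellin_parts (ν := ν) (p := ν + 2) (C := 2) (f := RR)
    (f' := fun t => -(2 / (1 + t ^ 2) ^ 2)) h0 h1
    (by linarith) (by norm_num) (fun t ht => hasDerivAt_RR ht) hcont ?_ ?_ ?_ ?_
  · rw [show ν + 2 - 1 = ν + 1 by ring] at h
    rw [h, mul_comm (2 / (ν + 2))]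
    have e : ∀ t : ℝ, t ^ (ν + 2) * -(2 / (1 + t ^ 2) ^ 2) = -2 * (t ^ (ν + 2) / (1 + t ^ 2) ^ 2) := by
      intro t
      ring
    simp only [e]
    rw [integral_const_mul]
    ring
  · intro t ht _
    rw [abs_of_nonneg (RR_nonneg ht)]
    exact RR_le_two ht
  · intro t ht _
    have h1 : 1 ≤ (1 + t ^ 2) ^ 2 := by nlinarith [sq_nonneg t, sq_nonneg (t ^ 2)]
    rw [abs_neg, abs_of_pos (by positivity), div_le_iff₀ (by positivity)]
    linarith
  · intro t ht
    have ht0 : 0 < t := by linarith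
    have e : ν - 1 - (ν + 2) = -3 := by ring
    rw [e, rpow_neg_three ht0, abs_of_nonneg (RR_nonneg ht0)]
    have h2 := RR_le ht0
    have hi : 0 < 1 / t ^ 3 := by positivity
    linarith
  · intro t ht
    have ht0 : 0 < t := by linarith
    have e : ν - 2 - (ν + 2) = -4 := by ring
    rw [e, rpow_neg_four ht0, abs_neg, abs_of_pos (by positivity)]
    have h4 : t ^ 4 ≤ (1 + t ^ 2) ^ 2 := by nlinarith [sq_nonneg t]
    have h5 : 0 < t ^ 4 := by positivity
    calc 2 / (1 + t ^ 2) ^ 2 ≤ 2 / t ^ 4 := by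
          apply div_le_div_of_nonneg_left (by norm_num) h5 h4
      _ = 2 * (1 / t ^ 4) := by ring

/-! ### The remaining integral -/

/-- The substitution. -/
def tOfY (y : ℝ) : ℝ := √(y / (1 - y))

lemma tOfY_pos {y : ℝ} (hy : y ∈ Ioo (0 : ℝ) 1) : 0 < tOfY y := by
  unfold tOfY
  have h2 : 0 < 1 - y := by linarith [hy.2]
  exact Real.sqrt_pos.2 (div_pos hy.1 h2)

lemma tOfY_sq {y : ℝ} (hy : y ∈ Ioo (0 : ℝ) 1) : tOfY y ^ 2 = y / (1 - y) := by
  unfold tOfY
  have h2 : 0 < 1 - y := by linarith [hy.2]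
  exact Real.sq_sqrt (div_pos hy.1 h2).le

lemma image_tOfY : tOfY '' Ioo (0 : ℝ) 1 = Ioi 0 := by
  ext t
  constructor
  · rintro ⟨y, hy, rfl⟩
    exact tOfY_pos hy
  · intro ht
    have ht0 : (0 : ℝ) < t := ht
    have h1 : 0 < 1 + t ^ 2 := by positivity
    refine ⟨t ^ 2 / (1 + t ^ 2), ⟨by positivity, ?_⟩, ?_⟩
    · rw [div_lt_one h1]
      linarith
    · unfold tOfY
      have e : t ^ 2 / (1 + t ^ 2) / (1 - t ^ 2 / (1 + t ^ 2)) = t ^ 2 := by
        field_simp
        ring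
      rw [e, Real.sqrt_sq ht0.le]

lemma injOn_tOfY : InjOn tOfY (Ioo (0 : ℝ) 1) := by
  intro a ha b hb h
  have h1 : a / (1 - a) = b / (1 - b) := by
    rw [← tOfY_sq ha, ← tOfY_sq hb, h]
  have ha2 : 0 < 1 - a := by linarith [ha.2]
  have hb2 : 0 < 1 - b := by linarith [hb.2]
  rw [div_eq_div_iff ha2.ne' hb2.ne'] at h1
  nlinarith

/-- The derivative of the substitution. -/
def tOfY' (y : ℝ) : ℝ := 1 / (2 * tOfY y) * (1 / (1 - y) ^ 2)

lemma hasDerivAt_tOfY {y : ℝ} (hy : y ∈ Ioo (0 : ℝ) 1) : HasDerivAt tOfY (tOfY' y) y := by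
  have h2 : 0 < 1 - y := by linarith [hy.2]
  have h3 : 0 < y / (1 - y) := div_pos hy.1 h2
  have h1 : HasDerivAt (fun x : ℝ => x / (1 - x)) (1 / (1 - y) ^ 2) y := by
    have h := (hasDerivAt_id' y).div ((hasDerivAt_id' y).const_sub 1) h2.ne'
    have e : (1 * (1 - y) - y * (-1)) / (1 - y) ^ 2 = 1 / (1 - y) ^ 2 := by ring
    rw [e] at h
    exact h
  exact h1.sqrt h3.ne' |>.congr_deriv (by
    unfold tOfY'
    unfold tOfY
    ring)

/-- The last integral as a Beta integral. -/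
theorem integral_J {ν : ℝ} (h0 : 0 < ν) (h1 : ν < 1) :
    ∫ t in Ioi (0 : ℝ), t ^ (ν + 2) / (1 + t ^ 2) ^ 2 =
      1 / 2 * (Real.Gamma ((ν + 3) / 2) * Real.Gamma ((1 - ν) / 2)) := by
  have hα : 0 < (ν + 3) / 2 := by linarith
  have hβ : 0 < (1 - ν) / 2 := by linarith
  have hB := integral_beta hα hβ
  have e0 : (ν + 3) / 2 + (1 - ν) / 2 = 2 := by ring
  rw [e0, Real.Gamma_two, div_one] at hB
  rw [← hB, ← integral_const_mul, ← image_tOfY, integral_image_eq_integral_abs_deriv_smul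
    measurableSet_Ioo (fun x hx => (hasDerivAt_tOfY hx).hasDerivWithinAt) injOn_tOfY]
  refine setIntegral_congr_fun measurableSet_Ioo fun y hy => ?_
  have hy0 : 0 < y := hy.1
  have hy1 : 0 < 1 - y := by linarith [hy.2]
  have ht := tOfY_pos hy
  have ht2 := tOfY_sq hy
  simp only [smul_eq_mul]
  have e1 : 1 + tOfY y ^ 2 = 1 / (1 - y) := by
    rw [ht2]
    field_simp
    ring
  have e2 : |tOfY' y| = 1 / (2 * tOfY y) * (1 / (1 - y) ^ 2) := by
    unfold tOfY'
    exact abs_of_pos (by positivity)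
  rw [e1, e2]
  -- the power of t
  have e3 : tOfY y ^ (ν + 2) = tOfY y * (y / (1 - y)) ^ ((ν + 1) / 2) := by
    have hz : 0 < y / (1 - y) := div_pos hy0 hy1
    have : y / (1 - y) = tOfY y ^ (2 : ℝ) := by
      rw [← ht2]
      exact_mod_cast (Real.rpow_natCast (tOfY y) 2).symm
    rw [this, ← Real.rpow_mul ht.le]
    have e4 : (2 : ℝ) * ((ν + 1) / 2) = ν + 1 := by ring
    rw [e4]
    have e5 : ν + 2 = 1 + (ν + 1) := by ring
    rw [e5, Real.rpow_add ht, Real.rpow_one]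
  rw [e3, Real.div_rpow hy0.le hy1.le]
  have e6 : y ^ ((ν + 3) / 2 - 1) = y ^ ((ν + 1) / 2) := by
    congr 1
    ring
  have e7 : (1 - y) ^ ((1 - ν) / 2 - 1) = ((1 - y) ^ ((ν + 1) / 2))⁻¹ := by
    rw [← Real.rpow_neg hy1.le]
    congr 1
    ring
  rw [e6, e7]
  have hZ : 0 < (1 - y) ^ ((ν + 1) / 2) := Real.rpow_pos_of_pos hy1 _
  generalize y ^ ((ν + 1) / 2) = A
  generalize (1 - y) ^ ((ν + 1) / 2) = B at hZ ⊢
  field_simp

/-- **`cMix` in terms of the Gamma function.** -/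
theorem cMix_gamma {ν : ℝ} (h0 : 0 < ν) (h1 : ν < 1) :
    cMix (1 - ν) = 4 / (ν * (ν + 1) * (ν + 2)) *
      (Real.Gamma ((ν + 3) / 2) * Real.Gamma ((1 - ν) / 2)) := by
  unfold cMix
  rw [show -(1 - ν) = ν - 1 by ring, cMix_step1 h0 h1, cMix_step2 h0 h1, cMix_step3 h0 h1,
    integral_J h0 h1]
  have h2 : 0 < ν + 1 := by linarith
  have h3 : 0 < ν + 2 := by linarith
  field_simp

end

end Vale.Agent.Lib.P371.SharpA
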