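import Vale.Agent.Lib.P371.Sharp.RowsFinal
import Vale.Agent.Lib.P371.SharpA.Defs

/-!
From the line inequality for rows (`RowsALine`, the one-parameter calibration family) to the
trial-state inequality on the line for orthonormal families in `H¹(ℝ; ℂ^m)` with occupation numbers
`n_j`, plus the pointwise inequality `2 ∑_α r_α² ≤ tr Q²`.
-/

open Set MeasureTheory Real Matrix
open Vale.Agent.Lib.P371.Cal (RH1)

namespace Vale.Agent.Lib.P371.SharpA

open Vale.Agent.Lib.P371 Vale.Agent.Lib.P371.Sharp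

section Tr2

variable {κ ι β : Type*} [Fintype κ] [Fintype ι] [Fintype β]

lemma tr2_nonneg' (A : κ → ι → ℝ) : 0 ≤ tr2 A :=
  Finset.sum_nonneg fun _ _ => Finset.sum_nonneg fun _ _ => sq_nonneg _

/-- `|Fᵀ U|⁴ ≤ ⟨Fᵀ U, Q Fᵀ U⟩` for a unit vector `U`. -/
lemma square_le (F : κ → ι → ℝ) (U : κ → ℝ) (hU : ∑ a, U a ^ 2 = 1) :
    (∑ i, (∑ a, U a * F a i) ^ 2) ^ 2 ≤
      ∑ i, ∑ j, QM F i j * ((∑ a, U a * F a i) * ∑ a, U a * F a j) := by
  classical
  obtain ⟨v, hv⟩ : ∃ v : ι → ℝ, v = fun i => ∑ a, U a * F a i := ⟨_, rfl⟩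
  obtain ⟨w, hw⟩ : ∃ w : κ → ℝ, w = fun a => ∑ i, F a i * v i := ⟨_, rfl⟩
  have e1 : ∀ i, ∑ a, U a * F a i = v i := fun i => by rw [hv]
  simp only [e1]
  obtain ⟨r, hr⟩ : ∃ r, r = ∑ i, v i ^ 2 := ⟨_, rfl⟩
  rw [← hr]
  have h1 : r = ∑ a, U a * w a := by
    rw [hr, hw]
    simp only [Finset.mul_sum]
    rw [Finset.sum_comm]
    apply Finset.sum_congr rfl
    intro i _
    rw [sq]
    conv_lhs => rw [hv]
    simp only [Finset.sum_mul]
    apply Finset.sum_congr rfl
    intro a _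
    rw [hv]
    ring
  have h2 : r ^ 2 ≤ ∑ a, w a ^ 2 := by
    have := Finset.sum_mul_sq_le_sq_mul_sq Finset.univ U w
    rw [hU, one_mul, ← h1] at this
    exact this
  refine h2.trans_eq ?_
  have h3 : ∀ a, w a ^ 2 = ∑ i, ∑ j, (F a i * F a j) * (v i * v j) := by
    intro a
    rw [hw, sq, Finset.sum_mul_sum]
    exact Finset.sum_congr rfl fun i _ => Finset.sum_congr rfl fun j _ => by ring
  simp only [h3]
  rw [Finset.sum_comm]
  apply Finset.sum_congr rfl
  intro i _
  rw [Finset.sum_comm]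
  apply Finset.sum_congr rfl
  intro j _
  rw [QM, Finset.sum_mul]

omit [Fintype ι] in
/-- Completeness of the basis `B`. -/
lemma sum_v_v [DecidableEq κ] (F : κ → ι → ℝ) (B : β → κ → ℝ)
    (hB : ∀ a b, ∑ l, B l a * B l b = if a = b then 1 else 0) (i j : ι) :
    ∑ l, ((∑ a, B l a * F a i) * ∑ a, B l a * F a j) = QM F i j := by
  have h1 : ∀ l, (∑ a, B l a * F a i) * ∑ a, B l a * F a j =
      ∑ a, ∑ b, (B l a * B l b) * (F a i * F b j) := by
    intro l
    rw [Finset.sum_mul_sum]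
    exact Finset.sum_congr rfl fun a _ => Finset.sum_congr rfl fun b _ => by ring
  simp only [h1]
  rw [Finset.sum_comm]
  apply Finset.sum_congr rfl
  intro a _
  rw [Finset.sum_comm]
  have h2 : ∀ b, ∑ l, (B l a * B l b) * (F a i * F b j) =
      (if a = b then 1 else 0) * (F a i * F b j) := by
    intro b
    rw [← hB a b, Finset.sum_mul]
  simp only [h2, ite_mul, one_mul, zero_mul, Finset.sum_ite_eq, Finset.mem_univ, if_true]

/-- The pinching inequality: `∑_l |Fᵀ B_l|⁴ ≤ tr Q²`. -/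
theorem sum_sq_le_tr2 [DecidableEq κ] (F : κ → ι → ℝ) (B : β → κ → ℝ)
    (hB : ∀ a b, ∑ l, B l a * B l b = if a = b then 1 else 0)
    (hU : ∀ l, ∑ a, B l a ^ 2 = 1) :
    ∑ l, (∑ i, (∑ a, B l a * F a i) ^ 2) ^ 2 ≤ tr2 F := by
  refine (Finset.sum_le_sum fun l _ => square_le F (B l) (hU l)).trans_eq ?_
  rw [Finset.sum_comm]
  apply Finset.sum_congr rfl
  intro i _
  rw [Finset.sum_comm]
  apply Finset.sum_congr rfl
  intro j _
  simp only [← Finset.mul_sum, sum_v_v F B hB]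
  have : QM F i j = Rows.qm F i j := rfl
  rw [this, sq]

end Tr2

variable {m N : ℕ}

/-- The pointwise trace inequality for `tr Q²`. -/
theorem pointwise_trace2 {A : Matrix (Fin m) (Fin m) ℂ} (hA : A.IsHermitian)
    (z : Fin N → Fin m → ℂ) :
    2 * ∑ α, (∑ j, ‖∑ c, rowsU hA α c * z j c‖ ^ 2) ^ 2 ≤ tr2 (blockF z) := by
  have h := sum_sq_le_tr2 (blockF z) (blockB (rowsU hA)) (block_orth hA) (block_unit hA)
  have h2 : ∀ l : Fin m × Bool, ∑ i, (∑ a, blockB (rowsU hA) l a * blockF z a i) ^ 2 =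
      ∑ j, ‖∑ c, rowsU hA l.1 c * z j c‖ ^ 2 := fun l => sum_sq_block _ z l
  have h3 : ∑ l : Fin m × Bool, (∑ i, (∑ a, blockB (rowsU hA) l a * blockF z a i) ^ 2) ^ 2 =
      2 * ∑ α, (∑ j, ‖∑ c, rowsU hA α c * z j c‖ ^ 2) ^ 2 := by
    rw [Fintype.sum_prod_type, Finset.mul_sum]
    apply Finset.sum_congr rfl
    intro α _
    simp only [Fintype.sum_bool, h2]
    ring
  rw [← h3]
  exact h

/-- `star (mulI s 1) * mulI t 1`. -/
noncomputable def kap (s t : Bool) : ℂ := star (mulI s 1) * mulI t 1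

lemma sum_reR_mul (s t : Bool) (y y' : ℂ) :
    ∑ u : Bool, reR u (mulI s y) * reR u (mulI t y') = (kap s t * (star y * y')).re := by
  cases s <;> cases t <;>
    simp [reR, mulI, kap, Complex.mul_re, Complex.mul_im] <;> ring

lemma kap_re (s t : Bool) : (kap s t).re = if s = t then 1 else 0 := by
  cases s <;> cases t <;> simp [mulI, kap]

/-- `IsH1` is stable under multiplication by a constant. -/
lemma isH1_const {f f' : ℝ → ℂ} (h : IsH1 f f') (s : ℂ) :
    IsH1 (fun x => s * f x) (fun x => s * f' x) := by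
  refine ⟨h.memLp.const_mul _, h.memLp_deriv.const_mul _, fun a b => ?_⟩
  rw [intervalIntegral.integral_const_mul, h.primitive, mul_sub]

/-- The exact Gram matrix of the block family. -/
lemma gram_block_exact {ψ ψ' : Fin N → ℝ → Fin m → ℂ}
    (hH : ∀ j c, IsH1 (fun x => ψ j x c) (fun x => ψ' j x c))
    (horth : ∀ j k, ∑ c, ∫ x, star (ψ j x c) * ψ k x c = if j = k then 1 else 0)
    (i i' : Fin N × Bool) :
    ∑ a, ∫ x, blockF (fun j => ψ j x) a i * blockF (fun j => ψ j x) a i' =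
      if i = i' then 1 else 0 := by
  classical
  rcases i with ⟨j, s⟩
  rcases i' with ⟨k, t⟩
  have hI : ∀ c u, Integrable fun x => reR u (mulI s (ψ j x c)) * reR u (mulI t (ψ k x c)) := by
    intro c u
    have h1 := (rh1_block hH (c, u) (j, s)).memLp
    have h2 := (rh1_block hH (c, u) (k, t)).memLp
    exact h1.integrable_mul h2
  have hI2 : ∀ c, Integrable fun x => star (ψ j x c) * ψ k x c := fun c =>
    ((hH j c).memLp.star).integrable_mul (hH k c).memLp
  have h1 : ∀ c, ∑ u : Bool, ∫ x, reR u (mulI s (ψ j x c)) * reR u (mulI t (ψ k x c)) =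
      (kap s t * ∫ x, star (ψ j x c) * ψ k x c).re := by
    intro c
    rw [← integral_finsetSum _ fun u _ => hI c u]
    simp only [sum_reR_mul]
    rw [← integral_const_mul]
    have := Complex.reCLM.integral_comp_comm ((hI2 c).const_mul (kap s t))
    simpa using this
  have h2 : ∑ a : Fin m × Bool, ∫ x, blockF (fun j => ψ j x) a (j, s) *
      blockF (fun j => ψ j x) a (k, t) = (kap s t * ∑ c, ∫ x, star (ψ j x c) * ψ k x c).re := by
    rw [Fintype.sum_prod_type, Finset.mul_sum, Complex.re_sum]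
    refine Finset.sum_congr rfl fun c _ => ?_
    rw [← h1 c]
    rfl
  rw [h2, horth]
  by_cases hjk : j = k
  · subst hjk
    simp only [if_true, mul_one, kap_re, Prod.mk.injEq, true_and]
  · have : ¬ ((j, s) = (k, t)) := fun h => hjk (congrArg Prod.fst h)
    simp [hjk, this]

/-- Scaling of the block family. -/
lemma blockF_scale (s : Fin N → ℝ) (z : Fin N → Fin m → ℂ) (a : Fin m × Bool)
    (i : Fin N × Bool) :
    blockF (fun j c => ((s j : ℝ) : ℂ) * z j c) a i = s i.1 * blockF z a i := by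
  rcases a with ⟨c, u⟩
  rcases i with ⟨j, t⟩
  cases u <;> cases t <;> simp [blockF, reR, mulI, Complex.mul_re, Complex.mul_im]

/-- The family with occupation numbers. -/
noncomputable def scaled (n : Fin N → ℝ) (z : Fin N → Fin m → ℂ) : Fin N → Fin m → ℂ :=
  fun j c => ((√(n j) : ℝ) : ℂ) * z j c

variable (κ ι : Type*) [Fintype κ] [Fintype ι] [DecidableEq ι] in
/-- The line inequality for rows. -/
def RowsALine : Prop :=
  ∀ (Φ Φ' : ℝ → κ → ι → ℝ), (∀ a i, RH1 (fun x => Φ x a i) (fun x => Φ' x a i)) →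
    ∀ d : ι → ℝ, (∀ i, 0 ≤ d i) → (∀ i, d i < 1) →
    (∀ i j, ∑ a, ∫ x, Φ x a i * Φ x a j = if i = j then d i else 0) →
    ∀ a : ℝ, 0 ≤ a →
      Integrable (fun x => Rows.tr3 (Φ x)) ∧ Integrable (fun x => tr2 (Φ x)) ∧
      π ^ 2 / 4 * (∫ x, Rows.tr3 (Φ x)) + a * π * (∫ x, tr2 (Φ x)) ≤
        (∫ x, Rows.rh (Φ' x)) + (1 / π) * ∑ i, a ^ 2 * (2 * tan (π * d i / 2) - π * d i)

/-- **The trial-state inequality for an orthonormal family with occupation numbers `n_j`.** -/
theorem final_line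
    (line : RowsALine (Fin m × Bool) (Fin N × Bool))
    {ψ ψ' : Fin N → ℝ → Fin m → ℂ}
    (hH : ∀ j c, IsH1 (fun x => ψ j x c) (fun x => ψ' j x c))
    (horth : ∀ j k, ∑ c, ∫ x, star (ψ j x c) * ψ k x c = if j = k then 1 else 0)
    (n : Fin N → ℝ) (hn0 : ∀ j, 0 ≤ n j) (hn1 : ∀ j, n j < 1) {a : ℝ} (ha : 0 ≤ a) :
    Integrable (fun x => Rows.tr3 (blockF (scaled n fun j => ψ j x))) ∧
      Integrable (fun x => tr2 (blockF (scaled n fun j => ψ j x))) ∧
      π * ∫ x, (π ^ 2 / 8 * Rows.tr3 (blockF (scaled n fun j => ψ j x)) +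
          a * π / 2 * tr2 (blockF (scaled n fun j => ψ j x))) ≤
        π * (∑ j, n j * ∑ c, ∫ x, ‖ψ' j x c‖ ^ 2) +
          ∑ j, a ^ 2 * (2 * tan (π * n j / 2) - π * n j) := by
  classical
  have hπ := Real.pi_pos
  have hH' : ∀ j c, IsH1 (fun x => ((√(n j) : ℝ) : ℂ) * ψ j x c)
      (fun x => ((√(n j) : ℝ) : ℂ) * ψ' j x c) := fun j c => isH1_const (hH j c) _
  have hrh1 : ∀ (b : Fin m × Bool) (i : Fin N × Bool),
      RH1 (fun x => blockF (scaled n fun j => ψ j x) b i)
        (fun x => blockF (scaled n fun j => ψ' j x) b i) :=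
    fun b i => rh1_block (ψ := fun j x c => ((√(n j) : ℝ) : ℂ) * ψ j x c)
      (ψ' := fun j x c => ((√(n j) : ℝ) : ℂ) * ψ' j x c) hH' b i
  have hgram : ∀ i i' : Fin N × Bool,
      ∑ b, ∫ x, blockF (scaled n fun j => ψ j x) b i * blockF (scaled n fun j => ψ j x) b i' =
        if i = i' then n i.1 else 0 := by
    intro i i'
    have e : ∀ (b : Fin m × Bool) x, blockF (scaled n fun j => ψ j x) b i *
        blockF (scaled n fun j => ψ j x) b i' =
        (√(n i.1) * √(n i'.1)) * (blockF (fun j => ψ j x) b i * blockF (fun j => ψ j x) b i') := by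
      intro b x
      have e1 : blockF (scaled n fun j => ψ j x) b i = √(n i.1) * blockF (fun j => ψ j x) b i :=
        blockF_scale (fun j => √(n j)) (fun j => ψ j x) b i
      have e2 : blockF (scaled n fun j => ψ j x) b i' = √(n i'.1) * blockF (fun j => ψ j x) b i' :=
        blockF_scale (fun j => √(n j)) (fun j => ψ j x) b i'
      rw [e1, e2]
      ring
    simp only [e, integral_const_mul]
    rw [← Finset.mul_sum, gram_block_exact hH horth]
    by_cases h : i = i'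
    · subst h
      simp [Real.mul_self_sqrt (hn0 i.1)]
    · simp [h]
  obtain ⟨i3, i2, hmain⟩ := line _ _ hrh1 (fun i => n i.1) (fun i => hn0 i.1) (fun i => hn1 i.1)
    hgram a ha
  refine ⟨i3, i2, ?_⟩
  have hkin : ∀ j c, Integrable fun x => ‖ψ' j x c‖ ^ 2 := fun j c =>
    (hH j c).memLp_deriv.integrable_norm_pow (by norm_num)
  have hrh : ∀ x, Rows.rh (blockF (scaled n fun j => ψ' j x)) =
      2 * ∑ j, n j * ∑ c, ‖ψ' j x c‖ ^ 2 := by
    intro x
    have := sum_block_sq (scaled n fun j => ψ' j x)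
    change ∑ a, ∑ i, blockF (scaled n fun j => ψ' j x) a i ^ 2 = _
    rw [this]
    congr 1
    refine Finset.sum_congr rfl fun j _ => ?_
    rw [Finset.mul_sum]
    refine Finset.sum_congr rfl fun c _ => ?_
    simp only [scaled, norm_mul, Complex.norm_real, Real.norm_eq_abs, mul_pow, sq_abs]
    rw [Real.sq_sqrt (hn0 j)]
  have hkinE : ∫ x, Rows.rh (blockF (scaled n fun j => ψ' j x)) =
      2 * ∑ j, n j * ∑ c, ∫ x, ‖ψ' j x c‖ ^ 2 := by
    simp only [hrh]
    rw [integral_const_mul, integral_finsetSum _ fun j _ =>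
      (integrable_finsetSum _ fun c _ => hkin j c).const_mul _]
    congr 1
    refine Finset.sum_congr rfl fun j _ => ?_
    rw [integral_const_mul, integral_finsetSum _ fun c _ => hkin j c]
  have hsum : ∑ i : Fin N × Bool, a ^ 2 * (2 * tan (π * n i.1 / 2) - π * n i.1) =
      2 * ∑ j, a ^ 2 * (2 * tan (π * n j / 2) - π * n j) := by
    rw [Fintype.sum_prod_type, Finset.mul_sum]
    refine Finset.sum_congr rfl fun j _ => ?_
    simp only [Fintype.sum_bool]
    ring
  rw [hkinE, hsum] at hmain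
  rw [integral_add (i3.const_mul _) (i2.const_mul _), integral_const_mul, integral_const_mul]
  have h2 : π / 2 * (π ^ 2 / 4 * (∫ x, Rows.tr3 (blockF (scaled n fun j => ψ j x))) +
      a * π * (∫ x, tr2 (blockF (scaled n fun j => ψ j x)))) ≤
      π / 2 * (2 * (∑ j, n j * ∑ c, ∫ x, ‖ψ' j x c‖ ^ 2) +
        1 / π * (2 * ∑ j, a ^ 2 * (2 * tan (π * n j / 2) - π * n j))) :=
    mul_le_mul_of_nonneg_left hmain (by positivity)
  have h3 : π / 2 * (2 * (∑ j, n j * ∑ c, ∫ x, ‖ψ' j x c‖ ^ 2) +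
        1 / π * (2 * ∑ j, a ^ 2 * (2 * tan (π * n j / 2) - π * n j))) =
      π * (∑ j, n j * ∑ c, ∫ x, ‖ψ' j x c‖ ^ 2) +
          ∑ j, a ^ 2 * (2 * tan (π * n j / 2) - π * n j) := by
    generalize (∑ j, n j * ∑ c, ∫ x, ‖ψ' j x c‖ ^ 2) = A
    generalize (∑ j, a ^ 2 * (2 * tan (π * n j / 2) - π * n j)) = B
    field_simp
  rw [h3] at h2
  refine le_trans (le_of_eq ?_) h2
  ring

end Vale.Agent.Lib.P371.SharpA
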