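import Vale.Agent.Lib.P371.Sharp.RowsFinal
import Vale.Agent.Lib.P371.LclDef

/-!
The sharp inequality at `γ = 1` in the positive part form, with the constant written as
`(2 / √3) ^ (3 - 2 γ) * Lcl γ`.
-/

open MeasureTheory Matrix
open scoped ComplexOrder

namespace Vale.Agent.Lib.P371.SharpA

open Vale.Agent.Lib.P371 Vale.Agent.Lib.P371.Sharp

variable {m N : ℕ}

lemma Lcl_one : Lcl 1 = 2 / (3 * Real.pi) := by
  have hπ := Real.pi_pos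
  unfold Lcl
  have h : ∫ ξ in (-1 : ℝ)..1, (1 - ξ ^ 2) ^ (1 : ℝ) = 4 / 3 := by
    simp only [Real.rpow_one]
    rw [intervalIntegral.integral_sub (by simp) (by simp)]
    simp
    norm_num
  rw [h]
  field_simp
  norm_num

/-- The sharp inequality at `γ = 1`, positive part form. -/
theorem sharp_one_max
    {W : ℝ → Matrix (Fin m) (Fin m) ℂ} (hW : ∀ x, (W x).PosSemidef)
    (hWm : ∀ i j, Measurable fun x => W x i j)
    (hWint : Integrable fun x => ∑ i, (hW x).isHermitian.eigenvalues i ^ ((1 : ℝ) + 1 / 2))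
    {ψ ψ' : Fin N → ℝ → Fin m → ℂ}
    (hH : ∀ j c, IsH1 (fun x => ψ j x c) (fun x => ψ' j x c))
    (horth : ∀ j k, ∑ c, ∫ x, star (ψ j x c) * ψ k x c = if j = k then 1 else 0) :
    (∀ j, Integrable fun x => (star (ψ j x) ⬝ᵥ W x *ᵥ ψ j x).re) ∧
      ∑ j, (max ((∫ x, (star (ψ j x) ⬝ᵥ W x *ᵥ ψ j x).re) - ∑ c, ∫ x, ‖ψ' j x c‖ ^ 2) 0) ^ (1 : ℝ) ≤
        (2 / √3) ^ (3 - 2 * (1 : ℝ)) * Lcl 1 *
          ∫ x, ∑ i, (hW x).isHermitian.eigenvalues i ^ ((1 : ℝ) + 1 / 2) := by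
  classical
  have hexp : (1 : ℝ) + 1 / 2 = 3 / 2 := by norm_num
  rw [hexp] at hWint ⊢
  have hc : (2 / √3) ^ (3 - 2 * (1 : ℝ)) * Lcl 1 = 2 / √3 * (2 / (3 * Real.pi)) := by
    have : (3 - 2 * (1 : ℝ)) = 1 := by norm_num
    rw [this, Real.rpow_one, Lcl_one]
  rw [hc]
  obtain ⟨hV, -⟩ := matrix_sharp hW hWm hWint hH horth
  refine ⟨hV, ?_⟩
  obtain ⟨e, he⟩ : ∃ e : Fin N → ℝ, e = fun j =>
      (∫ x, (star (ψ j x) ⬝ᵥ W x *ᵥ ψ j x).re) - ∑ c, ∫ x, ‖ψ' j x c‖ ^ 2 := ⟨_, rfl⟩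
  simp only [← congrFun he, Real.rpow_one]
  obtain ⟨S, hS⟩ : ∃ S : Finset (Fin N), S = Finset.univ.filter fun j => 0 < e j := ⟨_, rfl⟩
  have hsum : ∑ j, max (e j) 0 = ∑ j ∈ S, e j := by
    rw [hS, Finset.sum_filter]
    refine Finset.sum_congr rfl fun j _ => ?_
    split_ifs with h
    · exact max_eq_left h.le
    · exact max_eq_right (not_lt.1 h)
  rw [hsum]
  obtain ⟨φ⟩ : Nonempty (Fin S.card ≃ S) := ⟨S.equivFin.symm⟩
  have hH₁ : ∀ (i : Fin S.card) c, IsH1 (fun x => ψ (φ i).1 x c) (fun x => ψ' (φ i).1 x c) :=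
    fun i c => hH _ c
  have horth₁ : ∀ i k : Fin S.card, ∑ c, ∫ x, star (ψ (φ i).1 x c) * ψ (φ k).1 x c =
      if i = k then 1 else 0 := by
    intro i k
    rw [horth]
    by_cases h : i = k
    · simp [h]
    · have : (φ i).1 ≠ (φ k).1 := fun h2 => h (φ.injective (Subtype.ext h2))
      simp [h, this]
  obtain ⟨-, hmain⟩ := matrix_sharp hW hWm hWint hH₁ horth₁
  have hs2 : ∑ i : Fin S.card, ((∫ x, (star (ψ (φ i).1 x) ⬝ᵥ W x *ᵥ ψ (φ i).1 x).re) -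
      ∑ c, ∫ x, ‖ψ' (φ i).1 x c‖ ^ 2) = ∑ j ∈ S, e j := by
    rw [← Finset.sum_coe_sort S e, ← φ.sum_comp (fun j : S => e j.1), he]
  rw [← hs2]
  exact hmain

end Vale.Agent.Lib.P371.SharpA
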