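import Vale.Agent.Lib.P371.Sharp.RowsApprox

/-!
The generic passage from `C¹` to `H¹` on a compact interval.
-/

open Set MeasureTheory Real Filter Topology
open Vale.Agent.Lib.P371.Cal (RH1)

namespace Vale.Agent.Lib.P371.SharpA

open Vale.Agent.Lib.P371.Sharp.Rows

variable {κ ι : Type*} [Fintype κ] [Fintype ι]

/-- Passing from `C¹` to `H¹` on a compact interval, for a continuous integrand `F`, a continuous
boundary functional `B` and a functional `V` of the Gram matrix, continuous at the limit. -/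
theorem dual_interval_generic (F B : (κ → ι → ℝ) → ℝ) (cF : Continuous F) (cB : Continuous B)
    (V : (ι → ι → ℝ) → ℝ) {xL xR : ℝ} (hx : xL < xR) {θ : ℝ} (hθ : 0 < θ)
    (core : ∀ Ψ Ψ' : ℝ → κ → ι → ℝ, (∀ a i x, HasDerivAt (fun t => Ψ t a i) (Ψ' x a i) x) →
      (∀ a i, Continuous fun x => Ψ' x a i) →
      (∀ e : ι → ℝ, ∑ i, e i ^ 2 = 1 → ∑ a, ∫ x in xL..xR, (∑ i, e i * Ψ x a i) ^ 2 ≤ 1 + θ) →
      ∫ x in xL..xR, F (Ψ x) ≤ (∫ x in xL..xR, rh (Ψ' x)) + B (Ψ xL) + B (Ψ xR) +
        V (fun i j => ∫ x in xL..xR, qm (Ψ x) i j))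
    (Φ Φ' : ℝ → κ → ι → ℝ) (h : ∀ a i, RH1 (fun x => Φ x a i) (fun x => Φ' x a i))
    (hG : ∀ e : ι → ℝ, ∑ i, e i ^ 2 = 1 → ∑ a, ∫ x, (∑ i, e i * Φ x a i) ^ 2 ≤ 1)
    (hV : ContinuousAt V (fun i j => ∫ x in xL..xR, qm (Φ x) i j)) :
    ∫ x in xL..xR, F (Φ x) ≤ (∫ x in xL..xR, rh (Φ' x)) + B (Φ xL) + B (Φ xR) +
      V (fun i j => ∫ x in xL..xR, qm (Φ x) i j) := by
  classical
  -- the parameters
  let δ : ℕ → ℝ := fun n => 1 / ((n : ℝ) + 1)
  have hδpos : ∀ n, 0 < δ n := fun n => by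
    simp only [δ]
    positivity
  have hδle : ∀ n, δ n ≤ 1 := fun n => by
    simp only [δ]
    rw [div_le_one (by positivity)]
    have : (0 : ℝ) ≤ n := Nat.cast_nonneg n
    linarith
  have hδlim : Tendsto δ atTop (𝓝 0) := tendsto_one_div_add_atTop_nhds_zero_nat
  have hsqrtlim : Tendsto (fun n => √(δ n)) atTop (𝓝 0) := by
    have := (Real.continuous_sqrt.tendsto 0).comp hδlim
    rw [Real.sqrt_zero] at this
    exact this
  choose g cg mg hgδ using fun (n : ℕ) (a : κ) (i : ι) =>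
    ap_exists_cont_approx (h a i).memLp_deriv (hδpos n)
  have hL : 0 < xR - xL := sub_pos.2 hx
  have hLR := hx.le
  have hgi : ∀ n a i, Integrable fun x => (g n a i x - Φ' x a i) ^ 2 := fun n a i =>
    ((mg n a i).sub (h a i).memLp_deriv).integrable_sq
  have hd : ∀ n a i, ∫ x in xL..xR, (g n a i x - Φ' x a i) ^ 2 ≤ δ n := by
    intro n a i
    rw [intervalIntegral.integral_of_le hLR]
    exact (setIntegral_le_integral (hgi n a i)
      (Eventually.of_forall fun x => sq_nonneg _)).trans (hgδ n a i)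
  have cΦ : ∀ a i, Continuous fun x => Φ x a i := fun a i => ap_rh1_continuous (h a i)
  -- the smallness condition holds eventually
  set Nk : ℝ := (Fintype.card κ : ℝ) with hNk
  set Ni : ℝ := (Fintype.card ι : ℝ) with hNi
  have hNk0 : 0 ≤ Nk := Nat.cast_nonneg _
  have hNi0 : 0 ≤ Ni := Nat.cast_nonneg _
  have hsmall : ∀ᶠ n in atTop, (1 + θ / 2) + (1 + 2 / θ) *
      (Nk * ((xR - xL) * (Ni * ((xR - xL) * δ n)))) ≤ 1 + θ := by
    have hlim : Tendsto (fun n => (1 + θ / 2) + (1 + 2 / θ) *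
        (Nk * ((xR - xL) * (Ni * ((xR - xL) * δ n))))) atTop
        (𝓝 ((1 + θ / 2) + (1 + 2 / θ) * (Nk * ((xR - xL) * (Ni * ((xR - xL) * 0)))))) :=
      tendsto_const_nhds.add (tendsto_const_nhds.mul (tendsto_const_nhds.mul
        (tendsto_const_nhds.mul (tendsto_const_nhds.mul (tendsto_const_nhds.mul hδlim)))))
    have hv : (1 + θ / 2) + (1 + 2 / θ) * (Nk * ((xR - xL) * (Ni * ((xR - xL) * 0)))) =
        1 + θ / 2 := by
      simp
    rw [hv] at hlim
    have hlt : 1 + θ / 2 < 1 + θ := by linarith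
    exact (hlim.eventually (gt_mem_nhds hlt)).mono fun n hn => hn.le
  -- the approximants
  let Φt : ℕ → ℝ → κ → ι → ℝ := fun n x a i => Φ xL a i + ∫ t in xL..x, g n a i t
  have cΦt : ∀ n a i, Continuous fun x => Φt n x a i := fun n a i =>
    continuous_const.add (intervalIntegral.continuous_primitive
      (fun p q => (cg n a i).intervalIntegrable p q) xL)
  have dΦt : ∀ n a i x, HasDerivAt (fun t => Φt n t a i) (g n a i x) x := by
    intro n a i x
    have h1 : HasDerivAt (fun u => ∫ t in xL..u, g n a i t) (g n a i x) x :=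
      ((cg n a i).integral_hasStrictDerivAt xL x).hasDerivAt
    exact h1.const_add _
  have herr : ∀ n a i, ∀ x ∈ Icc xL xR, (Φt n x a i - Φ x a i) ^ 2 ≤ (xR - xL) * δ n :=
    fun n a i x hx' => ap_err_bound (h a i) (mg n a i) (cg n a i) (hd n a i) hx'
  have hconv : ∀ a i, ∀ x ∈ Icc xL xR, Tendsto (fun n => Φt n x a i) atTop (𝓝 (Φ x a i)) := by
    intro a i x hx'
    have h1 : Tendsto (fun n => (xR - xL) * δ n) atTop (𝓝 0) := by
      simpa using hδlim.const_mul (xR - xL)
    have h2 : Tendsto (fun n => (Φt n x a i - Φ x a i) ^ 2) atTop (𝓝 0) :=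
      squeeze_zero (fun n => sq_nonneg _) (fun n => herr n a i x hx') h1
    have h3 : Tendsto (fun n => √((Φt n x a i - Φ x a i) ^ 2)) atTop (𝓝 0) := by
      have := (Real.continuous_sqrt.tendsto 0).comp h2
      rw [Real.sqrt_zero] at this
      exact this
    have h4 : Tendsto (fun n => |Φt n x a i - Φ x a i|) atTop (𝓝 0) := by
      simpa only [Real.sqrt_sq_eq_abs] using h3
    have h5 : Tendsto (fun n => Φt n x a i - Φ x a i) atTop (𝓝 0) :=
      (tendsto_zero_iff_abs_tendsto_zero _).2 h4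
    have h6 := h5.add_const (Φ x a i)
    simpa using h6
  have hconvA : ∀ x ∈ Icc xL xR, Tendsto (fun n => Φt n x) atTop (𝓝 (Φ x)) := by
    intro x hx'
    exact tendsto_pi_nhds.2 fun a => tendsto_pi_nhds.2 fun i => hconv a i x hx'
  -- the step inequality
  have hstep : ∀ᶠ n in atTop,
      ∫ x in xL..xR, F (Φt n x) ≤
        (∫ x in xL..xR, rh (fun a i => g n a i x)) + B (Φt n xL) + B (Φt n xR) +
          V (fun i j => ∫ x in xL..xR, qm (Φt n x) i j) := by
    refine hsmall.mono fun n hn => ?_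
    refine core (Φt n) (fun x a i => g n a i x) (dΦt n) (cg n) ?_
    exact fun e he => rows_gram cΦ (cΦt n) (fun a i => (h a i).memLp) hG hx hθ (herr n) hn e he
  -- upper bound for the kinetic part
  set Fk : ℝ := ∫ x in xL..xR, rh (Φ' x) with hF
  have hΦ'i : ∀ a i, IntervalIntegrable (fun x => Φ' x a i ^ 2) volume xL xR := fun a i =>
    (h a i).memLp_deriv.integrable_sq.intervalIntegrable
  have hkin : ∀ n, (∫ x in xL..xR, rh (fun a i => g n a i x)) ≤
      (1 + √(δ n)) * Fk + Nk * (Ni * (δ n + √(δ n))) := by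
    intro n
    have hs : 0 < √(δ n) := Real.sqrt_pos.2 (hδpos n)
    have hss : √(δ n) ^ 2 = δ n := Real.sq_sqrt (hδpos n).le
    have hone : ∀ a i, ∫ x in xL..xR, g n a i x ^ 2 ≤
        (1 + √(δ n)) * (∫ x in xL..xR, Φ' x a i ^ 2) + (δ n + √(δ n)) := by
      intro a i
      have h1 : ∀ x, g n a i x ^ 2 ≤ (1 + √(δ n)) * Φ' x a i ^ 2 +
          (1 + 1 / √(δ n)) * (g n a i x - Φ' x a i) ^ 2 := by
        intro x
        have h2 : (1 + √(δ n)) * Φ' x a i ^ 2 + (1 + 1 / √(δ n)) * (g n a i x - Φ' x a i) ^ 2 -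
            g n a i x ^ 2 = 1 / √(δ n) * (√(δ n) * Φ' x a i - (g n a i x - Φ' x a i)) ^ 2 := by
          field_simp
          ring
        have h3 : 0 ≤ 1 / √(δ n) * (√(δ n) * Φ' x a i - (g n a i x - Φ' x a i)) ^ 2 := by
          positivity
        linarith
      have i1 : IntervalIntegrable (fun x => (1 + √(δ n)) * Φ' x a i ^ 2) volume xL xR :=
        (hΦ'i a i).const_mul _
      have i2 : IntervalIntegrable (fun x => (1 + 1 / √(δ n)) * (g n a i x - Φ' x a i) ^ 2)
          volume xL xR := (hgi n a i).intervalIntegrable.const_mul _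
      have h4 : ∫ x in xL..xR, g n a i x ^ 2 ≤ ∫ x in xL..xR, ((1 + √(δ n)) * Φ' x a i ^ 2 +
          (1 + 1 / √(δ n)) * (g n a i x - Φ' x a i) ^ 2) :=
        intervalIntegral.integral_mono_on hLR (((cg n a i).fun_pow 2).intervalIntegrable _ _)
          (i1.add i2) fun x _ => h1 x
      rw [intervalIntegral.integral_add i1 i2, intervalIntegral.integral_const_mul,
        intervalIntegral.integral_const_mul] at h4
      have h5 : (1 + 1 / √(δ n)) * (∫ x in xL..xR, (g n a i x - Φ' x a i) ^ 2) ≤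
          δ n + √(δ n) := by
        have h6 : (1 + 1 / √(δ n)) * (∫ x in xL..xR, (g n a i x - Φ' x a i) ^ 2) ≤
            (1 + 1 / √(δ n)) * δ n :=
          mul_le_mul_of_nonneg_left (hd n a i) (by positivity)
        have h7 : (1 + 1 / √(δ n)) * δ n = δ n + √(δ n) := ap_aux hs hss
        linarith
      linarith
    have e1 : ∫ x in xL..xR, rh (fun a i => g n a i x) =
        ∑ a, ∑ i, ∫ x in xL..xR, g n a i x ^ 2 := by
      unfold rh
      rw [intervalIntegral.integral_finsetSum]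
      · refine Finset.sum_congr rfl fun a _ => ?_
        exact intervalIntegral.integral_finsetSum fun i _ =>
          ((cg n a i).fun_pow 2).intervalIntegrable _ _
      · intro a _
        exact (continuous_finsetSum _ fun i _ => (cg n a i).fun_pow 2).intervalIntegrable _ _
    have e2 : Fk = ∑ a, ∑ i, ∫ x in xL..xR, Φ' x a i ^ 2 := by
      rw [hF]
      unfold rh
      rw [intervalIntegral.integral_finsetSum]
      · refine Finset.sum_congr rfl fun a _ => ?_
        exact intervalIntegral.integral_finsetSum fun i _ => hΦ'i a i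
      · intro a _
        have : IntervalIntegrable (∑ i, fun x => Φ' x a i ^ 2) volume xL xR := by
          exact IntervalIntegrable.sum _ fun i _ => hΦ'i a i
        convert this using 1
        funext x
        simp [Finset.sum_apply]
    rw [e1, e2, Finset.mul_sum]
    have h8 : ∀ a, ∑ i, ∫ x in xL..xR, g n a i x ^ 2 ≤
        (1 + √(δ n)) * (∑ i, ∫ x in xL..xR, Φ' x a i ^ 2) + Ni * (δ n + √(δ n)) := by
      intro a
      have h9 := Finset.sum_le_sum (s := Finset.univ) fun i (_ : i ∈ Finset.univ) => hone a i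
      rw [Finset.sum_add_distrib, Finset.sum_const, Finset.card_univ, nsmul_eq_mul,
        ← Finset.mul_sum] at h9
      exact h9
    have h9 := Finset.sum_le_sum (s := Finset.univ) fun a (_ : a ∈ Finset.univ) => h8 a
    rw [Finset.sum_add_distrib, Finset.sum_const, Finset.card_univ, nsmul_eq_mul] at h9
    exact h9
  -- the limits
  have hFlim : Tendsto (fun n => (1 + √(δ n)) * Fk + Nk * (Ni * (δ n + √(δ n)))) atTop
      (𝓝 ((1 + 0) * Fk + Nk * (Ni * (0 + 0)))) :=
    ((tendsto_const_nhds.add hsqrtlim).mul tendsto_const_nhds).add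
      (tendsto_const_nhds.mul (tendsto_const_nhds.mul (hδlim.add hsqrtlim)))
  have hxLm : xL ∈ Icc xL xR := left_mem_Icc.2 hLR
  have hxRm : xR ∈ Icc xL xR := right_mem_Icc.2 hLR
  -- the uniform bound
  obtain ⟨C, hC⟩ : ∃ C, ∀ x ∈ Icc xL xR, rh (Φ x) ≤ C := by
    have c1 : Continuous fun x => rh (Φ x) := continuous_rh_comp cΦ
    obtain ⟨C, hC⟩ := (isCompact_Icc (a := xL) (b := xR)).bddAbove_image c1.continuousOn
    exact ⟨C, fun x hx' => hC ⟨x, hx', rfl⟩⟩
  have hC0 : 0 ≤ C := (rh_nonneg _).trans (hC xL hxLm)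
  have hKbound : ∀ n, ∀ x ∈ Icc xL xR,
      rh (Φt n x) ≤ 2 * C + 2 * (Nk * (Ni * (xR - xL))) := by
    intro n x hx'
    have h1 : ∀ a i, Φt n x a i ^ 2 ≤ 2 * Φ x a i ^ 2 + 2 * (xR - xL) := by
      intro a i
      have h2 := herr n a i x hx'
      have h3 : (xR - xL) * δ n ≤ (xR - xL) * 1 := mul_le_mul_of_nonneg_left (hδle n) hL.le
      nlinarith [sq_nonneg (Φt n x a i - 2 * Φ x a i)]
    have h3 : ∀ a, ∑ i, Φt n x a i ^ 2 ≤ 2 * ∑ i, Φ x a i ^ 2 + Ni * (2 * (xR - xL)) := by
      intro a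
      have h4 := Finset.sum_le_sum (s := Finset.univ) fun i (_ : i ∈ Finset.univ) => h1 a i
      rw [Finset.sum_add_distrib, ← Finset.mul_sum, Finset.sum_const, Finset.card_univ,
        nsmul_eq_mul] at h4
      exact h4
    have h4 := Finset.sum_le_sum (s := Finset.univ) fun a (_ : a ∈ Finset.univ) => h3 a
    rw [Finset.sum_add_distrib, ← Finset.mul_sum, Finset.sum_const, Finset.card_univ,
      nsmul_eq_mul] at h4
    have h5 := hC x hx'
    change rh (Φt n x) ≤ _ at h4
    have h6 : rh (Φ x) = ∑ a, ∑ i, Φ x a i ^ 2 := rfl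
    rw [← h6] at h4
    have h7 : Nk * (Ni * (2 * (xR - xL))) = 2 * (Nk * (Ni * (xR - xL))) := by ring
    linarith
  have hNL : 0 ≤ Nk * (Ni * (xR - xL)) := by positivity
  set K : ℝ := 2 * C + 2 * (Nk * (Ni * (xR - xL))) with hK
  have hK0 : 0 ≤ K := by positivity
  -- the compact box containing all the values
  let S : Set (κ → ι → ℝ) := Set.pi Set.univ fun _ => Set.pi Set.univ fun _ => Icc (-√K) √K
  have hS : IsCompact S :=
    isCompact_univ_pi fun _ => isCompact_univ_pi fun _ => isCompact_Icc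
  have hmem : ∀ n, ∀ x ∈ Icc xL xR, Φt n x ∈ S := by
    intro n x hx' a _ i _
    have h1 : Φt n x a i ^ 2 ≤ rh (Φt n x) := by
      unfold rh
      calc Φt n x a i ^ 2 ≤ ∑ l, Φt n x a l ^ 2 :=
            Finset.single_le_sum (f := fun l => Φt n x a l ^ 2) (fun _ _ => sq_nonneg _)
              (Finset.mem_univ i)
        _ ≤ ∑ b, ∑ l, Φt n x b l ^ 2 :=
            Finset.single_le_sum (f := fun b => ∑ l, Φt n x b l ^ 2)
              (fun _ _ => Finset.sum_nonneg fun _ _ => sq_nonneg _) (Finset.mem_univ a)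
    have h2 : Φt n x a i ^ 2 ≤ K := h1.trans (hKbound n x hx')
    exact Real.abs_le_sqrt h2 |> abs_le.1 |> fun h3 => ⟨h3.1, h3.2⟩
  -- the general limit
  have hgen : ∀ G0 : (κ → ι → ℝ) → ℝ, Continuous G0 →
      Tendsto (fun n => ∫ x in xL..xR, G0 (Φt n x)) atTop (𝓝 (∫ x in xL..xR, G0 (Φ x))) := by
    intro G0 cG0
    obtain ⟨M, hM⟩ := hS.exists_bound_of_continuousOn cG0.continuousOn
    refine intervalIntegral.tendsto_integral_filter_of_dominated_convergence
      (fun _ => M) ?_ ?_ intervalIntegrable_const ?_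
    · refine Eventually.of_forall fun n => Continuous.aestronglyMeasurable ?_
      exact cG0.comp (continuous_pi fun a => continuous_pi fun i => cΦt n a i)
    · refine Eventually.of_forall fun n => Eventually.of_forall fun x hx' => ?_
      rw [uIoc_of_le hLR] at hx'
      exact hM _ (hmem n x (Ioc_subset_Icc_self hx'))
    · refine Eventually.of_forall fun x hx' => ?_
      rw [uIoc_of_le hLR] at hx'
      exact (cG0.tendsto _).comp (hconvA x (Ioc_subset_Icc_self hx'))
  have hqm : ∀ i j, Continuous fun A : κ → ι → ℝ => qm A i j := by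
    intro i j
    unfold qm
    fun_prop
  have hVlim : Tendsto (fun n => V fun i j => ∫ x in xL..xR, qm (Φt n x) i j) atTop
      (𝓝 (V fun i j => ∫ x in xL..xR, qm (Φ x) i j)) := by
    refine hV.tendsto.comp ?_
    exact tendsto_pi_nhds.2 fun i => tendsto_pi_nhds.2 fun j => hgen _ (hqm i j)
  have hRlim : Tendsto (fun n => (1 + √(δ n)) * Fk + Nk * (Ni * (δ n + √(δ n))) + B (Φt n xL) +
      B (Φt n xR) + V fun i j => ∫ x in xL..xR, qm (Φt n x) i j) atTop
      (𝓝 (Fk + B (Φ xL) + B (Φ xR) + V fun i j => ∫ x in xL..xR, qm (Φ x) i j)) := by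
    have h1 := ((hFlim.add ((cB.tendsto _).comp (hconvA xL hxLm))).add
      ((cB.tendsto _).comp (hconvA xR hxRm))).add hVlim
    simpa using h1
  refine le_of_tendsto_of_tendsto (hgen F cF) hRlim ?_
  filter_upwards [hstep] with n hn
  refine hn.trans ?_
  have := hkin n
  linarith

end Vale.Agent.Lib.P371.SharpA
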