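import Vale.Agent.Lib.P371.SharpA.Core

open Set MeasureTheory Real Filter Topology

set_option linter.unusedSectionVars false

namespace Vale.Agent.Lib.P371.SharpA

open Vale.Agent.Lib.P371.Sharp Vale.Agent.Lib.P371.Sharp.Rows

variable {ι : Type*} [Fintype ι] [DecidableEq ι]

/-- The potential is continuous at a band array. -/
lemma continuousAt_Vpot (m : ℕ) (a : ℝ) {b η : ℝ} (hη : 0 < η) {X : ι → ι → ℝ}
    (hX : Band (Mof η b X) η) : ContinuousAt (Vpot m a b η) X := by
  have cM : Continuous (fun X : ι → ι → ℝ => Mof η b X) := by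
    refine continuous_pi fun i => continuous_pi fun j => ?_
    simp only [Mof]
    fun_prop
  have cA : Continuous (fun X : ι → ι → ℝ => Ash (Mof η b X)) := by
    refine continuous_pi fun i => continuous_pi fun j => ?_
    simp only [Ash]
    have h1 : Continuous fun X : ι → ι → ℝ => Mof η b X i j :=
      (continuous_apply j).comp ((continuous_apply i).comp cM)
    exact (h1.add continuous_const).div_const 2
  have cJ : ∀ t : ℝ, Continuous fun X : ι → ι → ℝ => Jop (Ash (Mof η b X)) t := by
    intro t
    have e : (fun X : ι → ι → ℝ => Jop (Ash (Mof η b X)) t) =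
        fun X => jordanCLM (Ash (Mof η b X)) + t • ContinuousLinearMap.id ℝ _ := by
      funext X
      rw [Jop_eq]
      rfl
    rw [e]
    exact (jordanCLM.continuous.comp cA).add continuous_const
  have hI : ∀ k : ℤ, ContinuousAt
      (fun X : ι → ι → ℝ => Ring.inverse (Jop (Ash (Mof η b X)) ((k : ℝ) * π))) X := by
    intro k
    obtain ⟨u, hu⟩ := isUnit_Jop (by positivity : 0 < η / 2) (band_Ash hη hX) k
    have h1 := NormedRing.inverse_continuousAt u
    rw [hu] at h1
    exact ContinuousAt.comp (f := fun X : ι → ι → ℝ => Jop (Ash (Mof η b X)) ((k : ℝ) * π))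
      h1 (cJ _).continuousAt
  have hR : ∀ k : ℤ, ContinuousAt
      (fun X : ι → ι → ℝ => dpr idm (Rsol (Ash (Mof η b X)) ((k : ℝ) * π))) X := by
    intro k
    have h1 : ContinuousAt (fun X : ι → ι → ℝ =>
        Ring.inverse (Jop (Ash (Mof η b X)) ((k : ℝ) * π)) idm) X :=
      (ContinuousLinearMap.apply ℝ (ι → ι → ℝ) (idm : ι → ι → ℝ)).continuous.continuousAt.comp (hI k)
    have c2 : Continuous (fun Y : ι → ι → ℝ => dpr idm Y) := by
      unfold dpr
      fun_prop
    exact c2.continuousAt.comp h1
  have hS : ContinuousAt (fun X : ι → ι → ℝ =>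
      ∑ k ∈ Finset.Icc (-(m : ℤ)) m, dpr idm (Rsol (Ash (Mof η b X)) ((k : ℝ) * π))) X := by
    simpa [ContinuousAt] using tendsto_finsetSum _ fun k _ => hR k
  have hT : Continuous (fun X : ι → ι → ℝ => ∑ i, Mof η b X i i) :=
    continuous_finsetSum _ fun i _ => (continuous_apply i).comp ((continuous_apply i).comp cM)
  unfold Vpot
  exact continuousAt_const.mul ((continuousAt_const.mul hS).sub hT.continuousAt)

/-- The potential at a diagonal array. -/
lemma Vpot_diag (m : ℕ) (a : ℝ) {b η : ℝ} (hη : 0 < η) (d : ι → ℝ)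
    (hd : Band (Mof η b (fun i j => if i = j then d i else 0)) η) :
    Vpot m a b η (fun i j => if i = j then d i else 0) =
      a ^ 2 / b * ∑ i, (-2 * phi m ((η + b * d i + π) / 2) - (η + b * d i)) := by
  have hpi := Real.pi_pos
  set p : ι → ℝ := fun i => (η + b * d i + π) / 2 with hp
  set D : ι → ι → ℝ := fun i j => if i = j then d i else 0 with hD
  have hdiag : ∀ i, Mof η b D i i = η + b * d i := by
    intro i
    simp [Mof, hD]
  have hbandv : ∀ i, η ≤ η + b * d i ∧ η + b * d i ≤ π - η := by
    intro i
    have hu : ∑ l, (Pi.single i (1 : ℝ) : ι → ℝ) l ^ 2 = 1 := by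
      rw [Finset.sum_eq_single i]
      · simp
      · intro l _ hl
        simp [Pi.single_apply, hl]
      · simp
    have hq : ∑ x, ∑ y, (Pi.single i (1 : ℝ) : ι → ℝ) x * Mof η b D x y *
        (Pi.single i (1 : ℝ) : ι → ℝ) y = η + b * d i := by
      rw [Finset.sum_eq_single i, Finset.sum_eq_single i]
      · simp [hdiag]
      · intro l _ hl
        simp [Pi.single_apply, hl]
      · simp
      · intro l _ hl
        simp [Pi.single_apply, hl]
      · simp
    have h1 := hd.lower _ hu
    have h2 := hd.upper _ hu
    rw [hq] at h1 h2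
    exact ⟨h1, h2⟩
  have hp0 : ∀ i, 0 < p i := fun i => by
    have := (hbandv i).1
    simp only [hp]
    linarith
  have hp1 : ∀ i, p i < π := fun i => by
    have := (hbandv i).2
    simp only [hp]
    linarith
  have hAsh : ∀ i j, Ash (Mof η b D) i j = if i = j then p i else 0 := by
    intro i j
    by_cases h : i = j
    · subst h
      simp [Ash, hdiag, hp]
    · simp [Ash, Mof, hD, h]
  have hR : ∀ k : ℤ, Rsol (Ash (Mof η b D)) ((k : ℝ) * π) =
      fun i j => if i = j then 1 / (p i + (k : ℝ) * π) else 0 := by
    intro k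
    set Y : ι → ι → ℝ := fun i j => if i = j then 1 / (p i + (k : ℝ) * π) else 0 with hY
    have hu := isUnit_Jop (by positivity : 0 < η / 2) (band_Ash hη hd) k
    have hJ : Jop (Ash (Mof η b D)) ((k : ℝ) * π) Y = idm := by
      funext i j
      rw [Jop_apply]
      have e1 : ∑ c, (Ash (Mof η b D) i c * Y c j + Y i c * Ash (Mof η b D) c j) =
          p i * Y i j + Y i j * p j := by
        rw [Finset.sum_add_distrib]
        congr 1
        · rw [Finset.sum_eq_single i]
          · rw [hAsh]
            simp
          · intro c _ hc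
            rw [hAsh]
            simp [Ne.symm hc]
          · simp
        · rw [Finset.sum_eq_single j]
          · rw [hAsh]
            simp
          · intro c _ hc
            rw [hAsh]
            simp [hc]
          · simp
      rw [e1]
      by_cases h : i = j
      · subst h
        have hne := Rows.shift_ne (hp0 i) (hp1 i) k
        simp only [hY, idm, if_true]
        field_simp
        ring
      · simp [hY, idm, h]
    have h2 := Jop_inv_left2 hu Y
    rw [hJ] at h2
    exact h2
  unfold Vpot
  have e1 : ∑ k ∈ Finset.Icc (-(m : ℤ)) m, dpr idm (Rsol (Ash (Mof η b D)) ((k : ℝ) * π)) =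
      ∑ i, phi m (p i) := by
    simp only [hR]
    have e2 : ∀ k : ℤ, dpr (idm : ι → ι → ℝ) (fun i j => if i = j then 1 / (p i + (k : ℝ) * π) else 0) =
        ∑ i, 1 / (p i + (k : ℝ) * π) := by
      intro k
      unfold dpr
      refine Finset.sum_congr rfl fun i _ => ?_
      rw [Finset.sum_eq_single i]
      · simp [idm]
      · intro j _ hj
        simp [idm, Ne.symm hj]
      · simp
    simp only [e2, phi]
    exact Finset.sum_comm
  rw [e1]
  simp only [hdiag]
  rw [Finset.sum_sub_distrib, Finset.mul_sum]

end Vale.Agent.Lib.P371.SharpA
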