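import Vale.Agent.Lib.P371.SharpA.Core
import Vale.Agent.Lib.P371.SharpA.Interval
import Vale.Agent.Lib.P371.SharpA.Vpot
import Vale.Agent.Lib.P371.Sharp.RowsAlg0

/-!
The inequality on the line for the calibration family.
-/

open Set MeasureTheory Real Filter Topology
open Vale.Agent.Lib.P371.Cal (RH1)

set_option linter.unusedSectionVars false

namespace Vale.Agent.Lib.P371.SharpA

open Vale.Agent.Lib.P371.Sharp Vale.Agent.Lib.P371.Sharp.Rows

variable {κ ι : Type*} [Fintype κ] [Fintype ι] [DecidableEq ι]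

/-- `(tr Q)³ ≤ |κ|² tr Q³`. -/
lemma rh_cube_le (A : κ → ι → ℝ) : rh A ^ 3 ≤ (Fintype.card κ : ℝ) ^ 2 * tr3 A := by
  classical
  have hcube : ∑ a, (∑ i, A a i ^ 2) ^ 3 ≤ tr3 A := by
    have h := sum_cube_le_trQ3 (β := κ) A (fun l a => if l = a then 1 else 0)
      (fun a b => by
        simp [Finset.sum_ite_eq']
        exact if_congr eq_comm rfl rfl)
      (fun l => by simp [ite_pow, Finset.sum_ite_eq])
    have e : ∀ l : κ, ∑ i, (∑ a, (if l = a then (1 : ℝ) else 0) * A a i) ^ 2 = ∑ i, A l i ^ 2 := by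
      intro l
      apply Finset.sum_congr rfl
      intro i _
      simp [ite_mul, Finset.sum_ite_eq]
    simp only [e] at h
    exact h
  have hpm := pow_sum_div_card_le_sum_pow (s := (Finset.univ : Finset κ))
    (f := fun a => ∑ i, A a i ^ 2)
    (fun a _ => Finset.sum_nonneg fun i _ => sq_nonneg _) 2
  have hr : rh A = ∑ a, ∑ i, A a i ^ 2 := rfl
  rw [hr]
  by_cases hc : (Fintype.card κ : ℝ) = 0
  · have : IsEmpty κ := by
      rw [← Fintype.card_eq_zero_iff]
      exact_mod_cast hc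
    simp
  · have hcpos : (0 : ℝ) < (Fintype.card κ : ℝ) := lt_of_le_of_ne (Nat.cast_nonneg _) (Ne.symm hc)
    have h3 : (∑ a, ∑ i, A a i ^ 2) ^ 3 / (Fintype.card κ : ℝ) ^ 2 ≤ tr3 A := by
      refine le_trans ?_ hcube
      simpa [Finset.card_univ] using hpm
    rw [div_le_iff₀ (by positivity)] at h3
    linarith

/-- `tr Q² ≤ (tr Q)²`. -/
lemma tr2_le (A : κ → ι → ℝ) : tr2 A ≤ rh A ^ 2 := by
  have hr : rh A = ∑ i, ∑ a, A a i ^ 2 := by
    unfold rh
    exact Finset.sum_comm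
  have h1 : ∀ i j, qm A i j ^ 2 ≤ (∑ a, A a i ^ 2) * ∑ a, A a j ^ 2 := fun i j =>
    Finset.sum_mul_sq_le_sq_mul_sq _ _ _
  unfold tr2
  calc ∑ i, ∑ j, qm A i j ^ 2 ≤ ∑ i, ∑ j, (∑ a, A a i ^ 2) * ∑ a, A a j ^ 2 :=
        Finset.sum_le_sum fun i _ => Finset.sum_le_sum fun j _ => h1 i j
    _ = rh A ^ 2 := by
        rw [hr, sq, Finset.sum_mul_sum]

lemma continuous_tr2 : Continuous (tr2 : (κ → ι → ℝ) → ℝ) := by
  unfold tr2 qm
  fun_prop

/-- Integrability of all the densities on the line. -/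
lemma integrable_densities (Φ Φ' : ℝ → κ → ι → ℝ)
    (h : ∀ a i, RH1 (fun x => Φ x a i) (fun x => Φ' x a i))
    (hG : ∀ e : ι → ℝ, ∑ i, e i ^ 2 = 1 → ∑ a, ∫ x, (∑ i, e i * Φ x a i) ^ 2 ≤ 1) :
    Integrable (fun x => rh (Φ x)) ∧ Integrable (fun x => rh (Φ x) ^ 3) ∧
      Integrable (fun x => tr3 (Φ x)) ∧ Integrable (fun x => tr2 (Φ x)) := by
  have cΦ : ∀ a i, Continuous fun x => Φ x a i := fun a i => ap_rh1_continuous (h a i)
  have cΦ' : Continuous Φ := continuous_pi fun a => continuous_pi fun i => cΦ a i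
  have iρ : Integrable (fun x => rh (Φ x)) :=
    integrable_finsetSum _ fun a _ => integrable_finsetSum _ fun i _ =>
      (h a i).memLp.integrable_sq
  have i3 : Integrable (fun x => tr3 (Φ x)) := (rows_dual_line rows_core Φ Φ' h hG).1
  have cρ : Continuous fun x => rh (Φ x) := by
    unfold rh
    exact continuous_finsetSum _ fun a _ => continuous_finsetSum _ fun i _ => (cΦ a i).pow 2
  have iρ3 : Integrable (fun x => rh (Φ x) ^ 3) := by
    refine (i3.const_mul ((Fintype.card κ : ℝ) ^ 2)).mono'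
      (cρ.pow 3).aestronglyMeasurable (Eventually.of_forall fun x => ?_)
    rw [Real.norm_of_nonneg (pow_nonneg (rh_nonneg _) 3)]
    exact rh_cube_le _
  refine ⟨iρ, iρ3, i3, ?_⟩
  have ct2 : Continuous fun x => tr2 (Φ x) := continuous_tr2.comp cΦ'
  refine (iρ.add iρ3).mono' ct2.aestronglyMeasurable (Eventually.of_forall fun x => ?_)
  have h0 : 0 ≤ tr2 (Φ x) := by
    unfold tr2
    exact Finset.sum_nonneg fun i _ => Finset.sum_nonneg fun j _ => sq_nonneg _
  rw [Real.norm_of_nonneg h0]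
  have h1 := tr2_le (Φ x)
  have h2 := rh_nonneg (Φ x)
  simp only [Pi.add_apply]
  nlinarith [mul_nonneg h2 (sq_nonneg (rh (Φ x) - 1))]

/-- The Gram hypothesis in the form of the quadratic bound. -/
lemma quad_le_of_gram (Φ Φ' : ℝ → κ → ι → ℝ)
    (h : ∀ a i, RH1 (fun x => Φ x a i) (fun x => Φ' x a i))
    {d : ι → ℝ} (hd1 : ∀ i, d i ≤ 1)
    (hGram : ∀ i j, ∑ a, ∫ x, Φ x a i * Φ x a j = if i = j then d i else 0)
    (e : ι → ℝ) (he : ∑ i, e i ^ 2 = 1) : ∑ a, ∫ x, (∑ i, e i * Φ x a i) ^ 2 ≤ 1 := by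
  have ip : ∀ a i j, Integrable fun x => Φ x a i * Φ x a j := fun a i j =>
    (h a i).memLp.integrable_mul (h a j).memLp
  have e1 : ∀ a, ∫ x, (∑ i, e i * Φ x a i) ^ 2 =
      ∑ i, ∑ j, e i * e j * ∫ x, Φ x a i * Φ x a j := by
    intro a
    have e2 : ∀ x, (∑ i, e i * Φ x a i) ^ 2 = ∑ i, ∑ j, e i * e j * (Φ x a i * Φ x a j) := by
      intro x
      rw [sq, Finset.sum_mul_sum]
      refine Finset.sum_congr rfl fun i _ => Finset.sum_congr rfl fun j _ => ?_
      ring
    simp_rw [e2]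
    rw [integral_finsetSum _ fun i _ => integrable_finsetSum _ fun j _ => (ip a i j).const_mul _]
    refine Finset.sum_congr rfl fun i _ => ?_
    rw [integral_finsetSum _ fun j _ => (ip a i j).const_mul _]
    refine Finset.sum_congr rfl fun j _ => ?_
    rw [integral_const_mul]
  simp_rw [e1]
  have e3 : ∑ a, ∑ i, ∑ j, e i * e j * ∫ x, Φ x a i * Φ x a j =
      ∑ i, e i ^ 2 * d i := by
    rw [Finset.sum_comm]
    refine Finset.sum_congr rfl fun i _ => ?_
    rw [Finset.sum_comm]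
    have e4 : ∀ j, ∑ a, e i * e j * ∫ x, Φ x a i * Φ x a j =
        e i * e j * (if i = j then d i else 0) := by
      intro j
      rw [← Finset.mul_sum, hGram]
    simp_rw [e4]
    simp [Finset.sum_ite_eq, sq]
  rw [e3, ← he]
  refine Finset.sum_le_sum fun i _ => ?_
  have := mul_le_mul_of_nonneg_left (hd1 i) (sq_nonneg (e i))
  linarith

/-- The band hypothesis for `η I + b X`. -/
lemma band_Mof {η b : ℝ} {X : ι → ι → ℝ} (hb : 0 < b) (hs : ∀ i j, X i j = X j i)
    (h0 : ∀ e : ι → ℝ, ∑ i, e i ^ 2 = 1 → 0 ≤ ∑ i, ∑ j, e i * X i j * e j)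
    (h1 : ∀ e : ι → ℝ, ∑ i, e i ^ 2 = 1 → ∑ i, ∑ j, e i * X i j * e j ≤ 1)
    (hbη : b + 2 * η < π) : Band (Mof η b X) η := by
  have key : ∀ e : ι → ℝ, ∑ i, e i ^ 2 = 1 →
      ∑ i, ∑ j, e i * Mof η b X i j * e j = η + b * ∑ i, ∑ j, e i * X i j * e j := by
    intro e he
    have e1 : ∀ i, ∑ j, e i * Mof η b X i j * e j =
        η * e i ^ 2 + b * ∑ j, e i * X i j * e j := by
      intro i
      have e2 : ∀ j, e i * Mof η b X i j * e j =
          (if i = j then η * e i ^ 2 else 0) + b * (e i * X i j * e j) := by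
        intro j
        unfold Mof
        by_cases hij : i = j
        · subst hij
          simp only [if_true]
          ring
        · simp only [hij, if_false]
          ring
      simp_rw [e2]
      rw [Finset.sum_add_distrib, Finset.mul_sum]
      simp
    simp_rw [e1]
    rw [Finset.sum_add_distrib, ← Finset.mul_sum, ← Finset.mul_sum, he, mul_one]
  refine ⟨fun i j => ?_, fun e he => ?_, fun e he => ?_⟩
  · unfold Mof
    rw [hs i j]
    by_cases hij : i = j
    · subst hij; rfl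
    · rw [if_neg hij, if_neg (Ne.symm hij)]
  · rw [key e he]
    have := mul_nonneg hb.le (h0 e he)
    linarith
  · rw [key e he]
    have := mul_le_mul_of_nonneg_left (h1 e he) hb.le
    linarith

/-- The band hypothesis at a diagonal array. -/
lemma band_diag {η b : ℝ} {d : ι → ℝ} (hb : 0 < b) (hd0 : ∀ i, 0 ≤ d i) (hd1 : ∀ i, d i ≤ 1)
    (hbη : b + 2 * η < π) : Band (Mof η b (fun i j => if i = j then d i else 0)) η := by
  have e1 : ∀ (e : ι → ℝ), ∑ i, ∑ j, e i * (if i = j then d i else 0) * e j = ∑ i, e i ^ 2 * d i := by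
    intro e
    refine Finset.sum_congr rfl fun i _ => ?_
    have : ∀ j, e i * (if i = j then d i else 0) * e j = if i = j then e i ^ 2 * d i else 0 := by
      intro j
      by_cases hij : i = j
      · subst hij
        simp only [if_true]
        ring
      · simp [hij]
    simp_rw [this]
    simp
  refine band_Mof hb (fun i j => ?_) (fun e _ => ?_) (fun e he => ?_) hbη
  · by_cases hij : i = j
    · subst hij; rfl
    · rw [if_neg hij, if_neg (Ne.symm hij)]
  · rw [e1]
    exact Finset.sum_nonneg fun i _ => mul_nonneg (sq_nonneg _) (hd0 i)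
  · rw [e1, ← he]
    refine Finset.sum_le_sum fun i _ => ?_
    have := mul_le_mul_of_nonneg_left (hd1 i) (sq_nonneg (e i))
    linarith

/-- The band hypothesis at the Gram array of an interval. -/
lemma band_gram_interval (Φ Φ' : ℝ → κ → ι → ℝ)
    (h : ∀ a i, RH1 (fun x => Φ x a i) (fun x => Φ' x a i))
    (hG : ∀ e : ι → ℝ, ∑ i, e i ^ 2 = 1 → ∑ a, ∫ x, (∑ i, e i * Φ x a i) ^ 2 ≤ 1)
    {xL xR : ℝ} (hx : xL < xR) {η b : ℝ} (hb : 0 < b) (hbη : b + 2 * η < π) :
    Band (Mof η b (fun i j => ∫ x in xL..xR, qm (Φ x) i j)) η := by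
  have cΦ : ∀ a i, Continuous fun x => Φ x a i := fun a i => ap_rh1_continuous (h a i)
  have cq : ∀ i j, Continuous fun x => qm (Φ x) i j := fun i j =>
    continuous_finsetSum _ fun a _ => (cΦ a i).mul (cΦ a j)
  have key : ∀ e : ι → ℝ, ∑ i, ∑ j, e i * (∫ x in xL..xR, qm (Φ x) i j) * e j =
      ∑ a, ∫ x in xL..xR, (∑ i, e i * Φ x a i) ^ 2 := by
    intro e
    have e1 : ∀ a x, (∑ i, e i * Φ x a i) ^ 2 = ∑ i, ∑ j, e i * (Φ x a i * Φ x a j) * e j := by
      intro a x
      rw [sq, Finset.sum_mul_sum]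
      refine Finset.sum_congr rfl fun i _ => Finset.sum_congr rfl fun j _ => ?_
      ring
    have e2 : ∀ i j, e i * (∫ x in xL..xR, qm (Φ x) i j) * e j =
        ∑ a, ∫ x in xL..xR, e i * (Φ x a i * Φ x a j) * e j := by
      intro i j
      have e5 : ∫ x in xL..xR, qm (Φ x) i j = ∑ a, ∫ x in xL..xR, Φ x a i * Φ x a j := by
        simp only [qm]
        exact intervalIntegral.integral_finsetSum fun a _ =>
          ((cΦ a i).mul (cΦ a j)).intervalIntegrable _ _
      rw [e5, Finset.mul_sum, Finset.sum_mul]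
      refine Finset.sum_congr rfl fun a _ => ?_
      rw [intervalIntegral.integral_mul_const, intervalIntegral.integral_const_mul]
    simp_rw [e2, e1]
    rw [Finset.sum_congr rfl fun i _ => Finset.sum_comm]
    rw [Finset.sum_comm]
    refine Finset.sum_congr rfl fun a _ => ?_
    have c1 : ∀ i j, Continuous fun x => e i * (Φ x a i * Φ x a j) * e j :=
      fun i j => (continuous_const.mul ((cΦ a i).mul (cΦ a j))).mul continuous_const
    have c2 : ∀ i, IntervalIntegrable (fun x => ∑ j, e i * (Φ x a i * Φ x a j) * e j) volume xL xR :=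
      fun i => (continuous_finsetSum _ fun j _ => c1 i j).intervalIntegrable _ _
    rw [intervalIntegral.integral_finsetSum fun i _ => c2 i]
    refine Finset.sum_congr rfl fun i _ => ?_
    rw [intervalIntegral.integral_finsetSum fun j _ => (c1 i j).intervalIntegrable _ _]
  refine band_Mof hb (fun i j => ?_) (fun e _ => ?_) (fun e he => ?_) hbη
  · refine intervalIntegral.integral_congr fun x _ => ?_
    simp only [qm]
    exact Finset.sum_congr rfl fun a _ => mul_comm _ _
  · rw [key]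
    exact Finset.sum_nonneg fun a _ =>
      intervalIntegral.integral_nonneg hx.le fun x _ => sq_nonneg _
  · rw [key]
    refine le_trans (Finset.sum_le_sum fun a _ => ?_) (hG e he)
    rw [intervalIntegral.integral_of_le hx.le]
    refine setIntegral_le_integral ?_ (Eventually.of_forall fun x => sq_nonneg _)
    have ip : ∀ i j, Integrable fun x => e i * e j * (Φ x a i * Φ x a j) := fun i j =>
      ((h a i).memLp.integrable_mul (h a j).memLp).const_mul _
    have e3 : (fun x => (∑ i, e i * Φ x a i) ^ 2) =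
        fun x => ∑ i, ∑ j, e i * e j * (Φ x a i * Φ x a j) := by
      funext x
      rw [sq, Finset.sum_mul_sum]
      refine Finset.sum_congr rfl fun i _ => Finset.sum_congr rfl fun j _ => ?_
      ring
    rw [e3]
    exact integrable_finsetSum _ fun i _ => integrable_finsetSum _ fun j _ => ip i j

lemma continuous_Fa (a b ε : ℝ) : Continuous (Fa a b ε : (κ → ι → ℝ) → ℝ) := by
  unfold Fa
  have c1 : Continuous (tr3 : (κ → ι → ℝ) → ℝ) := continuous_tr3
  have c2 : Continuous (rh : (κ → ι → ℝ) → ℝ) := continuous_rh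
  have c3 : Continuous (tr2 : (κ → ι → ℝ) → ℝ) := continuous_tr2
  fun_prop

lemma continuous_Ba (a b η ε : ℝ) : Continuous (Ba a b η ε : (κ → ι → ℝ) → ℝ) := by
  unfold Ba
  have c2 : Continuous (rh : (κ → ι → ℝ) → ℝ) := continuous_rh
  fun_prop

/-- The inequality on the line at fixed parameters. -/
theorem line_fixed {a η ε b θ : ℝ} {m : ℕ} (ha : 0 ≤ a) (hη : 0 < η) (hε : 0 < ε) (hb : 0 < b)
    (hθ : 0 < θ) (hbη : b * (1 + θ) + 2 * η < π)
    (hm : ∀ {Ψ Ψ' : ℝ → κ → ι → ℝ},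
      (∀ a i x, HasDerivAt (fun t => Ψ t a i) (Ψ' x a i) x) →
      (∀ a i, Continuous fun x => Ψ' x a i) →
      ∀ {xL xR : ℝ}, xL < xR → ∀ {G b : ℝ},
      (∀ e : ι → ℝ, ∑ i, e i ^ 2 = 1 → ∑ a, ∫ x in xL..xR, (∑ i, e i * Ψ x a i) ^ 2 ≤ G) →
      0 < b → b * G + 2 * η < π →
      ∫ x in xL..xR, Fa a b ε (Ψ x) ≤
        (∫ x in xL..xR, rh (Ψ' x)) + Ba a b η ε (Ψ xL) + Ba a b η ε (Ψ xR) +
          (Vpot m a b η (fun i j => ∫ x in xL..xR, qq (Ψ x) i j) - Vpot m a b η (0 : ι → ι → ℝ)))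
    (Φ Φ' : ℝ → κ → ι → ℝ) (h : ∀ a i, RH1 (fun x => Φ x a i) (fun x => Φ' x a i))
    {d : ι → ℝ} (hd0 : ∀ i, 0 ≤ d i) (hd1 : ∀ i, d i ≤ 1)
    (hGram : ∀ i j, ∑ a, ∫ x, Φ x a i * Φ x a j = if i = j then d i else 0) :
    ∫ x, Fa a b ε (Φ x) ≤ (∫ x, rh (Φ' x)) +
      a ^ 2 / b * (∑ i, (-2 * phi m ((η + b * d i + π) / 2) - (η + b * d i)) -
        ∑ _i : ι, (-2 * phi m ((η + π) / 2) - η)) := by
  have hG := quad_le_of_gram Φ Φ' h hd1 hGram
  have hb2 : b + 2 * η < π := by nlinarith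
  obtain ⟨iρ, iρ3, it3, it2⟩ := integrable_densities Φ Φ' h hG
  have iκ : Integrable fun x => rh (Φ' x) :=
    integrable_finsetSum _ fun a _ => integrable_finsetSum _ fun i _ =>
      (h a i).memLp_deriv.integrable_sq
  have iF : Integrable fun x => Fa a b ε (Φ x) := by
    have i1 : Integrable fun x => tr3 (Φ x) - ε * ((Fintype.card ι : ℝ) ^ 3 * rh (Φ x) ^ 3) :=
      it3.sub ((iρ3.const_mul _).const_mul _)
    have i2 : Integrable fun x => b ^ 2 / 4 *
        (tr3 (Φ x) - ε * ((Fintype.card ι : ℝ) ^ 3 * rh (Φ x) ^ 3)) := i1.const_mul _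
    have i3 : Integrable fun x => a * b * (1 - ε) * tr2 (Φ x) := it2.const_mul _
    have i4 : Integrable fun x => a ^ 2 * ε * rh (Φ x) := iρ.const_mul _
    exact (i2.add i3).sub i4
  -- the interval inequality
  have main : ∀ {xL xR : ℝ}, xL < xR →
      ∫ x in xL..xR, Fa a b ε (Φ x) ≤ (∫ x in xL..xR, rh (Φ' x)) +
        Ba a b η ε (Φ xL) + Ba a b η ε (Φ xR) +
        (Vpot m a b η (fun i j => ∫ x in xL..xR, qm (Φ x) i j) - Vpot m a b η (0 : ι → ι → ℝ)) := by
    intro xL xR hx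
    refine dual_interval_generic (Fa a b ε) (Ba a b η ε) (continuous_Fa a b ε)
      (continuous_Ba a b η ε) (fun X : ι → ι → ℝ => Vpot m a b η X - Vpot m a b η (0 : ι → ι → ℝ)) hx hθ
      (fun Ψ Ψ' hΨ cΨ hg => hm hΨ cΨ hx hg hb hbη) Φ Φ' h hG ?_
    exact (continuousAt_Vpot m a hη (band_gram_interval Φ Φ' h hG hx hb hb2)).sub
      continuousAt_const
  -- the sequences
  have hseqR : ∀ n : ℕ, ∃ x, (n : ℝ) + 1 ≤ x ∧ rh (Φ x) ≤ 1 / ((n : ℝ) + 1) := fun n =>
    exists_small_right iρ _ (by positivity)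
  have hseqL : ∀ n : ℕ, ∃ x, x ≤ -((n : ℝ) + 1) ∧ rh (Φ x) ≤ 1 / ((n : ℝ) + 1) := fun n =>
    exists_small_left iρ _ (by positivity)
  choose R hR1 hR2 using hseqR
  choose L hL1 hL2 using hseqL
  have tR : Tendsto R atTop atTop := by
    refine tendsto_atTop_mono (fun n => ?_) (tendsto_natCast_atTop_atTop (R := ℝ))
    linarith [hR1 n]
  have tL : Tendsto L atTop atBot := by
    have : Tendsto (fun n : ℕ => -(n : ℝ)) atTop atBot :=
      tendsto_neg_atTop_atBot.comp (tendsto_natCast_atTop_atTop (R := ℝ))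
    refine tendsto_atBot_mono (fun n => ?_) this
    linarith [hL1 n]
  have hLR : ∀ n, L n < R n := fun n => by
    have h0 : (0 : ℝ) ≤ n := Nat.cast_nonneg n
    linarith [hL1 n, hR1 n]
  -- limits of the boundary values
  have tρ : ∀ {S : ℕ → ℝ}, (∀ n, rh (Φ (S n)) ≤ 1 / ((n : ℝ) + 1)) →
      Tendsto (fun n => rh (Φ (S n))) atTop (𝓝 0) := by
    intro S hS
    exact squeeze_zero (fun n => rh_nonneg _) hS tendsto_one_div_add_atTop_nhds_zero_nat
  have tB : ∀ {S : ℕ → ℝ}, (∀ n, rh (Φ (S n)) ≤ 1 / ((n : ℝ) + 1)) →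
      Tendsto (fun n => Ba a b η ε (Φ (S n))) atTop (𝓝 0) := by
    intro S hS
    have t0 := tρ hS
    have t1 : Tendsto (fun n => b / 4 * (1 / η + ε) * rh (Φ (S n)) ^ 2 +
        a * (2 / η + ε) * rh (Φ (S n))) atTop
        (𝓝 (b / 4 * (1 / η + ε) * 0 ^ 2 + a * (2 / η + ε) * 0)) :=
      ((t0.pow 2).const_mul _).add (t0.const_mul _)
    simpa [Ba] using t1
  -- limit of the Gram arrays
  have iq : ∀ i j, Integrable fun x => qm (Φ x) i j := fun i j =>
    integrable_finsetSum _ fun a _ => (h a i).memLp.integrable_mul (h a j).memLp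
  have tX : Tendsto (fun n => (fun i j => ∫ x in L n..R n, qm (Φ x) i j : ι → ι → ℝ)) atTop
      (𝓝 (fun i j => if i = j then d i else 0)) := by
    refine tendsto_pi_nhds.2 fun i => tendsto_pi_nhds.2 fun j => ?_
    have e1 : ∫ x, qm (Φ x) i j = if i = j then d i else 0 := by
      rw [← hGram i j]
      simp only [qm]
      exact integral_finsetSum _ fun a _ => (h a i).memLp.integrable_mul (h a j).memLp
    rw [← e1]
    exact intervalIntegral_tendsto_integral (iq i j) tL tR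
  have hbandd : Band (Mof η b (fun i j => if i = j then d i else 0)) η :=
    band_diag hb hd0 hd1 hb2
  have tV := ((continuousAt_Vpot m a hη hbandd).tendsto.comp tX).sub_const (Vpot m a b η (0 : ι → ι → ℝ))
  have tl := intervalIntegral_tendsto_integral iF tL tR
  have tr := (((intervalIntegral_tendsto_integral iκ tL tR).add (tB hL2)).add (tB hR2)).add tV
  have hfin := le_of_tendsto_of_tendsto' tl tr fun n => main (hLR n)
  have e0 : (0 : ι → ι → ℝ) = fun i j => if i = j then (fun _ : ι => (0 : ℝ)) i else 0 := by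
    funext i j
    simp
  have hband0 : Band (Mof η b (fun i j => if i = j then (fun _ : ι => (0 : ℝ)) i else 0)) η :=
    band_diag hb (fun _ => le_rfl) (fun _ => zero_le_one) hb2
  have hV0 := Vpot_diag m a hη (fun _ : ι => (0 : ℝ)) hband0
  rw [← e0] at hV0
  rw [Vpot_diag m a hη d hbandd, hV0] at hfin
  simp only [mul_zero, add_zero] at hfin
  rw [mul_sub]
  linarith

/-- The cotangent sums along a convergent sequence inside `(0, π)`. -/
lemma tendsto_phi_comp {m : ℕ → ℕ} {u : ℕ → ℝ} {v : ℝ} (hm : ∀ n, n + 1 ≤ m n)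
    (hu0 : ∀ n, 0 < u n) (hu1 : ∀ n, u n < π) (hv0 : 0 < v) (hv1 : v < π)
    (hu : Tendsto u atTop (𝓝 v)) :
    Tendsto (fun n => phi (m n) (u n)) atTop (𝓝 (Real.cot v)) := by
  have hs : Real.sin v ≠ 0 := (Real.sin_pos_of_pos_of_lt_pi hv0 hv1).ne'
  have hcot : Tendsto (fun n => Real.cot (u n)) atTop (𝓝 (Real.cot v)) := by
    simp only [Real.cot_eq_cos_div_sin]
    exact (Real.continuous_cos.tendsto v |>.comp hu).div
      (Real.continuous_sin.tendsto v |>.comp hu) hs
  have hd : Tendsto (fun n => Real.cot (u n) - phi (m n) (u n)) atTop (𝓝 0) := by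
    refine squeeze_zero_norm (a := fun n : ℕ => 1 / ((n : ℝ) + 1)) (fun n => ?_)
      tendsto_one_div_add_atTop_nhds_zero_nat
    rw [phi_eq_cm, Real.norm_eq_abs]
    have h1 : 1 ≤ m n := by have := hm n; omega
    refine (abs_cot_sub_cm_le (hu0 n) (hu1 n) h1).trans ?_
    apply one_div_le_one_div_of_le (by positivity)
    exact_mod_cast hm n
  have := hcot.sub hd
  simpa using this

/-- **The inequality on the line for the calibration family.** -/
theorem rowsA_line (Φ Φ' : ℝ → κ → ι → ℝ)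
    (h : ∀ a i, RH1 (fun x => Φ x a i) (fun x => Φ' x a i))
    {d : ι → ℝ} (hd0 : ∀ i, 0 ≤ d i) (hd1 : ∀ i, d i < 1)
    (hGram : ∀ i j, ∑ a, ∫ x, Φ x a i * Φ x a j = if i = j then d i else 0)
    {a : ℝ} (ha : 0 ≤ a) :
    Integrable (fun x => tr3 (Φ x)) ∧ Integrable (fun x => tr2 (Φ x)) ∧
      π ^ 2 / 4 * (∫ x, tr3 (Φ x)) + a * π * ∫ x, tr2 (Φ x) ≤
        (∫ x, rh (Φ' x)) + 1 / π * ∑ i, (a ^ 2 * (2 * Real.tan (π * d i / 2) - π * d i)) := by
  have hπ := Real.pi_pos
  have hG := quad_le_of_gram Φ Φ' h (fun i => (hd1 i).le) hGram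
  obtain ⟨iρ, iρ3, it3, it2⟩ := integrable_densities Φ Φ' h hG
  refine ⟨it3, it2, ?_⟩
  -- the parameters
  let gap : ℕ → ℝ := fun n => π / ((n : ℝ) + 2)
  let b : ℕ → ℝ := fun n => π - gap n
  let θ : ℕ → ℝ := fun n => gap n / (4 * b n)
  let η : ℕ → ℝ := fun n => gap n / 8
  let ε : ℕ → ℝ := fun n => 1 / ((n : ℝ) + 1)
  have hgap0 : ∀ n, 0 < gap n := fun n => by
    simp only [gap]
    positivity
  have hgap1 : ∀ n, gap n ≤ π / 2 := fun n => by
    simp only [gap]
    apply div_le_div_of_nonneg_left hπ.le (by norm_num)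
    have : (0 : ℝ) ≤ n := Nat.cast_nonneg n
    linarith
  have hb0 : ∀ n, 0 < b n := fun n => by
    simp only [b]
    linarith [hgap1 n]
  have hη0 : ∀ n, 0 < η n := fun n => div_pos (hgap0 n) (by norm_num)
  have hθ0 : ∀ n, 0 < θ n := fun n => div_pos (hgap0 n) (by linarith [hb0 n])
  have hε0 : ∀ n, 0 < ε n := fun n => by
    simp only [ε]
    positivity
  have hbη : ∀ n, b n * (1 + θ n) + 2 * η n < π := by
    intro n
    have e1 : b n * θ n = gap n / 4 := by
      simp only [θ]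
      have := (hb0 n).ne'
      field_simp
    have e2 : b n * (1 + θ n) + 2 * η n = π - gap n / 2 := by
      rw [mul_add, e1]
      simp only [η, b]
      ring
    rw [e2]
    linarith [hgap0 n]
  have hcore := fun n => core_eps_rowsA (r := κ) (ι := ι) ha (hη0 n) (hε0 n)
  choose m₀ hm₀ using hcore
  let m : ℕ → ℕ := fun n => max (m₀ n) (n + 1)
  have hm1 : ∀ n, n + 1 ≤ m n := fun n => le_max_right _ _
  have hline := fun n => line_fixed ha (hη0 n) (hε0 n) (hb0 n) (hθ0 n) (hbη n)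
    (hm₀ n (m n) (le_max_left _ _)) Φ Φ' h hd0 (fun i => (hd1 i).le) hGram
  -- the left side
  have eL : ∀ n, ∫ x, Fa a (b n) (ε n) (Φ x) =
      b n ^ 2 / 4 * ((∫ x, tr3 (Φ x)) - ε n * ((Fintype.card ι : ℝ) ^ 3 * ∫ x, rh (Φ x) ^ 3)) +
        a * b n * (1 - ε n) * (∫ x, tr2 (Φ x)) - a ^ 2 * ε n * ∫ x, rh (Φ x) := by
    intro n
    have i0 : Integrable fun x => ε n * ((Fintype.card ι : ℝ) ^ 3 * rh (Φ x) ^ 3) :=
      (iρ3.const_mul _).const_mul _
    have i1 : Integrable fun x => tr3 (Φ x) - ε n * ((Fintype.card ι : ℝ) ^ 3 * rh (Φ x) ^ 3) :=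
      it3.sub i0
    have i2 : Integrable fun x => b n ^ 2 / 4 *
        (tr3 (Φ x) - ε n * ((Fintype.card ι : ℝ) ^ 3 * rh (Φ x) ^ 3)) := i1.const_mul _
    have i3 : Integrable fun x => a * b n * (1 - ε n) * tr2 (Φ x) := it2.const_mul _
    have i4 : Integrable fun x => a ^ 2 * ε n * rh (Φ x) := iρ.const_mul _
    have i5 : Integrable fun x => b n ^ 2 / 4 *
        (tr3 (Φ x) - ε n * ((Fintype.card ι : ℝ) ^ 3 * rh (Φ x) ^ 3)) +
        a * b n * (1 - ε n) * tr2 (Φ x) := i2.add i3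
    simp only [Fa]
    rw [integral_sub i5 i4, integral_add i2 i3, integral_const_mul, integral_sub it3 i0,
      integral_const_mul, integral_const_mul, integral_const_mul, integral_const_mul]
  -- limits of the parameters
  have tgap : Tendsto gap atTop (𝓝 0) := by
    have h1 : Tendsto (fun n : ℕ => (n : ℝ) + 2) atTop atTop :=
      tendsto_atTop_add_const_right _ _ tendsto_natCast_atTop_atTop
    have h2 := h1.const_div_atTop π
    exact h2
  have tb : Tendsto b atTop (𝓝 π) := by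
    have := (tendsto_const_nhds (x := π)).sub tgap
    simpa using this
  have tη : Tendsto η atTop (𝓝 0) := by
    have := tgap.div_const 8
    simpa using this
  have tε : Tendsto ε atTop (𝓝 0) := tendsto_one_div_add_atTop_nhds_zero_nat
  -- the limit of the right side
  have targ1 : ∀ i, Tendsto (fun n => (η n + b n * d i + π) / 2) atTop (𝓝 ((π * d i + π) / 2)) := by
    intro i
    have := ((tη.add (tb.mul_const (d i))).add_const π).div_const 2
    simpa using this
  have targ2 : Tendsto (fun n => (η n + π) / 2) atTop (𝓝 (π / 2)) := by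
    have := (tη.add_const π).div_const 2
    simpa using this
  have hphi1 : ∀ i, Tendsto (fun n => phi (m n) ((η n + b n * d i + π) / 2)) atTop
      (𝓝 (-Real.tan (π * d i / 2))) := by
    intro i
    have e1 : Real.cot ((π * d i + π) / 2) = -Real.tan (π * d i / 2) := by
      have e2 : (π * d i + π) / 2 = π * d i / 2 + π / 2 := by ring
      rw [e2, Real.cot_eq_cos_div_sin, Real.cos_add_pi_div_two, Real.sin_add_pi_div_two,
        Real.tan_eq_sin_div_cos, neg_div]
    rw [← e1]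
    refine tendsto_phi_comp hm1 (fun n => ?_) (fun n => ?_) (by
      have := hd0 i
      positivity) (by
      have := hd1 i
      nlinarith) (targ1 i)
    · have : 0 ≤ b n * d i := mul_nonneg (hb0 n).le (hd0 i)
      linarith [hη0 n]
    · have h1 : b n * d i ≤ b n := by
        have := mul_le_mul_of_nonneg_left (hd1 i).le (hb0 n).le
        linarith
      have h2 : η n + b n < π := by
        simp only [η, b]
        linarith [hgap0 n]
      linarith
  have hphi2 : Tendsto (fun n => phi (m n) ((η n + π) / 2)) atTop (𝓝 0) := by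
    have e1 : Real.cot (π / 2) = 0 := by
      rw [Real.cot_eq_cos_div_sin, Real.cos_pi_div_two, zero_div]
    rw [← e1]
    refine tendsto_phi_comp hm1 (fun n => ?_) (fun n => ?_) (by positivity) (by linarith) targ2
    · linarith [hη0 n]
    · have h2 : η n < π := by
        simp only [η]
        linarith [hgap0 n, hgap1 n]
      linarith
  have hS1 : Tendsto (fun n => ∑ i, (-2 * phi (m n) ((η n + b n * d i + π) / 2) -
      (η n + b n * d i))) atTop
      (𝓝 (∑ i, (-2 * -Real.tan (π * d i / 2) - (0 + π * d i)))) :=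
    tendsto_finsetSum _ fun i _ => ((hphi1 i).const_mul (-2)).sub (tη.add (tb.mul_const (d i)))
  have hS2 : Tendsto (fun n => ∑ _i : ι, (-2 * phi (m n) ((η n + π) / 2) - η n)) atTop
      (𝓝 (∑ _i : ι, (-2 * (0 : ℝ) - 0))) :=
    tendsto_finsetSum _ fun _ _ => (hphi2.const_mul (-2)).sub tη
  have tR : Tendsto (fun n => (∫ x, rh (Φ' x)) + a ^ 2 / b n *
      (∑ i, (-2 * phi (m n) ((η n + b n * d i + π) / 2) - (η n + b n * d i)) -
        ∑ _i : ι, (-2 * phi (m n) ((η n + π) / 2) - η n))) atTop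
      (𝓝 ((∫ x, rh (Φ' x)) + a ^ 2 / π *
        (∑ i, (-2 * -Real.tan (π * d i / 2) - (0 + π * d i)) -
          ∑ _i : ι, (-2 * (0 : ℝ) - 0)))) :=
    tendsto_const_nhds.add (((tendsto_const_nhds.div tb hπ.ne')).mul (hS1.sub hS2))
  have tL : Tendsto (fun n => b n ^ 2 / 4 * ((∫ x, tr3 (Φ x)) - ε n *
        ((Fintype.card ι : ℝ) ^ 3 * ∫ x, rh (Φ x) ^ 3)) +
        a * b n * (1 - ε n) * (∫ x, tr2 (Φ x)) - a ^ 2 * ε n * ∫ x, rh (Φ x)) atTop
      (𝓝 (π ^ 2 / 4 * ((∫ x, tr3 (Φ x)) - 0 *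
        ((Fintype.card ι : ℝ) ^ 3 * ∫ x, rh (Φ x) ^ 3)) +
        a * π * (1 - 0) * (∫ x, tr2 (Φ x)) - a ^ 2 * 0 * ∫ x, rh (Φ x))) :=
    ((((tb.pow 2).div_const 4).mul (tendsto_const_nhds.sub (tε.mul_const _))).add
      (((tb.const_mul a).mul (tendsto_const_nhds.sub tε)).mul_const _)).sub
      ((tε.const_mul _).mul_const _)
  have hfin := le_of_tendsto_of_tendsto' tL tR fun n => by
    have := hline n
    rwa [eL n] at this
  have e3 : (1 : ℝ) / π * ∑ i, (a ^ 2 * (2 * Real.tan (π * d i / 2) - π * d i)) =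
      a ^ 2 / π * (∑ i, (-2 * -Real.tan (π * d i / 2) - (0 + π * d i)) -
        ∑ _i : ι, (-2 * (0 : ℝ) - 0)) := by
    rw [← Finset.mul_sum]
    have e4 : ∑ _i : ι, (-2 * (0 : ℝ) - 0) = 0 := by simp
    rw [e4, sub_zero]
    have e5 : ∑ i, (2 * Real.tan (π * d i / 2) - π * d i) =
        ∑ i, (-2 * -Real.tan (π * d i / 2) - (0 + π * d i)) :=
      Finset.sum_congr rfl fun i _ => by ring
    rw [e5]
    ring
  rw [e3]
  simp only [sub_zero, zero_mul, mul_one] at hfin
  simpa using hfin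

end Vale.Agent.Lib.P371.SharpA
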