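import Vale.Agent.Lib.P371.SharpA.Final

/-!
# P371, sharp route A: pointwise algebra of the mixture step

The effect of a diagonal scaling of the block matrix on `tr Q³` and `tr Q²`, and the pointwise
inequality of the mixture step.
-/

open Real Matrix

namespace Vale.Agent.Lib.P371.SharpA

open Vale.Agent.Lib.P371 Vale.Agent.Lib.P371.Sharp Vale.Agent.Lib.P371.Sharp.Rows


variable {m N : ℕ}

lemma blockF_scaled (n : Fin N → ℝ) (z : Fin N → Fin m → ℂ) (a : Fin m × Bool)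
    (i : Fin N × Bool) : blockF (scaled n z) a i = √(n i.1) * blockF z a i := by
  rcases a with ⟨c, s⟩
  rcases i with ⟨j, t⟩
  cases s <;> cases t <;> simp [blockF, scaled, reR, mulI, Complex.mul_re, Complex.mul_im]

lemma qm_scal (n : Fin N → ℝ) (z : Fin N → Fin m → ℂ) (i j : Fin N × Bool) :
    qm (blockF (scaled n z)) i j = √(n i.1) * √(n j.1) * qm (blockF z) i j := by
  unfold qm
  rw [Finset.mul_sum]
  refine Finset.sum_congr rfl fun a _ => ?_
  rw [blockF_scaled, blockF_scaled]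
  ring

lemma tr3_scal {n : Fin N → ℝ} (hn : ∀ j, 0 ≤ n j) (z : Fin N → Fin m → ℂ) :
    tr3 (blockF (scaled n z)) = ∑ i, ∑ j, ∑ k, (n i.1 * n j.1 * n k.1) *
      (qm (blockF z) i j * qm (blockF z) j k * qm (blockF z) k i) := by
  unfold tr3
  refine Finset.sum_congr rfl fun i _ => Finset.sum_congr rfl fun j _ =>
    Finset.sum_congr rfl fun k _ => ?_
  rw [qm_scal, qm_scal, qm_scal]
  have hi := Real.sq_sqrt (hn i.1)
  have hj := Real.sq_sqrt (hn j.1)
  have hk := Real.sq_sqrt (hn k.1)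
  calc _ = √(n i.1) ^ 2 * √(n j.1) ^ 2 * √(n k.1) ^ 2 *
        (qm (blockF z) i j * qm (blockF z) j k * qm (blockF z) k i) := by ring
    _ = _ := by rw [hi, hj, hk]

lemma tr2_scal {n : Fin N → ℝ} (hn : ∀ j, 0 ≤ n j) (z : Fin N → Fin m → ℂ) :
    tr2 (blockF (scaled n z)) = ∑ i, ∑ j, (n i.1 * n j.1) * qm (blockF z) i j ^ 2 := by
  unfold tr2
  refine Finset.sum_congr rfl fun i _ => Finset.sum_congr rfl fun j _ => ?_
  rw [qm_scal]
  have hi := Real.sq_sqrt (hn i.1)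
  have hj := Real.sq_sqrt (hn j.1)
  calc _ = √(n i.1) ^ 2 * √(n j.1) ^ 2 * qm (blockF z) i j ^ 2 := by ring
    _ = _ := by rw [hi, hj]

/-- The rotated coordinates of the scaled family. -/
lemma norm_scal_sq {n : Fin N → ℝ} (hn : ∀ j, 0 ≤ n j) (E : Fin m → ℂ)
    (z : Fin N → Fin m → ℂ) (j : Fin N) :
    ‖∑ c, E c * scaled n z j c‖ ^ 2 = n j * ‖∑ c, E c * z j c‖ ^ 2 := by
  have e : ∑ c, E c * scaled n z j c = ((√(n j) : ℝ) : ℂ) * ∑ c, E c * z j c := by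
    rw [Finset.mul_sum]
    refine Finset.sum_congr rfl fun c _ => ?_
    unfold scaled
    ring
  rw [e, norm_mul, mul_pow, Complex.norm_real, Real.norm_eq_abs, sq_abs, Real.sq_sqrt (hn j)]

/-- The whole pointwise inequality: quadratic form against `tr Q³` and `tr Q²`. -/
theorem pointwise_mix {A : Matrix (Fin m) (Fin m) ℂ} (hA : A.IsHermitian)
    (hAnn : ∀ α, 0 ≤ hA.eigenvalues α) {n : Fin N → ℝ} (hn : ∀ j, 0 ≤ n j)
    (z : Fin N → Fin m → ℂ) {a X : ℝ} {Xf : ℝ → ℝ} (ha : 0 ≤ a)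
    (hY : ∀ w s : ℝ, 0 ≤ w → 0 ≤ s → w * s - s ^ 3 / 4 - a * s ^ 2 ≤ Xf w)
    (hX : X = ∑ α, Xf (hA.eigenvalues α)) :
    π * ∑ j, n j * (star (z j) ⬝ᵥ A *ᵥ z j).re - π ^ 3 / 8 * tr3 (blockF (scaled n z))
        - a * π ^ 2 / 2 * tr2 (blockF (scaled n z)) ≤ X := by
  have hpi := Real.pi_pos
  obtain ⟨r, hr⟩ : ∃ r : Fin m → ℝ, r = fun α => ∑ j, ‖∑ c, rowsU hA α c * scaled n z j c‖ ^ 2 :=
    ⟨_, rfl⟩
  have hr0 : ∀ α, 0 ≤ r α := fun α => by
    rw [hr]
    exact Finset.sum_nonneg fun j _ => by positivity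
  have h3 : 2 * ∑ α, r α ^ 3 ≤ tr3 (blockF (scaled n z)) := by
    have := pointwise_trace hA (scaled n z)
    rw [hr]
    exact this
  have h2 : 2 * ∑ α, r α ^ 2 ≤ tr2 (blockF (scaled n z)) := by
    have := pointwise_trace2 hA (scaled n z)
    rw [hr]
    exact this
  have hq : ∑ j, n j * (star (z j) ⬝ᵥ A *ᵥ z j).re = ∑ α, hA.eigenvalues α * r α := by
    simp only [quad_form hA]
    simp only [Finset.mul_sum]
    rw [Finset.sum_comm]
    refine Finset.sum_congr rfl fun α _ => ?_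
    rw [hr]
    simp only [Finset.mul_sum]
    refine Finset.sum_congr rfl fun j _ => ?_
    rw [norm_scal_sq hn]
    ring
  have hsum : ∑ α, (hA.eigenvalues α * (π * r α) - (π * r α) ^ 3 / 4 - a * (π * r α) ^ 2) ≤ X := by
    rw [hX]
    exact Finset.sum_le_sum fun α _ => hY _ _ (hAnn α) (mul_nonneg hpi.le (hr0 α))
  have hexp : ∑ α, (hA.eigenvalues α * (π * r α) - (π * r α) ^ 3 / 4 - a * (π * r α) ^ 2)
      = π * ∑ α, hA.eigenvalues α * r α - π ^ 3 / 4 * ∑ α, r α ^ 3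
        - a * π ^ 2 * ∑ α, r α ^ 2 := by
    rw [Finset.mul_sum, Finset.mul_sum, Finset.mul_sum, ← Finset.sum_sub_distrib,
      ← Finset.sum_sub_distrib]
    exact Finset.sum_congr rfl fun α _ => by ring
  rw [hexp] at hsum
  rw [hq]
  have hc3 : π ^ 3 / 4 * ∑ α, r α ^ 3 ≤ π ^ 3 / 8 * tr3 (blockF (scaled n z)) := by
    have := mul_le_mul_of_nonneg_left h3 (by positivity : 0 ≤ π ^ 3 / 8)
    calc _ = π ^ 3 / 8 * (2 * ∑ α, r α ^ 3) := by ring
      _ ≤ _ := this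
  have hc2 : a * π ^ 2 * ∑ α, r α ^ 2 ≤ a * π ^ 2 / 2 * tr2 (blockF (scaled n z)) := by
    have := mul_le_mul_of_nonneg_left h2 (by positivity : 0 ≤ a * π ^ 2 / 2)
    calc _ = a * π ^ 2 / 2 * (2 * ∑ α, r α ^ 2) := by ring
      _ ≤ _ := this
  linarith

end Vale.Agent.Lib.P371.SharpA
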