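import Vale.Agent.Lib.P371.SharpA.MixAbs
import Vale.Agent.Lib.P371.SharpA.MixAlg
import Vale.Agent.Lib.P371.Sharp.RowsFinal
import Vale.Agent.Lib.P371.VecForm

/-!
# P371, sharp route A: from the calibration family to the mixture inequality

From the family of inequalities for the scaled block matrices (parameter `a > 0`), the mixture over
`a` with weight `a^(-mu)` gives `c * ∑_j (e_j)_+^γ ≤ d * ∫ tr W^(γ+1/2)` with `μ = 3 - 2 γ`.
-/

open Set MeasureTheory Real Matrix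
open scoped ComplexOrder

namespace Vale.Agent.Lib.P371.SharpA

open Vale.Agent.Lib.P371 Vale.Agent.Lib.P371.Cal Vale.Agent.Lib.P371.Sharp
  Vale.Agent.Lib.P371.Sharp.Rows

variable {m N : ℕ}

/-- A crude Young inequality for the exponents in the range of the mixture. -/
lemma mul_le_rpow_add {w r p : ℝ} (hw : 0 ≤ w) (hr : 0 ≤ r) (hp1 : 3 / 2 ≤ p) (hp2 : p ≤ 2) :
    w * r ≤ w ^ p + r ^ 2 + r ^ 3 := by
  have hr2 : 0 ≤ r ^ 2 := by positivity
  have hr3 : 0 ≤ r ^ 3 := by positivity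
  have hwp : 0 ≤ w ^ p := Real.rpow_nonneg hw p
  rcases hw.eq_or_lt with rfl | hw0
  · rw [zero_mul]
    linarith
  have hq : w ^ p = w * w ^ (p - 1) := by
    have e : p = 1 + (p - 1) := by ring
    nth_rewrite 1 [e]
    rw [Real.rpow_add hw0, Real.rpow_one]
  by_cases h1 : r ≤ w ^ (p - 1)
  · have := mul_le_mul_of_nonneg_left h1 hw
    rw [← hq] at this
    linarith
  push Not at h1
  by_cases h2 : w ≤ 1
  · have h3 : w ≤ w ^ (p - 1) := by
      calc w = w ^ (1 : ℝ) := (Real.rpow_one w).symm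
        _ ≤ w ^ (p - 1) := Real.rpow_le_rpow_of_exponent_ge hw0 h2 (by linarith)
    have h4 : w ≤ r := h3.trans h1.le
    have h5 : w * r ≤ r ^ 2 := by nlinarith
    linarith
  · push Not at h2
    have h3 : w ^ (1 / 2 : ℝ) ≤ w ^ (p - 1) :=
      Real.rpow_le_rpow_of_exponent_le h2.le (by linarith)
    have h4 : w ^ (1 / 2 : ℝ) < r := lt_of_le_of_lt h3 h1
    have h5 : w < r ^ 2 := by
      have e := Real.sq_sqrt hw
      rw [Real.sqrt_eq_rpow] at e
      have h0 : 0 ≤ w ^ (1 / 2 : ℝ) := Real.rpow_nonneg hw _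
      nlinarith
    have h6 : w * r ≤ r ^ 3 := by nlinarith
    linarith

/-- Integrability of the quadratic form, for an exponent in the range of the mixture. -/
theorem integrable_quad {p : ℝ} (hp1 : 3 / 2 ≤ p) (hp2 : p ≤ 2)
    {W : ℝ → Matrix (Fin m) (Fin m) ℂ} (hW : ∀ x, (W x).PosSemidef)
    (hWm : ∀ i j, Measurable fun x => W x i j)
    (hWint : Integrable fun x => ∑ i, (hW x).isHermitian.eigenvalues i ^ p)
    {φ φ' : ℝ → Fin m → ℂ} (hH : ∀ c, IsH1 (fun x => φ x c) (fun x => φ' x c)) :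
    Integrable fun x => (star (φ x) ⬝ᵥ W x *ᵥ φ x).re := by
  obtain ⟨ρ, hρ⟩ : ∃ ρ : ℝ → ℝ, ρ = fun x => ∑ c, ‖φ x c‖ ^ 2 := ⟨_, rfl⟩
  have hρ0 : ∀ x, 0 ≤ ρ x := fun x => by
    rw [hρ]
    exact Finset.sum_nonneg fun c _ => by positivity
  have hρi : Integrable ρ := by
    rw [hρ]
    exact integrable_finsetSum _ fun c _ => (hH c).memLp.integrable_norm_pow (by norm_num)
  have hφm : ∀ c, Measurable fun x => φ x c := fun c => (hH c).continuous.measurable
  have hρm : AEStronglyMeasurable ρ := hρi.1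
  obtain ⟨R, hR⟩ : ∃ R : ℝ, R = ∑ c, (1 + ((∫ y, ‖φ' y c‖ ^ 2) + ∫ y, ‖φ y c‖ ^ 2)) ^ 2 := ⟨_, rfl⟩
  have hρb : ∀ x, ρ x ≤ R := fun x => by
    rw [hρ, hR]
    refine Finset.sum_le_sum fun c _ => ?_
    have h1 := (hH c).bound x
    exact pow_le_pow_left₀ (norm_nonneg _) h1 2
  have hρn : ∀ x, ‖ρ x‖ ≤ R := fun x => by
    rw [Real.norm_of_nonneg (hρ0 x)]
    exact hρb x
  have hi2 : Integrable fun x => ρ x * ρ x :=
    hρi.bdd_mul hρm (Filter.Eventually.of_forall hρn)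
  have hi3 : Integrable fun x => ρ x * (ρ x * ρ x) :=
    hi2.bdd_mul hρm (Filter.Eventually.of_forall hρn)
  have hdom : Integrable fun x => (∑ i, (hW x).isHermitian.eigenvalues i ^ p)
      + (m : ℝ) * (ρ x * ρ x + ρ x * (ρ x * ρ x)) :=
    hWint.add ((hi2.add hi3).const_mul _)
  refine Integrable.mono' hdom (measurable_quad hWm hφm).aestronglyMeasurable
    (Filter.Eventually.of_forall fun x => ?_)
  have hq := quad_form (hW x).isHermitian (φ x)
  have hnn : 0 ≤ (star (φ x) ⬝ᵥ W x *ᵥ φ x).re := by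
    rw [hq]
    exact Finset.sum_nonneg fun α _ =>
      mul_nonneg ((hW x).eigenvalues_nonneg α) (by positivity)
  rw [Real.norm_of_nonneg hnn, hq]
  have hr : ∀ α, ‖∑ c, rowsU (hW x).isHermitian α c * φ x c‖ ^ 2 ≤ ρ x := by
    intro α
    have hp := parseval (hW x).isHermitian (φ x)
    have : ρ x = ∑ α, ‖∑ c, rowsU (hW x).isHermitian α c * φ x c‖ ^ 2 := by
      rw [hp, hρ]
    rw [this]
    exact Finset.single_le_sum
      (f := fun α => ‖∑ c, rowsU (hW x).isHermitian α c * φ x c‖ ^ 2)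
      (fun α _ => by positivity) (Finset.mem_univ α)
  have hterm : ∀ α, (hW x).isHermitian.eigenvalues α *
      ‖∑ c, rowsU (hW x).isHermitian α c * φ x c‖ ^ 2 ≤
      (hW x).isHermitian.eigenvalues α ^ p + (ρ x * ρ x + ρ x * (ρ x * ρ x)) := by
    intro α
    obtain ⟨r, hrdef⟩ : ∃ r, r = ‖∑ c, rowsU (hW x).isHermitian α c * φ x c‖ ^ 2 := ⟨_, rfl⟩
    rw [← hrdef]
    have hr0 : 0 ≤ r := by rw [hrdef]; positivity
    have hle : r ≤ ρ x := by rw [hrdef]; exact hr α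
    have := mul_le_rpow_add ((hW x).eigenvalues_nonneg α) hr0 hp1 hp2
    have h2 : r ^ 2 ≤ ρ x * ρ x := by nlinarith
    have h3 : r ^ 3 ≤ ρ x * (ρ x * ρ x) := by
      have h4 : r ^ 3 = r * r ^ 2 := by ring
      rw [h4]
      exact mul_le_mul hle h2 (by positivity) (hρ0 x)
    linarith
  refine (Finset.sum_le_sum fun α _ => hterm α).trans (le_of_eq ?_)
  rw [Finset.sum_add_distrib]
  simp
  ring

/-- The entries of the block matrix are bounded by the coordinates. -/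
lemma abs_blockF_le (z : Fin N → Fin m → ℂ) (a : Fin m × Bool) (i : Fin N × Bool) :
    |blockF z a i| ≤ ‖z i.1 a.1‖ := by
  unfold blockF
  rcases a with ⟨c, s⟩
  rcases i with ⟨j, t⟩
  have h := norm_mulI t (z j c)
  simp only
  rw [← h]
  cases s
  · simpa [reR] using Complex.abs_re_le_norm (mulI t (z j c))
  · simpa [reR] using Complex.abs_im_le_norm (mulI t (z j c))

section entries

variable {ψ ψ' : Fin N → ℝ → Fin m → ℂ}

/-- The entries of the unscaled Gram density. -/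
noncomputable def q0 (ψ : Fin N → ℝ → Fin m → ℂ) (x : ℝ) (i j : Fin N × Bool) : ℝ :=
  qm (blockF fun j => ψ j x) i j

lemma exists_entry_bound (hH : ∀ j c, IsH1 (fun x => ψ j x c) (fun x => ψ' j x c)) :
    ∃ B : ℝ, 0 ≤ B ∧ ∀ x a i, |blockF (fun j => ψ j x) a i| ≤ B := by
  refine ⟨∑ j, ∑ c, (1 + ((∫ y, ‖ψ' j y c‖ ^ 2) + ∫ y, ‖ψ j y c‖ ^ 2)), ?_, ?_⟩
  · refine Finset.sum_nonneg fun j _ => Finset.sum_nonneg fun c _ => ?_
    have h3 : 0 ≤ ∫ y, ‖ψ' j y c‖ ^ 2 := integral_nonneg fun y => by positivity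
    have h4 : 0 ≤ ∫ y, ‖ψ j y c‖ ^ 2 := integral_nonneg fun y => by positivity
    linarith
  · intro x a i
    refine (abs_blockF_le _ a i).trans (((hH i.1 a.1).bound x).trans ?_)
    have hnn : ∀ j c, 0 ≤ 1 + ((∫ y, ‖ψ' j y c‖ ^ 2) + ∫ y, ‖ψ j y c‖ ^ 2) := by
      intro j c
      have h3 : 0 ≤ ∫ y, ‖ψ' j y c‖ ^ 2 := integral_nonneg fun y => by positivity
      have h4 : 0 ≤ ∫ y, ‖ψ j y c‖ ^ 2 := integral_nonneg fun y => by positivity
      linarith
    calc 1 + ((∫ y, ‖ψ' i.1 y a.1‖ ^ 2) + ∫ y, ‖ψ i.1 y a.1‖ ^ 2)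
        ≤ ∑ c, (1 + ((∫ y, ‖ψ' i.1 y c‖ ^ 2) + ∫ y, ‖ψ i.1 y c‖ ^ 2)) :=
          Finset.single_le_sum
            (f := fun c => 1 + ((∫ y, ‖ψ' i.1 y c‖ ^ 2) + ∫ y, ‖ψ i.1 y c‖ ^ 2))
            (fun c _ => hnn _ c) (Finset.mem_univ a.1)
      _ ≤ ∑ j, ∑ c, (1 + ((∫ y, ‖ψ' j y c‖ ^ 2) + ∫ y, ‖ψ j y c‖ ^ 2)) :=
          Finset.single_le_sum
            (f := fun j => ∑ c, (1 + ((∫ y, ‖ψ' j y c‖ ^ 2) + ∫ y, ‖ψ j y c‖ ^ 2)))
            (fun j _ => Finset.sum_nonneg fun c _ => hnn j c) (Finset.mem_univ i.1)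

lemma continuous_q0 (hH : ∀ j c, IsH1 (fun x => ψ j x c) (fun x => ψ' j x c))
    (i j : Fin N × Bool) : Continuous fun x => q0 ψ x i j := by
  unfold q0 qm
  refine continuous_finsetSum _ fun a _ => ?_
  exact (ap_rh1_continuous (rh1_block hH a i)).mul (ap_rh1_continuous (rh1_block hH a j))

lemma integrable_q0 (hH : ∀ j c, IsH1 (fun x => ψ j x c) (fun x => ψ' j x c))
    (i j : Fin N × Bool) : Integrable fun x => q0 ψ x i j := by
  unfold q0 qm
  refine integrable_finsetSum _ fun a _ => ?_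
  exact (rh1_block hH a i).memLp.integrable_mul (rh1_block hH a j).memLp

lemma exists_q0_bound (hH : ∀ j c, IsH1 (fun x => ψ j x c) (fun x => ψ' j x c)) :
    ∃ C : ℝ, 0 ≤ C ∧ ∀ x i j, ‖q0 ψ x i j‖ ≤ C := by
  obtain ⟨B, hB0, hB⟩ := exists_entry_bound hH
  refine ⟨∑ _a : Fin m × Bool, B * B, Finset.sum_nonneg fun _ _ => mul_nonneg hB0 hB0, ?_⟩
  intro x i j
  unfold q0 qm
  refine (norm_sum_le _ _).trans (Finset.sum_le_sum fun a _ => ?_)
  rw [norm_mul]
  exact mul_le_mul (hB x a i) (hB x a j) (norm_nonneg _) hB0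

lemma integrable_tau (hH : ∀ j c, IsH1 (fun x => ψ j x c) (fun x => ψ' j x c))
    (i j k : Fin N × Bool) :
    Integrable fun x => q0 ψ x i j * q0 ψ x j k * q0 ψ x k i := by
  obtain ⟨C, hC0, hC⟩ := exists_q0_bound hH
  refine (integrable_q0 hH k i).bdd_mul (c := C * C)
    ((continuous_q0 hH i j).mul (continuous_q0 hH j k)).aestronglyMeasurable
    (Filter.Eventually.of_forall fun x => ?_)
  rw [norm_mul]
  exact mul_le_mul (hC x i j) (hC x j k) (norm_nonneg _) hC0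

lemma integrable_sigma (hH : ∀ j c, IsH1 (fun x => ψ j x c) (fun x => ψ' j x c))
    (i j : Fin N × Bool) :
    Integrable fun x => q0 ψ x i j ^ 2 := by
  obtain ⟨C, hC0, hC⟩ := exists_q0_bound hH
  have := (integrable_q0 hH i j).bdd_mul (c := C)
    (continuous_q0 hH i j).aestronglyMeasurable (Filter.Eventually.of_forall fun x => hC x i j)
  refine this.congr (Filter.Eventually.of_forall fun x => ?_)
  simp only [sq]

end entries

/-- The Legendre identity at the positive part. -/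
lemma legendre_pos_part {a e : ℝ} (ha : 0 < a) :
    max e 0 * Lam1 (a / √(max e 0)) =
      π * (2 / π * arctan (√(max e 0) / a)) * e
        - a ^ 2 * (2 * tan (π * (2 / π * arctan (√(max e 0) / a)) / 2)
            - π * (2 / π * arctan (√(max e 0) / a))) := by
  have hpi := Real.pi_pos
  have hpi' : π ≠ 0 := hpi.ne'
  rcases le_or_gt e 0 with he | he
  · rw [max_eq_right he]
    simp
  · rw [max_eq_left he.le]
    have h := legendre ha he
    have e1 : π * (2 / π * arctan (√e / a)) = 2 * arctan (√e / a) := by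
      field_simp
    rw [e1, ← h]

/-- The index type of the products. -/
abbrev LMix (N : ℕ) : Type :=
  Fin N ⊕ (((Fin N × Bool) × (Fin N × Bool) × (Fin N × Bool)) ⊕ ((Fin N × Bool) × (Fin N × Bool)))

/-- The functions of the parameter `a`. -/
noncomputable def uMix (nn : Fin N → ℝ → ℝ) : LMix N → ℝ → ℝ :=
  Sum.elim (fun j a => π * nn j a)
    (Sum.elim (fun t a => -(π ^ 3 / 8) * (nn t.1.1 a * nn t.2.1.1 a * nn t.2.2.1 a))
      (fun t a => -(a * π ^ 2 / 2) * (nn t.1.1 a * nn t.2.1 a)))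

/-- The functions of the variable `x`. -/
noncomputable def vMix (V : Fin N → ℝ → ℝ) (q : ℝ → Fin N × Bool → Fin N × Bool → ℝ) :
    LMix N → ℝ → ℝ :=
  Sum.elim (fun j x => V j x)
    (Sum.elim (fun t x => q x t.1 t.2.1 * q x t.2.1 t.2.2 * q x t.2.2 t.1)
      (fun t x => q x t.1 t.2 ^ 2))

lemma sum_uMix_vMix (nn : Fin N → ℝ → ℝ) (V : Fin N → ℝ → ℝ)
    (q : ℝ → Fin N × Bool → Fin N × Bool → ℝ) (a x : ℝ) :
    ∑ l, uMix nn l a * vMix V q l x =
      π * (∑ j, nn j a * V j x)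
        - π ^ 3 / 8 * (∑ i, ∑ j, ∑ k, (nn i.1 a * nn j.1 a * nn k.1 a) *
            (q x i j * q x j k * q x k i))
        - a * π ^ 2 / 2 * (∑ i, ∑ j, (nn i.1 a * nn j.1 a) * q x i j ^ 2) := by
  rw [Fintype.sum_sum_type, Fintype.sum_sum_type]
  have h1 : ∑ j, uMix nn (Sum.inl j) a * vMix V q (Sum.inl j) x = π * ∑ j, nn j a * V j x := by
    rw [Finset.mul_sum]
    refine Finset.sum_congr rfl fun j _ => ?_
    simp only [uMix, vMix, Sum.elim_inl]
    ring
  have h2 : ∑ t, uMix nn (Sum.inr (Sum.inl t)) a * vMix V q (Sum.inr (Sum.inl t)) x =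
      -(π ^ 3 / 8 * (∑ i, ∑ j, ∑ k, (nn i.1 a * nn j.1 a * nn k.1 a) *
            (q x i j * q x j k * q x k i))) := by
    rw [Fintype.sum_prod_type, ← mul_neg, ← Finset.sum_neg_distrib, Finset.mul_sum]
    refine Finset.sum_congr rfl fun i _ => ?_
    rw [Fintype.sum_prod_type, ← Finset.sum_neg_distrib, Finset.mul_sum]
    refine Finset.sum_congr rfl fun j _ => ?_
    rw [← Finset.sum_neg_distrib, Finset.mul_sum]
    refine Finset.sum_congr rfl fun k _ => ?_
    simp only [uMix, vMix, Sum.elim_inl, Sum.elim_inr]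
    ring
  have h3 : ∑ t, uMix nn (Sum.inr (Sum.inr t)) a * vMix V q (Sum.inr (Sum.inr t)) x =
      -(a * π ^ 2 / 2 * (∑ i, ∑ j, (nn i.1 a * nn j.1 a) * q x i j ^ 2)) := by
    rw [Fintype.sum_prod_type, ← mul_neg, ← Finset.sum_neg_distrib, Finset.mul_sum]
    refine Finset.sum_congr rfl fun i _ => ?_
    rw [← Finset.sum_neg_distrib, Finset.mul_sum]
    refine Finset.sum_congr rfl fun j _ => ?_
    simp only [uMix, vMix, Sum.elim_inr]
    ring
  rw [h1, h2, h3]
  ring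

/-- The mixture inequality, from the family of inequalities for the scaled block matrices. -/
theorem mix_final (line : RowsALine (Fin m × Bool) (Fin N × Bool)) {μ : ℝ} (h0 : 0 < μ) (h1 : μ < 1)
    {W : ℝ → Matrix (Fin m) (Fin m) ℂ} (hW : ∀ x, (W x).PosSemidef)
    (hWm : ∀ i j, Measurable fun x => W x i j)
    (hWint : Integrable fun x => ∑ i, (hW x).isHermitian.eigenvalues i ^ (2 - μ / 2))
    {ψ ψ' : Fin N → ℝ → Fin m → ℂ}
    (hH : ∀ j c, IsH1 (fun x => ψ j x c) (fun x => ψ' j x c))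
    (horth : ∀ j k, ∑ c, ∫ x, star (ψ j x c) * ψ k x c = if j = k then 1 else 0) :
    (∀ j, Integrable fun x => (star (ψ j x) ⬝ᵥ W x *ᵥ ψ j x).re) ∧
      cMix μ * ∑ j, (max ((∫ x, (star (ψ j x) ⬝ᵥ W x *ᵥ ψ j x).re)
          - ∑ c, ∫ x, ‖ψ' j x c‖ ^ 2) 0) ^ ((3 - μ) / 2)
        ≤ dMix μ * ∫ x, ∑ i, (hW x).isHermitian.eigenvalues i ^ (2 - μ / 2) := by
  classical
  have hpi := Real.pi_pos
  have hp1 : (3 : ℝ) / 2 ≤ 2 - μ / 2 := by linarith
  have hp2 : 2 - μ / 2 ≤ 2 := by linarith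
  have hV : ∀ j, Integrable fun x => (star (ψ j x) ⬝ᵥ W x *ᵥ ψ j x).re := fun j =>
    integrable_quad hp1 hp2 hW hWm hWint (φ := ψ j) (φ' := ψ' j) (hH j)
  refine ⟨hV, ?_⟩
  obtain ⟨e, he⟩ : ∃ e : Fin N → ℝ, e = fun j =>
      (∫ x, (star (ψ j x) ⬝ᵥ W x *ᵥ ψ j x).re) - ∑ c, ∫ x, ‖ψ' j x c‖ ^ 2 := ⟨_, rfl⟩
  have he' : ∀ j, (∫ x, (star (ψ j x) ⬝ᵥ W x *ᵥ ψ j x).re) - ∑ c, ∫ x, ‖ψ' j x c‖ ^ 2 = e j :=
    fun j => by rw [he]
  simp only [he']
  obtain ⟨E, hE⟩ : ∃ E : Fin N → ℝ, E = fun j => max (e j) 0 := ⟨_, rfl⟩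
  have hE' : ∀ j, max (e j) 0 = E j := fun j => by rw [hE]
  simp only [hE']
  have hE0 : ∀ j, 0 ≤ E j := fun j => by
    rw [hE]
    exact le_max_right _ _
  -- the weights
  obtain ⟨nn, hnn⟩ : ∃ nn : Fin N → ℝ → ℝ, nn = fun j a => 2 / π * arctan (√(E j) / a) := ⟨_, rfl⟩
  have hnn0 : ∀ j a, 0 < a → 0 ≤ nn j a := by
    intro j a ha
    rw [hnn]
    have : 0 ≤ arctan (√(E j) / a) := arctan_nonneg.2 (by positivity)
    positivity
  have hnn1 : ∀ j a, nn j a < 1 := by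
    intro j a
    rw [hnn]
    have h := arctan_lt_pi_div_two (√(E j) / a)
    have h2 : 2 / π * arctan (√(E j) / a) < 2 / π * (π / 2) :=
      mul_lt_mul_of_pos_left h (by positivity)
    have e1 : 2 / π * (π / 2) = 1 := by field_simp
    simp only
    linarith
  -- the right side
  obtain ⟨V, hVdef⟩ : ∃ V : Fin N → ℝ → ℝ, V = fun j x => (star (ψ j x) ⬝ᵥ W x *ᵥ ψ j x).re :=
    ⟨_, rfl⟩
  have hVi : ∀ j, Integrable (V j) := fun j => by
    rw [hVdef]
    exact hV j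
  have hsum : ∀ a x, 0 < a → ∑ l, uMix nn l a * vMix V (q0 ψ) l x =
      π * (∑ j, nn j a * V j x)
        - π ^ 3 / 8 * tr3 (blockF (scaled (fun j => nn j a) fun j => ψ j x))
        - a * π ^ 2 / 2 * tr2 (blockF (scaled (fun j => nn j a) fun j => ψ j x)) := by
    intro a x ha
    have hn : ∀ j, 0 ≤ (fun j => nn j a) j := fun j => hnn0 j a ha
    rw [tr3_scal hn, tr2_scal hn, sum_uMix_vMix]
    rfl
  have hu : ∀ l, IntegrableOn (fun a : ℝ => a ^ (-μ) * uMix nn l a) (Ioi 0) := by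
    rintro (j | t | t)
    · have := (integrableOn_arctan1 (μ := μ) (r := √(E j)) h0 h1 (Real.sqrt_nonneg _)).const_mul
        (π * (2 / π))
      refine IntegrableOn.congr_fun this (fun a _ => ?_) measurableSet_Ioi
      simp only [uMix, Sum.elim_inl, hnn]
      ring
    · have := (integrableOn_arctan3 (μ := μ) (r := √(E t.1.1)) (r' := √(E t.2.1.1))
        (r'' := √(E t.2.2.1)) h0 h1 (Real.sqrt_nonneg _) (Real.sqrt_nonneg _)
        (Real.sqrt_nonneg _)).const_mul (-(π ^ 3 / 8) * (2 / π) ^ 3)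
      refine IntegrableOn.congr_fun this (fun a _ => ?_) measurableSet_Ioi
      simp only [uMix, Sum.elim_inl, Sum.elim_inr, hnn]
      ring
    · have := (integrableOn_arctan2 (μ := μ) (r := √(E t.1.1)) (r' := √(E t.2.1)) h0 h1
        (Real.sqrt_nonneg _) (Real.sqrt_nonneg _)).const_mul (-(π ^ 2 / 2) * (2 / π) ^ 2)
      refine IntegrableOn.congr_fun this (fun a ha => ?_) measurableSet_Ioi
      have ha0 : (0 : ℝ) < a := ha
      have hq2 : a ^ (1 - μ) = a ^ (-μ) * a := by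
        have e1 : (1 : ℝ) - μ = -μ + 1 := by ring
        rw [e1, Real.rpow_add ha0, Real.rpow_one]
      simp only [uMix, Sum.elim_inr, hnn]
      rw [hq2]
      ring
  have hv : ∀ l, Integrable (vMix V (q0 ψ) l) := by
    rintro (j | t | t)
    · exact hVi j
    · exact integrable_tau hH _ _ _
    · exact integrable_sigma hH _ _
  have hT : ∀ j c, Integrable fun x => ‖ψ' j x c‖ ^ 2 := fun j c =>
    (hH j c).memLp_deriv.integrable_norm_pow (by norm_num)
  have hfam : ∀ a : ℝ, 0 < a →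
      ∑ j, E j * Lam1 (a / √(E j)) ≤ ∫ x, ∑ l, uMix nn l a * vMix V (q0 ψ) l x := by
    intro a ha
    have hn : ∀ j, 0 ≤ (fun j => nn j a) j := fun j => hnn0 j a ha
    obtain ⟨hi3, hi2, hj⟩ := final_line line hH horth (fun j => nn j a) hn (fun j => hnn1 j a) ha.le
    rw [integral_add (hi3.const_mul _) (hi2.const_mul _), integral_const_mul, integral_const_mul]
      at hj
    have hi1 : Integrable fun x => ∑ j, nn j a * V j x :=
      integrable_finsetSum _ fun j _ => (hVi j).const_mul _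
    have e1 : ∫ x, ∑ l, uMix nn l a * vMix V (q0 ψ) l x =
        π * (∑ j, nn j a * ∫ x, V j x)
          - π ^ 3 / 8 * (∫ x, tr3 (blockF (scaled (fun j => nn j a) fun j => ψ j x)))
          - a * π ^ 2 / 2 * (∫ x, tr2 (blockF (scaled (fun j => nn j a) fun j => ψ j x))) := by
      have i12 : Integrable fun x => π * (∑ j, nn j a * V j x)
          - π ^ 3 / 8 * tr3 (blockF (scaled (fun j => nn j a) fun j => ψ j x)) :=
        (hi1.const_mul _).sub (hi3.const_mul _)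
      rw [integral_congr_ae (Filter.Eventually.of_forall fun x => hsum a x ha),
        integral_sub i12 (hi2.const_mul _),
        integral_sub (hi1.const_mul _) (hi3.const_mul _), integral_const_mul, integral_const_mul,
        integral_const_mul, integral_finsetSum _ fun j _ => (hVi j).const_mul _]
      simp only [integral_const_mul]
    have e2 : ∑ j, E j * Lam1 (a / √(E j)) =
        π * (∑ j, nn j a * ∫ x, V j x) - π * (∑ j, nn j a * ∑ c, ∫ x, ‖ψ' j x c‖ ^ 2)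
          - ∑ j, a ^ 2 * (2 * tan (π * nn j a / 2) - π * nn j a) := by
      rw [← mul_sub, ← Finset.sum_sub_distrib, Finset.mul_sum, ← Finset.sum_sub_distrib]
      refine Finset.sum_congr rfl fun j _ => ?_
      have h := legendre_pos_part (e := e j) ha
      rw [hE' j] at h
      have hn' : nn j a = 2 / π * arctan (√(E j) / a) := by rw [hnn]
      rw [← hn'] at h
      rw [h]
      have hej : e j = (∫ x, V j x) - ∑ c, ∫ x, ‖ψ' j x c‖ ^ 2 := by rw [he, hVdef]
      rw [hej]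
      ring
    rw [e1, e2]
    have hj2 : π ^ 3 / 8 * (∫ x, tr3 (blockF (scaled (fun j => nn j a) fun j => ψ j x)))
        + a * π ^ 2 / 2 * (∫ x, tr2 (blockF (scaled (fun j => nn j a) fun j => ψ j x))) ≤
        π * (∑ j, nn j a * ∑ c, ∫ x, ‖ψ' j x c‖ ^ 2)
          + ∑ j, a ^ 2 * (2 * tan (π * nn j a / 2) - π * nn j a) := by
      refine le_trans (le_of_eq ?_) hj
      ring
    linarith
  have hpt : ∀ (a x : ℝ), 0 < a →
      ∑ l, uMix nn l a * vMix V (q0 ψ) l x ≤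
        ∑ α, (hW x).isHermitian.eigenvalues α ^ (3 / 2 : ℝ) *
          Xcl (a / √((hW x).isHermitian.eigenvalues α)) := by
    intro a x ha
    have hn : ∀ j, 0 ≤ (fun j => nn j a) j := fun j => hnn0 j a ha
    rw [hsum a x ha]
    have hVx : ∀ j, V j x = (star (ψ j x) ⬝ᵥ W x *ᵥ ψ j x).re := fun j => by rw [hVdef]
    simp only [hVx]
    exact pointwise_mix (hW x).isHermitian (hW x).eigenvalues_nonneg hn (fun j => ψ j x) ha.le
      (Xf := fun w => w ^ (3 / 2 : ℝ) * Xcl (a / √w))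
      (fun w s hw hs => young_scaled ha.le hw hs) rfl
  exact mix_abstract h0 h1 E hE0 (uMix nn) (vMix V (q0 ψ)) hu hv
    (fun α x => (hW x).isHermitian.eigenvalues α) (fun α x => (hW x).eigenvalues_nonneg α)
    hWint hfam hpt

end Vale.Agent.Lib.P371.SharpA
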