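import Vale.Agent.Lib.P371.SharpA.Exact
import Vale.Agent.Lib.P371.SharpA.MixFinal
import Vale.Agent.Lib.P371.SharpA.Line

/-!
# P371, sharp route A: the Lieb-Thirring inequalities for `1 < γ < 3/2`, exact form of the constant
-/

open Set MeasureTheory Real Matrix
open scoped ComplexOrder

namespace Vale.Agent.Lib.P371.SharpA

open Vale.Agent.Lib.P371

variable {m N : ℕ}

/-- **The Lieb-Thirring inequality with the constant `(2/√3)^(3-2γ) L^cl_γ`.** -/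
theorem lt_exact {γ : ℝ} (h1 : 1 < γ) (h2 : γ < 3 / 2)
    {W : ℝ → Matrix (Fin m) (Fin m) ℂ} (hW : ∀ x, (W x).PosSemidef)
    (hWm : ∀ i j, Measurable fun x => W x i j)
    (hWint : Integrable fun x => ∑ i, (hW x).isHermitian.eigenvalues i ^ (γ + 1 / 2))
    {ψ ψ' : Fin N → ℝ → Fin m → ℂ}
    (hH : ∀ j c, IsH1 (fun x => ψ j x c) (fun x => ψ' j x c))
    (horth : ∀ j k, ∑ c, ∫ x, star (ψ j x c) * ψ k x c = if j = k then 1 else 0) :
    (∀ j, Integrable fun x => (star (ψ j x) ⬝ᵥ W x *ᵥ ψ j x).re) ∧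
      ∑ j, (max ((∫ x, (star (ψ j x) ⬝ᵥ W x *ᵥ ψ j x).re)
          - ∑ c, ∫ x, ‖ψ' j x c‖ ^ 2) 0) ^ γ
        ≤ (2 / √3) ^ (3 - 2 * γ) * (Real.Gamma (γ + 1) / (2 * √π * Real.Gamma (γ + 3 / 2))) *
          ∫ x, ∑ i, (hW x).isHermitian.eigenvalues i ^ (γ + 1 / 2) := by
  have hμ0 : 0 < 3 - 2 * γ := by linarith
  have hμ1 : 3 - 2 * γ < 1 := by linarith
  have hc := cMix_pos hμ0 hμ1
  have e1 : 2 - (3 - 2 * γ) / 2 = γ + 1 / 2 := by ring
  have e2 : (3 - (3 - 2 * γ)) / 2 = γ := by ring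
  have hW' : Integrable fun x => ∑ i, (hW x).isHermitian.eigenvalues i ^ (2 - (3 - 2 * γ) / 2) := by
    rw [e1]
    exact hWint
  obtain ⟨hV, hmain⟩ := mix_final
    (fun Φ Φ' h d h0 h1 hG a ha => rowsA_line Φ Φ' h h0 h1 hG ha) hμ0 hμ1 hW hWm hW' hH horth
  rw [e1, e2, dMix_eq h1 h2] at hmain
  refine ⟨hV, ?_⟩
  refine le_of_mul_le_mul_left ?_ hc
  calc _ ≤ _ := hmain
    _ = _ := by ring

end Vale.Agent.Lib.P371.SharpA
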