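import Mathlib
import Vale.Agent.Lib.P371.LclDef

/-!
`Lcl γ = Γ(γ + 1) / (2 √π Γ(γ + 3/2))`.
-/

open Set MeasureTheory Real

namespace Vale.Agent.Lib.P371.SharpA

open Vale.Agent.Lib.P371

/-- The real Beta integral. -/
lemma real_beta {a b : ℝ} (ha : 0 < a) (hb : 0 < b) :
    ∫ y in Ioo (0 : ℝ) 1, y ^ (a - 1) * (1 - y) ^ (b - 1) =
      Real.Gamma a * Real.Gamma b / Real.Gamma (a + b) := by
  have h := ProbabilityTheory.beta_eq_betaIntegralReal a b ha hb
  unfold ProbabilityTheory.beta at h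
  rw [h, Complex.betaIntegral, intervalIntegral.integral_of_le zero_le_one,
    integral_Ioc_eq_integral_Ioo, ← RCLike.re_to_complex, ← integral_re]
  · refine setIntegral_congr_fun measurableSet_Ioo fun x hx => ?_
    obtain ⟨hx1, hx2⟩ := hx
    norm_cast
    rw [← Complex.ofReal_cpow, ← Complex.ofReal_cpow, RCLike.re_to_complex,
      Complex.re_mul_ofReal, Complex.ofReal_re]
    all_goals linarith
  · have := Complex.betaIntegral_convergent (u := a) (v := b) (by simpa) (by simpa)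
    rw [intervalIntegrable_iff_integrableOn_Ioc_of_le zero_le_one] at this
    exact this.mono_set Ioo_subset_Ioc_self

/-- The classical constant in terms of `Γ`. -/
theorem Lcl_eq_gamma {γ : ℝ} (hγ : 0 ≤ γ) :
    Lcl γ = Real.Gamma (γ + 1) / (2 * √π * Real.Gamma (γ + 3 / 2)) := by
  have hπ := Real.pi_pos
  have h1 : ∫ ξ in (-1 : ℝ)..1, (1 - ξ ^ 2) ^ γ = 2 * ∫ ξ in Ioo (0 : ℝ) 1, (1 - ξ ^ 2) ^ γ := by
    have hc : Continuous fun ξ : ℝ => (1 - ξ ^ 2) ^ γ :=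
      (Real.continuous_rpow_const hγ).comp (by fun_prop)
    have h2 := intervalIntegral.integral_add_adjacent_intervals
      (hc.intervalIntegrable (μ := volume) (-1) 0) (hc.intervalIntegrable (μ := volume) 0 1)
    have h3 : ∫ ξ in (-1 : ℝ)..0, (1 - ξ ^ 2) ^ γ = ∫ ξ in (0 : ℝ)..1, (1 - ξ ^ 2) ^ γ := by
      have := intervalIntegral.integral_comp_neg (a := (0 : ℝ)) (b := 1)
        (fun ξ : ℝ => (1 - ξ ^ 2) ^ γ)
      simp only [neg_zero, even_two, Even.neg_pow] at this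
      exact this.symm
    rw [← h2, h3, intervalIntegral.integral_of_le zero_le_one, integral_Ioc_eq_integral_Ioo]
    ring
  have hb := real_beta (a := 1 / 2) (b := γ + 1) (by norm_num) (by linarith)
  have hd : ∀ t ∈ Ioo (0 : ℝ) 1, HasDerivWithinAt (fun t : ℝ => t ^ 2) (2 * t) (Ioo 0 1) t := by
    intro t _
    have h2 : HasDerivAt (fun t : ℝ => t ^ 2) (2 * t) t := by
      simpa using hasDerivAt_pow 2 t
    exact h2.hasDerivWithinAt
  have hinj : InjOn (fun t : ℝ => t ^ 2) (Ioo 0 1) := fun s hs t ht h =>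
    (pow_left_inj₀ hs.1.le ht.1.le two_ne_zero).1 h
  have himg : (fun t : ℝ => t ^ 2) '' Ioo 0 1 = Ioo 0 1 := by
    ext y
    constructor
    · rintro ⟨t, ht, rfl⟩
      exact ⟨by have := ht.1; positivity, by nlinarith [ht.1, ht.2]⟩
    · rintro ⟨hy0, hy1⟩
      refine ⟨√y, ⟨Real.sqrt_pos.2 hy0, ?_⟩, Real.sq_sqrt hy0.le⟩
      rw [Real.sqrt_lt' one_pos]
      simpa using hy1
  have hs := integral_image_eq_integral_abs_deriv_smul measurableSet_Ioo hd hinj
    (fun y : ℝ => y ^ ((1 / 2 : ℝ) - 1) * (1 - y) ^ (γ + 1 - 1))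
  rw [himg, hb] at hs
  have h4 : ∫ x in Ioo (0 : ℝ) 1, |2 * x| • (fun y : ℝ => y ^ ((1 / 2 : ℝ) - 1) *
      (1 - y) ^ (γ + 1 - 1)) (x ^ 2) = 2 * ∫ ξ in Ioo (0 : ℝ) 1, (1 - ξ ^ 2) ^ γ := by
    rw [← integral_const_mul]
    refine setIntegral_congr_fun measurableSet_Ioo fun t ht => ?_
    have ht0 : 0 < t := ht.1
    simp only [smul_eq_mul]
    rw [abs_of_pos (by positivity)]
    have e1 : (t ^ 2) ^ ((1 / 2 : ℝ) - 1) = t⁻¹ := by
      rw [← Real.rpow_natCast t 2, ← Real.rpow_mul ht0.le]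
      have : ((2 : ℕ) : ℝ) * ((1 / 2 : ℝ) - 1) = -1 := by norm_num
      rw [this, Real.rpow_neg_one]
    have e2 : γ + 1 - 1 = γ := by ring
    rw [e1, e2]
    field_simp
  rw [h4] at hs
  unfold Lcl
  rw [h1, ← hs]
  have e3 : (1 / 2 : ℝ) + (γ + 1) = γ + 3 / 2 := by ring
  rw [e3, Real.Gamma_one_half_eq]
  have hs0 : 0 < √π := Real.sqrt_pos.2 hπ
  have hG : Real.Gamma (γ + 3 / 2) ≠ 0 := (Real.Gamma_pos_of_pos (by linarith)).ne'
  have hsq : √π * √π = π := Real.mul_self_sqrt hπ.le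
  field_simp
  nlinarith [hsq]

end Vale.Agent.Lib.P371.SharpA
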