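import Mathlib

/-!
# P371, sharp route A: the mixture integrals (pure real analysis)

`sAux t` is the maximiser of `s - s^3/4 - t s^2` over `s >= 0`, `Xcl t` its maximum value,
`Lam1 t = 2 arctan (1/t) (1 + t^2) - 2 t` the dual function.
-/

open Real MeasureTheory Set

namespace Vale.Agent.Lib.P371.SharpA

noncomputable section

/-- The maximiser of `s - s^3/4 - t s^2` over `s >= 0`. -/
def sAux (t : ℝ) : ℝ := 2 / (2 * t + √(4 * t ^ 2 + 3))

/-- The maximal value of `s - s^3/4 - t s^2` over `s >= 0`. -/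
def Xcl (t : ℝ) : ℝ := sAux t / 2 + sAux t ^ 3 / 8

/-- The dual function. -/
def Lam1 (t : ℝ) : ℝ := 2 * arctan (1 / t) * (1 + t ^ 2) - 2 * t

lemma sqrt_aux_pos (t : ℝ) : 0 < √(4 * t ^ 2 + 3) := Real.sqrt_pos.2 (by positivity)

lemma sAux_pos {t : ℝ} (ht : 0 ≤ t) : 0 < sAux t := by
  unfold sAux
  have := sqrt_aux_pos t
  positivity

lemma sAux_eq {t : ℝ} (ht : 0 ≤ t) : 3 / 4 * sAux t ^ 2 + 2 * t * sAux t = 1 := by
  unfold sAux
  have hR2 : √(4 * t ^ 2 + 3) ^ 2 = 4 * t ^ 2 + 3 := Real.sq_sqrt (by positivity)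
  have hR0 := sqrt_aux_pos t
  set R := √(4 * t ^ 2 + 3) with hR
  have hd : 2 * t + R ≠ 0 := by positivity
  field_simp
  nlinarith

/-- The Young inequality. -/
theorem young {t s : ℝ} (ht : 0 ≤ t) (hs : 0 ≤ s) : s ≤ Xcl t + s ^ 3 / 4 + t * s ^ 2 := by
  have h0 := sAux_pos ht
  have he := sAux_eq ht
  unfold Xcl
  set s0 := sAux t with hs0
  have key : 0 ≤ (s0 - s) ^ 2 * (t + (2 * s0 + s) / 4) := by positivity
  have : s0 / 2 + s0 ^ 3 / 8 + s ^ 3 / 4 + t * s ^ 2 - s
      = (s0 - s) ^ 2 * (t + (2 * s0 + s) / 4) := by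
    linear_combination (s - s0 / 2) * he
  linarith

lemma sAux_le_two {t : ℝ} (ht : 0 ≤ t) : sAux t ≤ 2 := by
  unfold sAux
  have h1 : 1 ≤ √(4 * t ^ 2 + 3) := by
    rw [Real.one_le_sqrt]
    nlinarith [sq_nonneg t]
  have h2 : 0 < 2 * t + √(4 * t ^ 2 + 3) := by linarith
  rw [div_le_iff₀ h2]
  nlinarith

lemma sAux_le_inv {t : ℝ} (ht : 0 < t) : sAux t ≤ 1 / (2 * t) := by
  unfold sAux
  have hR2 : √(4 * t ^ 2 + 3) ^ 2 = 4 * t ^ 2 + 3 := Real.sq_sqrt (by positivity)
  have hR0 := sqrt_aux_pos t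
  have h1 : 2 * t ≤ √(4 * t ^ 2 + 3) := by
    by_contra h
    push Not at h
    nlinarith
  rw [div_le_div_iff₀ (by positivity) (by positivity)]
  nlinarith

lemma Xcl_nonneg {t : ℝ} (ht : 0 ≤ t) : 0 ≤ Xcl t := by
  unfold Xcl
  have := sAux_pos ht
  positivity

lemma Xcl_pos {t : ℝ} (ht : 0 ≤ t) : 0 < Xcl t := by
  unfold Xcl
  have := sAux_pos ht
  positivity

lemma Xcl_le_sAux {t : ℝ} (ht : 0 ≤ t) : Xcl t ≤ sAux t := by
  unfold Xcl
  have h0 := sAux_pos ht
  have h2 := sAux_le_two ht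
  have : sAux t ^ 3 ≤ sAux t * 4 := by
    have : sAux t ^ 2 ≤ 4 := by nlinarith
    nlinarith
  linarith

lemma continuous_sAux_on : ContinuousOn sAux (Ici 0) := by
  unfold sAux
  refine ContinuousOn.div continuousOn_const (by fun_prop) ?_
  intro t ht
  have := sqrt_aux_pos t
  have ht' : (0 : ℝ) ≤ t := ht
  positivity

lemma continuous_Xcl_on : ContinuousOn Xcl (Ici 0) := by
  have := continuous_sAux_on
  unfold Xcl
  exact (this.div_const _).add ((this.pow 3).div_const _)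

/-! ### Elementary arctan bounds -/

lemma arctan_le_self {x : ℝ} (hx : 0 ≤ x) : arctan x ≤ x := by
  have h0 := arctan_nonneg.2 hx
  have h1 := arctan_lt_pi_div_two x
  rcases h0.eq_or_lt with h | h
  · rw [← h]; exact hx
  · have := Real.lt_tan h h1
    rw [Real.tan_arctan] at this
    exact this.le

lemma arctan_le_two (x : ℝ) : arctan x ≤ 2 := by
  have h1 := arctan_lt_pi_div_two x
  have := pi_le_four
  linarith

lemma continuousOn_arctan_div (r : ℝ) : ContinuousOn (fun a : ℝ => arctan (r / a)) (Ioi 0) := by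
  refine continuous_arctan.comp_continuousOn ?_
  refine ContinuousOn.div continuousOn_const continuousOn_id ?_
  intro a ha
  exact (ne_of_gt ha)

/-- `Lam1` in terms of `x = 1/t`. -/
lemma Lam1_pos {t : ℝ} (ht : 0 < t) : 0 < Lam1 t := by
  unfold Lam1
  set x := 1 / t with hx
  have hx0 : 0 < x := by positivity
  set y := arctan x with hy
  have hy0 : 0 < y := arctan_pos.2 hx0
  have hs := Real.sin_lt (x := 2 * y) (by positivity)
  rw [Real.sin_two_mul] at hs
  have h1 : sin y * cos y = x / (1 + x ^ 2) := by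
    rw [hy, Real.sin_arctan, Real.cos_arctan]
    have h2 : 0 < √(1 + x ^ 2) := Real.sqrt_pos.2 (by positivity)
    have h3 : √(1 + x ^ 2) ^ 2 = 1 + x ^ 2 := Real.sq_sqrt (by positivity)
    field_simp
    nlinarith
  have h2 : x / (1 + x ^ 2) < y := by nlinarith
  have h3 : t / (1 + t ^ 2) < y := by
    have : x / (1 + x ^ 2) = t / (1 + t ^ 2) := by
      rw [hx]
      field_simp
      ring
    rwa [← this]
  rw [div_lt_iff₀ (by positivity)] at h3
  nlinarith

lemma Lam1_le {t : ℝ} (ht : 0 < t) : Lam1 t ≤ 2 / t := by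
  unfold Lam1
  have h := arctan_le_self (x := 1 / t) (by positivity)
  have : 2 * arctan (1 / t) * (1 + t ^ 2) ≤ 2 * (1 / t) * (1 + t ^ 2) := by
    gcongr
  have h2 : 2 * (1 / t) * (1 + t ^ 2) - 2 * t = 2 / t := by
    field_simp
    ring
  linarith

lemma Lam1_le_small {t : ℝ} (ht : 0 < t) (h1 : t ≤ 1) : Lam1 t ≤ 8 := by
  unfold Lam1
  have h := arctan_le_two (1 / t)
  have h0 : 0 ≤ arctan (1 / t) := arctan_nonneg.2 (by positivity)
  have : t ^ 2 ≤ 1 := by nlinarith
  nlinarith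

lemma continuousOn_Lam1 : ContinuousOn Lam1 (Ioi 0) := by
  unfold Lam1
  have h := continuousOn_arctan_div 1
  refine ContinuousOn.sub ?_ (by fun_prop)
  exact (continuousOn_const.mul h).mul (by fun_prop)

/-! ### The Legendre identity -/

/-- Closed form of the Legendre value. -/
lemma mul_Lam1_div {a e : ℝ} (ha : 0 < a) (he : 0 < e) :
    e * Lam1 (a / √e) = 2 * arctan (√e / a) * (e + a ^ 2) - 2 * a * √e := by
  unfold Lam1
  have hr : 0 < √e := Real.sqrt_pos.2 he
  have hr2 : √e ^ 2 = e := Real.sq_sqrt he.le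
  have h1 : 1 / (a / √e) = √e / a := by field_simp
  rw [h1]
  set r := √e with hrdef
  rw [← hr2]
  field_simp

/-- The Legendre identity: at the optimal angle. -/
theorem legendre {a e : ℝ} (ha : 0 < a) (he : 0 < e) :
    2 * arctan (√e / a) * e
        - a ^ 2 * (2 * tan (2 * arctan (√e / a) / 2) - 2 * arctan (√e / a))
      = e * Lam1 (a / √e) := by
  rw [mul_Lam1_div ha he]
  have h2 : 2 * arctan (√e / a) / 2 = arctan (√e / a) := by ring
  rw [h2, Real.tan_arctan]
  field_simp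
  ring

/-- The scaled Young inequality: `w s - s^3/4 - a s^2 <= w^(3/2) Xcl(a/sqrt w)`. -/
theorem young_scaled {a w s : ℝ} (ha : 0 ≤ a) (hw : 0 ≤ w) (hs : 0 ≤ s) :
    w * s - s ^ 3 / 4 - a * s ^ 2 ≤ w ^ (3 / 2 : ℝ) * Xcl (a / √w) := by
  rcases hw.eq_or_lt with rfl | hw0
  · have : (0 : ℝ) ^ (3 / 2 : ℝ) = 0 := by
      rw [Real.zero_rpow]; norm_num
    rw [this]
    have h1 : 0 ≤ s ^ 3 / 4 := by positivity
    have h2 : 0 ≤ a * s ^ 2 := by positivity
    linarith
  · set r := √w with hr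
    have hr0 : 0 < r := Real.sqrt_pos.2 hw0
    have hr2 : r ^ 2 = w := Real.sq_sqrt hw
    have hrp : w ^ (3 / 2 : ℝ) = r ^ 3 := by
      rw [← hr2, ← Real.rpow_natCast r 2, ← Real.rpow_mul hr0.le, ← Real.rpow_natCast r 3]
      norm_num
    rw [hrp]
    have hy := young (t := a / r) (s := s / r) (by positivity) (by positivity)
    have hm : r ^ 3 * (s / r) ≤ r ^ 3 * (Xcl (a / r) + (s / r) ^ 3 / 4 + a / r * (s / r) ^ 2) :=
      mul_le_mul_of_nonneg_left hy (by positivity)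
    have e1 : r ^ 3 * (s / r) = w * s := by
      rw [← hr2]; field_simp
    have e2 : r ^ 3 * (Xcl (a / r) + (s / r) ^ 3 / 4 + a / r * (s / r) ^ 2)
        = r ^ 3 * Xcl (a / r) + s ^ 3 / 4 + a * s ^ 2 := by
      field_simp
    rw [e1, e2] at hm
    linarith

/-! ### Integrability -/

/-- Power bounds at `0` and at infinity give integrability on `(0,oo)`. -/
theorem integrableOn_of_bounds {g : ℝ → ℝ} {μ C : ℝ} (h0 : 0 < μ) (h1 : μ < 1)
    (hm : AEStronglyMeasurable g (volume.restrict (Ioi 0)))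
    (hs : ∀ t, 0 < t → t ≤ 1 → |g t| ≤ C * t ^ (-μ))
    (hl : ∀ t, 1 < t → |g t| ≤ C * t ^ (-1 - μ)) :
    IntegrableOn g (Ioi 0) := by
  have hsplit : Ioi (0 : ℝ) = Ioc 0 1 ∪ Ioi 1 := (Ioc_union_Ioi_eq_Ioi zero_le_one).symm
  rw [hsplit]
  refine IntegrableOn.union ?_ ?_
  · have hI : IntegrableOn (fun t : ℝ => C * t ^ (-μ)) (Ioc 0 1) := by
      have := intervalIntegral.intervalIntegrable_rpow' (a := 0) (b := 1) (r := -μ) (by linarith)
      rw [intervalIntegrable_iff_integrableOn_Ioc_of_le zero_le_one] at this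
      exact this.const_mul C
    refine Integrable.mono' hI ?_ ?_
    · refine hm.mono_measure ?_
      exact Measure.restrict_mono Ioc_subset_Ioi_self le_rfl
    · rw [ae_restrict_iff' measurableSet_Ioc]
      refine Filter.Eventually.of_forall fun t ht => ?_
      rw [Real.norm_eq_abs]
      exact hs t ht.1 ht.2
  · have hI : IntegrableOn (fun t : ℝ => C * t ^ (-1 - μ)) (Ioi 1) :=
      (integrableOn_Ioi_rpow_of_lt (by linarith) zero_lt_one).const_mul C
    refine Integrable.mono' hI ?_ ?_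
    · refine hm.mono_measure ?_
      exact Measure.restrict_mono (Ioi_subset_Ioi zero_le_one) le_rfl
    · rw [ae_restrict_iff' measurableSet_Ioi]
      refine Filter.Eventually.of_forall fun t ht => ?_
      rw [Real.norm_eq_abs]
      exact hl t ht

lemma continuousOn_rpow_neg (μ : ℝ) : ContinuousOn (fun t : ℝ => t ^ (-μ)) (Ioi 0) := by
  intro t ht
  exact (Real.continuousAt_rpow_const _ _ (Or.inl (ne_of_gt ht))).continuousWithinAt

lemma rpow_neg_mul_inv {t μ : ℝ} (ht : 0 < t) : t ^ (-μ) * (1 / t) = t ^ (-1 - μ) := by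
  have : -1 - μ = -μ + -1 := by ring
  rw [this, Real.rpow_add ht, Real.rpow_neg_one]
  field_simp

/-- `t^(-mu) Xcl t` is integrable on `(0,oo)`. -/
theorem integrableOn_Xcl {μ : ℝ} (h0 : 0 < μ) (h1 : μ < 1) :
    IntegrableOn (fun t : ℝ => t ^ (-μ) * Xcl t) (Ioi 0) := by
  refine integrableOn_of_bounds (C := 2) h0 h1 ?_ ?_ ?_
  · refine ContinuousOn.aestronglyMeasurable ?_ measurableSet_Ioi
    exact (continuousOn_rpow_neg μ).mul (continuous_Xcl_on.mono fun t ht => mem_Ici.2 (le_of_lt (mem_Ioi.1 ht)))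
  · intro t ht _
    have hp : 0 < t ^ (-μ) := Real.rpow_pos_of_pos ht _
    rw [abs_of_nonneg (mul_nonneg hp.le (Xcl_nonneg ht.le))]
    have := (Xcl_le_sAux ht.le).trans (sAux_le_two ht.le)
    nlinarith
  · intro t ht
    have ht0 : 0 < t := by linarith
    have hp : 0 < t ^ (-μ) := Real.rpow_pos_of_pos ht0 _
    rw [abs_of_nonneg (mul_nonneg hp.le (Xcl_nonneg ht0.le)), ← rpow_neg_mul_inv ht0]
    have h2 : Xcl t ≤ 1 / (2 * t) := (Xcl_le_sAux ht0.le).trans (sAux_le_inv ht0)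
    have h3 : 1 / (2 * t) ≤ 2 * (1 / t) := by
      rw [div_le_iff₀ (by positivity)]
      field_simp
      norm_num
    nlinarith

/-- `t^(-mu) Lam1 t` is integrable on `(0,oo)`. -/
theorem integrableOn_Lam1 {μ : ℝ} (h0 : 0 < μ) (h1 : μ < 1) :
    IntegrableOn (fun t : ℝ => t ^ (-μ) * Lam1 t) (Ioi 0) := by
  refine integrableOn_of_bounds (C := 8) h0 h1 ?_ ?_ ?_
  · refine ContinuousOn.aestronglyMeasurable ?_ measurableSet_Ioi
    exact (continuousOn_rpow_neg μ).mul continuousOn_Lam1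
  · intro t ht ht1
    have hp : 0 < t ^ (-μ) := Real.rpow_pos_of_pos ht _
    rw [abs_of_nonneg (mul_nonneg hp.le (Lam1_pos ht).le)]
    have := Lam1_le_small ht ht1
    nlinarith
  · intro t ht
    have ht0 : 0 < t := by linarith
    have hp : 0 < t ^ (-μ) := Real.rpow_pos_of_pos ht0 _
    rw [abs_of_nonneg (mul_nonneg hp.le (Lam1_pos ht0).le), ← rpow_neg_mul_inv ht0]
    have h2 := Lam1_le ht0
    have h3 : 2 / t ≤ 8 * (1 / t) := by
      rw [div_le_iff₀ ht0]
      field_simp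
      norm_num
    nlinarith

lemma arctan_div_nonneg {r a : ℝ} (hr : 0 ≤ r) (ha : 0 < a) : 0 ≤ arctan (r / a) :=
  arctan_nonneg.2 (by positivity)

lemma arctan_div_le {r a : ℝ} (hr : 0 ≤ r) (ha : 0 < a) : arctan (r / a) ≤ r * (1 / a) := by
  have := arctan_le_self (x := r / a) (by positivity)
  calc arctan (r / a) ≤ r / a := this
    _ = r * (1 / a) := by ring

/-- `a^(-mu) arctan (r/a)` is integrable on `(0,oo)`. -/
theorem integrableOn_arctan1 {μ r : ℝ} (h0 : 0 < μ) (h1 : μ < 1) (hr : 0 ≤ r) :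
    IntegrableOn (fun a : ℝ => a ^ (-μ) * arctan (r / a)) (Ioi 0) := by
  refine integrableOn_of_bounds (C := 2 + r) h0 h1 ?_ ?_ ?_
  · refine ContinuousOn.aestronglyMeasurable ?_ measurableSet_Ioi
    exact (continuousOn_rpow_neg μ).mul (continuousOn_arctan_div r)
  · intro t ht _
    have hp : 0 < t ^ (-μ) := Real.rpow_pos_of_pos ht _
    have hb := arctan_div_nonneg hr ht
    rw [abs_of_nonneg (mul_nonneg hp.le hb)]
    have := arctan_le_two (r / t)
    nlinarith
  · intro t ht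
    have ht0 : 0 < t := by linarith
    have hp : 0 < t ^ (-μ) := Real.rpow_pos_of_pos ht0 _
    have hb := arctan_div_nonneg hr ht0
    rw [abs_of_nonneg (mul_nonneg hp.le hb), ← rpow_neg_mul_inv ht0]
    have h2 := arctan_div_le hr ht0
    have h3 : 0 < 1 / t := by positivity
    nlinarith

/-- `a^(1-mu) arctan (r/a) arctan (r'/a)` is integrable on `(0,oo)`. -/
theorem integrableOn_arctan2 {μ r r' : ℝ} (h0 : 0 < μ) (h1 : μ < 1) (hr : 0 ≤ r) (hr' : 0 ≤ r') :
    IntegrableOn (fun a : ℝ => a ^ (1 - μ) * (arctan (r / a) * arctan (r' / a))) (Ioi 0) := by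
  refine integrableOn_of_bounds (C := 4 + r * r') h0 h1 ?_ ?_ ?_
  · refine ContinuousOn.aestronglyMeasurable ?_ measurableSet_Ioi
    refine ContinuousOn.mul ?_ ((continuousOn_arctan_div r).mul (continuousOn_arctan_div r'))
    intro t ht
    exact (Real.continuousAt_rpow_const _ _ (Or.inl (ne_of_gt ht))).continuousWithinAt
  · intro t ht ht1
    have hp : 0 < t ^ (-μ) := Real.rpow_pos_of_pos ht _
    have hq : 0 < t ^ (1 - μ) := Real.rpow_pos_of_pos ht _
    have hq2 : t ^ (1 - μ) = t * t ^ (-μ) := by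
      have : (1 : ℝ) - μ = 1 + -μ := by ring
      rw [this, Real.rpow_add ht, Real.rpow_one]
    have hb := arctan_div_nonneg hr ht
    have hb' := arctan_div_nonneg hr' ht
    rw [abs_of_nonneg (mul_nonneg hq.le (mul_nonneg hb hb'))]
    have e1 := arctan_le_two (r / t)
    have e2 := arctan_le_two (r' / t)
    have e3 : arctan (r / t) * arctan (r' / t) ≤ 4 := by nlinarith
    have e4 : 0 ≤ arctan (r / t) * arctan (r' / t) := mul_nonneg hb hb'
    have hrr : 0 ≤ r * r' := mul_nonneg hr hr'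
    rw [hq2]
    have e5 : t * (arctan (r / t) * arctan (r' / t)) ≤ 4 + r * r' := by nlinarith
    calc t * t ^ (-μ) * (arctan (r / t) * arctan (r' / t))
        = t ^ (-μ) * (t * (arctan (r / t) * arctan (r' / t))) := by ring
      _ ≤ t ^ (-μ) * (4 + r * r') := mul_le_mul_of_nonneg_left e5 hp.le
      _ = (4 + r * r') * t ^ (-μ) := by ring
  · intro t ht
    have ht0 : 0 < t := by linarith
    have hq : 0 < t ^ (1 - μ) := Real.rpow_pos_of_pos ht0 _
    have hp : 0 < t ^ (-μ) := Real.rpow_pos_of_pos ht0 _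
    have hq2 : t ^ (1 - μ) = t * t ^ (-μ) := by
      have : (1 : ℝ) - μ = 1 + -μ := by ring
      rw [this, Real.rpow_add ht0, Real.rpow_one]
    have hb := arctan_div_nonneg hr ht0
    have hb' := arctan_div_nonneg hr' ht0
    rw [abs_of_nonneg (mul_nonneg hq.le (mul_nonneg hb hb')), ← rpow_neg_mul_inv ht0, hq2]
    have e1 := arctan_div_le hr ht0
    have e2 := arctan_div_le hr' ht0
    have hrr : 0 ≤ r * r' := mul_nonneg hr hr'
    have e3 : arctan (r / t) * arctan (r' / t) ≤ (r * (1 / t)) * (r' * (1 / t)) :=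
      mul_le_mul e1 e2 hb' (by positivity)
    have e4 : t * (arctan (r / t) * arctan (r' / t)) ≤ (4 + r * r') * (1 / t) := by
      have e5 : t * ((r * (1 / t)) * (r' * (1 / t))) = r * r' * (1 / t) := by
        field_simp
      have e6 : t * (arctan (r / t) * arctan (r' / t))
          ≤ t * ((r * (1 / t)) * (r' * (1 / t))) :=
        mul_le_mul_of_nonneg_left e3 ht0.le
      have e7 : 0 < 1 / t := by positivity
      nlinarith
    calc t * t ^ (-μ) * (arctan (r / t) * arctan (r' / t))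
        = t ^ (-μ) * (t * (arctan (r / t) * arctan (r' / t))) := by ring
      _ ≤ t ^ (-μ) * ((4 + r * r') * (1 / t)) := mul_le_mul_of_nonneg_left e4 hp.le
      _ = (4 + r * r') * (t ^ (-μ) * (1 / t)) := by ring

/-- `a^(-mu) arctan (r/a) arctan (r'/a) arctan (r''/a)` is integrable on `(0,oo)`. -/
theorem integrableOn_arctan3 {μ r r' r'' : ℝ} (h0 : 0 < μ) (h1 : μ < 1) (hr : 0 ≤ r)
    (hr' : 0 ≤ r') (hr'' : 0 ≤ r'') :
    IntegrableOn
      (fun a : ℝ => a ^ (-μ) * (arctan (r / a) * arctan (r' / a) * arctan (r'' / a))) (Ioi 0) := by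
  refine integrableOn_of_bounds (C := 8 + r * r' * r'') h0 h1 ?_ ?_ ?_
  · refine ContinuousOn.aestronglyMeasurable ?_ measurableSet_Ioi
    exact (continuousOn_rpow_neg μ).mul
      (((continuousOn_arctan_div r).mul (continuousOn_arctan_div r')).mul
        (continuousOn_arctan_div r''))
  · intro t ht _
    have hp : 0 < t ^ (-μ) := Real.rpow_pos_of_pos ht _
    have hb := arctan_div_nonneg hr ht
    have hb' := arctan_div_nonneg hr' ht
    have hb'' := arctan_div_nonneg hr'' ht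
    have e0 : 0 ≤ arctan (r / t) * arctan (r' / t) * arctan (r'' / t) := by positivity
    rw [abs_of_nonneg (mul_nonneg hp.le e0)]
    have e1 := arctan_le_two (r / t)
    have e2 := arctan_le_two (r' / t)
    have e3 := arctan_le_two (r'' / t)
    have e4 : arctan (r / t) * arctan (r' / t) ≤ 2 * 2 := mul_le_mul e1 e2 hb' (by norm_num)
    have e5 : arctan (r / t) * arctan (r' / t) * arctan (r'' / t) ≤ 2 * 2 * 2 :=
      mul_le_mul e4 e3 hb'' (by norm_num)
    have hrr : 0 ≤ r * r' * r'' := by positivity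
    calc t ^ (-μ) * (arctan (r / t) * arctan (r' / t) * arctan (r'' / t))
        ≤ t ^ (-μ) * (8 + r * r' * r'') :=
          mul_le_mul_of_nonneg_left (by linarith) hp.le
      _ = (8 + r * r' * r'') * t ^ (-μ) := by ring
  · intro t ht
    have ht0 : 0 < t := by linarith
    have hp : 0 < t ^ (-μ) := Real.rpow_pos_of_pos ht0 _
    have hb := arctan_div_nonneg hr ht0
    have hb' := arctan_div_nonneg hr' ht0
    have hb'' := arctan_div_nonneg hr'' ht0
    have e0 : 0 ≤ arctan (r / t) * arctan (r' / t) * arctan (r'' / t) := by positivity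
    rw [abs_of_nonneg (mul_nonneg hp.le e0), ← rpow_neg_mul_inv ht0]
    have e1 := arctan_div_le hr ht0
    have e2 := arctan_div_le hr' ht0
    have e3 := arctan_div_le hr'' ht0
    have hi : 0 < 1 / t := by positivity
    have hi1 : 1 / t ≤ 1 := by
      rw [div_le_one ht0]; exact ht.le
    have e4 : arctan (r / t) * arctan (r' / t) ≤ (r * (1 / t)) * (r' * (1 / t)) :=
      mul_le_mul e1 e2 hb' (by positivity)
    have e5 : arctan (r / t) * arctan (r' / t) * arctan (r'' / t)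
        ≤ (r * (1 / t)) * (r' * (1 / t)) * (r'' * (1 / t)) :=
      mul_le_mul e4 e3 hb'' (by positivity)
    have e6 : (r * (1 / t)) * (r' * (1 / t)) * (r'' * (1 / t))
        = r * r' * r'' * (1 / t) * (1 / t) * (1 / t) := by ring
    have hrr : 0 ≤ r * r' * r'' := by positivity
    have e7 : r * r' * r'' * (1 / t) * (1 / t) * (1 / t) ≤ r * r' * r'' * (1 / t) := by
      have h2 : (1 / t) * (1 / t) ≤ 1 := by nlinarith
      have h3 : 0 ≤ r * r' * r'' * (1 / t) := by positivity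
      calc r * r' * r'' * (1 / t) * (1 / t) * (1 / t)
          = r * r' * r'' * (1 / t) * ((1 / t) * (1 / t)) := by ring
        _ ≤ r * r' * r'' * (1 / t) * 1 := mul_le_mul_of_nonneg_left h2 h3
        _ = r * r' * r'' * (1 / t) := by ring
    have e8 : arctan (r / t) * arctan (r' / t) * arctan (r'' / t)
        ≤ (8 + r * r' * r'') * (1 / t) := by nlinarith
    calc t ^ (-μ) * (arctan (r / t) * arctan (r' / t) * arctan (r'' / t))
        ≤ t ^ (-μ) * ((8 + r * r' * r'') * (1 / t)) := mul_le_mul_of_nonneg_left e8 hp.le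
      _ = (8 + r * r' * r'') * (t ^ (-μ) * (1 / t)) := by ring

/-- `t^(-mu) arctan (1/t)`. -/
theorem integrableOn_t_arctan {μ : ℝ} (h0 : 0 < μ) (h1 : μ < 1) :
    IntegrableOn (fun t : ℝ => t ^ (-μ) * arctan (1 / t)) (Ioi 0) :=
  integrableOn_arctan1 h0 h1 zero_le_one

/-- `t^(1-mu) arctan (1/t)^2`. -/
theorem integrableOn_t_arctan2 {μ : ℝ} (h0 : 0 < μ) (h1 : μ < 1) :
    IntegrableOn (fun t : ℝ => t ^ (1 - μ) * arctan (1 / t) ^ 2) (Ioi 0) := by
  have := integrableOn_arctan2 (r := 1) (r' := 1) h0 h1 zero_le_one zero_le_one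
  refine this.congr_fun (fun t _ => ?_) measurableSet_Ioi
  simp only [pow_two]

/-- `t^(-mu) arctan (1/t)^3`. -/
theorem integrableOn_t_arctan3 {μ : ℝ} (h0 : 0 < μ) (h1 : μ < 1) :
    IntegrableOn (fun t : ℝ => t ^ (-μ) * arctan (1 / t) ^ 3) (Ioi 0) := by
  have := integrableOn_arctan3 (r := 1) (r' := 1) (r'' := 1) h0 h1 zero_le_one zero_le_one
    zero_le_one
  refine this.congr_fun (fun t _ => ?_) measurableSet_Ioi
  simp only
  ring

/-! ### The two constants and scaling -/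

/-- The constant `c = int_0^oo t^(-mu) Lam1 t dt`. -/
def cMix (μ : ℝ) : ℝ := ∫ t in Ioi (0 : ℝ), t ^ (-μ) * Lam1 t

/-- The constant `d = int_0^oo t^(-mu) Xcl t dt`. -/
def dMix (μ : ℝ) : ℝ := ∫ t in Ioi (0 : ℝ), t ^ (-μ) * Xcl t

theorem cMix_pos {μ : ℝ} (h0 : 0 < μ) (h1 : μ < 1) : 0 < cMix μ := by
  unfold cMix
  rw [setIntegral_pos_iff_support_of_nonneg_ae ?_ (integrableOn_Lam1 h0 h1)]
  · have hsub : Ioi (0 : ℝ) ⊆ Function.support (fun t : ℝ => t ^ (-μ) * Lam1 t) := by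
      intro t ht
      have hp : 0 < t ^ (-μ) := Real.rpow_pos_of_pos ht _
      exact ne_of_gt (mul_pos hp (Lam1_pos ht))
    have : Function.support (fun t : ℝ => t ^ (-μ) * Lam1 t) ∩ Ioi 0 = Ioi 0 :=
      inter_eq_right.2 hsub
    rw [this]
    simp
  · rw [Filter.EventuallyLE, ae_restrict_iff' measurableSet_Ioi]
    refine Filter.Eventually.of_forall fun t ht => ?_
    have hp : 0 < t ^ (-μ) := Real.rpow_pos_of_pos ht _
    exact mul_nonneg hp.le (Lam1_pos ht).le

theorem dMix_pos {μ : ℝ} (h0 : 0 < μ) (h1 : μ < 1) : 0 < dMix μ := by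
  unfold dMix
  rw [setIntegral_pos_iff_support_of_nonneg_ae ?_ (integrableOn_Xcl h0 h1)]
  · have hsub : Ioi (0 : ℝ) ⊆ Function.support (fun t : ℝ => t ^ (-μ) * Xcl t) := by
      intro t ht
      have hp : 0 < t ^ (-μ) := Real.rpow_pos_of_pos ht _
      exact ne_of_gt (mul_pos hp (Xcl_pos (le_of_lt ht)))
    have : Function.support (fun t : ℝ => t ^ (-μ) * Xcl t) ∩ Ioi 0 = Ioi 0 :=
      inter_eq_right.2 hsub
    rw [this]
    simp
  · rw [Filter.EventuallyLE, ae_restrict_iff' measurableSet_Ioi]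
    refine Filter.Eventually.of_forall fun t ht => ?_
    have hp : 0 < t ^ (-μ) := Real.rpow_pos_of_pos ht _
    exact mul_nonneg hp.le (Xcl_nonneg (le_of_lt ht))

/-- General scaling: `int_0^oo a^(-mu) g(a/r) da = r^(1-mu) int_0^oo t^(-mu) g t dt`. -/
theorem integral_scale (g : ℝ → ℝ) (μ : ℝ) {r : ℝ} (hr : 0 < r) :
    ∫ a in Ioi (0 : ℝ), a ^ (-μ) * g (a / r)
      = r ^ (1 - μ) * ∫ t in Ioi (0 : ℝ), t ^ (-μ) * g t := by
  have hs := integral_comp_mul_left_Ioi (fun t : ℝ => t ^ (-μ) * g t) 0 (b := r⁻¹)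
    (inv_pos.2 hr)
  simp only [mul_zero, smul_eq_mul, inv_inv] at hs
  have hpw : ∀ a ∈ Ioi (0 : ℝ), a ^ (-μ) * g (a / r)
      = r ^ (-μ) * ((r⁻¹ * a) ^ (-μ) * g (r⁻¹ * a)) := by
    intro a ha
    have ha0 : (0 : ℝ) < a := ha
    have e1 : r⁻¹ * a = a / r := by field_simp
    rw [e1, Real.div_rpow ha0.le hr.le]
    have hp : 0 < r ^ (-μ) := Real.rpow_pos_of_pos hr _
    field_simp
  rw [setIntegral_congr_fun measurableSet_Ioi hpw, integral_const_mul, hs]
  have : r ^ (1 - μ) = r ^ (-μ) * r := by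
    have e : (1 : ℝ) - μ = -μ + 1 := by ring
    rw [e, Real.rpow_add hr, Real.rpow_one]
  rw [this]
  ring

/-- Scaling for `Lam1`: exponent `(3-mu)/2 = gamma`. -/
theorem integral_scale_Lam1 (μ : ℝ) (hμ : μ < 3) {e : ℝ} (he : 0 ≤ e) :
    ∫ a in Ioi (0 : ℝ), a ^ (-μ) * (e * Lam1 (a / √e)) = e ^ ((3 - μ) / 2) * cMix μ := by
  rcases he.eq_or_lt with rfl | he0
  · have : (0 : ℝ) ^ ((3 - μ) / 2) = 0 := by
      rw [Real.zero_rpow]; linarith [show (0 : ℝ) < (3 - μ) / 2 by linarith]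
    simp [this]
  · have hr : 0 < √e := Real.sqrt_pos.2 he0
    have e1 : ∀ a : ℝ, a ^ (-μ) * (e * Lam1 (a / √e)) = e * (a ^ (-μ) * Lam1 (a / √e)) := by
      intro a; ring
    simp_rw [e1]
    rw [integral_const_mul, integral_scale Lam1 μ hr, ← cMix, ← mul_assoc]
    congr 1
    rw [Real.sqrt_eq_rpow, ← Real.rpow_mul he0.le]
    nth_rewrite 1 [← Real.rpow_one e]
    rw [← Real.rpow_add he0]
    congr 1
    ring

/-- Scaling for `Xcl`: exponent `2 - mu/2 = gamma + 1/2`. -/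
theorem integral_scale_Xcl (μ : ℝ) (hμ : μ < 4) {w : ℝ} (hw : 0 ≤ w) :
    ∫ a in Ioi (0 : ℝ), a ^ (-μ) * (w ^ (3 / 2 : ℝ) * Xcl (a / √w))
      = w ^ (2 - μ / 2) * dMix μ := by
  rcases hw.eq_or_lt with rfl | hw0
  · have h1 : (0 : ℝ) ^ (2 - μ / 2) = 0 := by
      rw [Real.zero_rpow]; linarith [show (0 : ℝ) < 2 - μ / 2 by linarith]
    have h2 : (0 : ℝ) ^ (3 / 2 : ℝ) = 0 := by
      rw [Real.zero_rpow]; norm_num
    simp [h1, h2]
  · have hr : 0 < √w := Real.sqrt_pos.2 hw0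
    have e1 : ∀ a : ℝ, a ^ (-μ) * (w ^ (3 / 2 : ℝ) * Xcl (a / √w))
        = w ^ (3 / 2 : ℝ) * (a ^ (-μ) * Xcl (a / √w)) := by
      intro a; ring
    simp_rw [e1]
    rw [integral_const_mul, integral_scale Xcl μ hr, ← dMix, ← mul_assoc]
    congr 1
    rw [Real.sqrt_eq_rpow, ← Real.rpow_mul hw0.le, ← Real.rpow_add hw0]
    congr 1
    ring

/-- Scaled integrability, from the `t` form to the `a/r` form. -/
theorem integrableOn_scale {g : ℝ → ℝ} {μ : ℝ} (hg : IntegrableOn (fun t : ℝ => t ^ (-μ) * g t) (Ioi 0))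
    {r : ℝ} (hr : 0 < r) :
    IntegrableOn (fun a : ℝ => a ^ (-μ) * g (a / r)) (Ioi 0) := by
  have h1 := (integrableOn_Ioi_comp_mul_left_iff (fun t : ℝ => t ^ (-μ) * g t) 0
    (a := r⁻¹) (inv_pos.2 hr)).2 (by simpa using hg)
  have h2 := h1.const_mul (r ^ (-μ))
  refine IntegrableOn.congr_fun h2 (fun a ha => ?_) measurableSet_Ioi
  have ha0 : (0 : ℝ) < a := ha
  have e1 : r⁻¹ * a = a / r := by field_simp
  simp only [e1]
  rw [Real.div_rpow ha0.le hr.le]
  have hp : 0 < r ^ (-μ) := Real.rpow_pos_of_pos hr _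
  field_simp

/-- Integrability of `a^(-mu) (e Lam1 (a / sqrt e))`. -/
theorem integrableOn_scale_Lam1 {μ e : ℝ} (h0 : 0 < μ) (h1 : μ < 1) (he : 0 ≤ e) :
    IntegrableOn (fun a : ℝ => a ^ (-μ) * (e * Lam1 (a / √e))) (Ioi 0) := by
  rcases he.eq_or_lt with rfl | he0
  · simp
  · have := (integrableOn_scale (integrableOn_Lam1 h0 h1) (Real.sqrt_pos.2 he0)).const_mul e
    refine IntegrableOn.congr_fun this (fun a _ => ?_) measurableSet_Ioi
    ring

/-- Integrability of `a^(-mu) (w^(3/2) Xcl (a / sqrt w))`. -/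
theorem integrableOn_scale_Xcl {μ w : ℝ} (h0 : 0 < μ) (h1 : μ < 1) (hw : 0 ≤ w) :
    IntegrableOn (fun a : ℝ => a ^ (-μ) * (w ^ (3 / 2 : ℝ) * Xcl (a / √w))) (Ioi 0) := by
  rcases hw.eq_or_lt with rfl | hw0
  · have h2 : (0 : ℝ) ^ (3 / 2 : ℝ) = 0 := by
      rw [Real.zero_rpow]; norm_num
    simp [h2]
  · have := (integrableOn_scale (integrableOn_Xcl h0 h1) (Real.sqrt_pos.2 hw0)).const_mul
      (w ^ (3 / 2 : ℝ))
    refine IntegrableOn.congr_fun this (fun a _ => ?_) measurableSet_Ioi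
    ring

end

end Vale.Agent.Lib.P371.SharpA
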