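import Vale.Agent.Lib.P371.SharpA.Mix

/-!
# P371, sharp route A: the abstract mixture step

If a one parameter family of inequalities has a right side which is a finite sum of products
`u l a * v l x`, the mixture over `a` with weight `a^(-mu)` needs no Fubini theorem.
-/

open Real MeasureTheory Set

namespace Vale.Agent.Lib.P371.SharpA

/-- The abstract mixture step. -/
theorem mix_abstract {L J A : Type*} [Fintype L] [Fintype J] [Fintype A]
    {μ : ℝ} (h0 : 0 < μ) (h1 : μ < 1)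
    (e : J → ℝ) (he : ∀ j, 0 ≤ e j)
    (u v : L → ℝ → ℝ)
    (hu : ∀ l, IntegrableOn (fun a : ℝ => a ^ (-μ) * u l a) (Ioi 0))
    (hv : ∀ l, Integrable (v l))
    (w : A → ℝ → ℝ) (hw : ∀ α x, 0 ≤ w α x)
    (hwint : Integrable fun x => ∑ α, w α x ^ (2 - μ / 2))
    (hfam : ∀ a : ℝ, 0 < a → ∑ j, e j * Lam1 (a / √(e j)) ≤ ∫ x, ∑ l, u l a * v l x)
    (hpt : ∀ (a x : ℝ), 0 < a →
      ∑ l, u l a * v l x ≤ ∑ α, w α x ^ (3 / 2 : ℝ) * Xcl (a / √(w α x))) :
    cMix μ * ∑ j, e j ^ ((3 - μ) / 2) ≤ dMix μ * ∫ x, ∑ α, w α x ^ (2 - μ / 2) := by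
  classical
  obtain ⟨U, hU⟩ : ∃ U : L → ℝ, U = fun l => ∫ a in Ioi (0 : ℝ), a ^ (-μ) * u l a := ⟨_, rfl⟩
  obtain ⟨V, hV⟩ : ∃ V : L → ℝ, V = fun l => ∫ x, v l x := ⟨_, rfl⟩
  -- Step 1: the integral over `x` of the right side
  have s1 : ∀ a : ℝ, 0 < a → ∑ j, e j * Lam1 (a / √(e j)) ≤ ∑ l, u l a * V l := by
    intro a ha
    have h := hfam a ha
    rw [integral_finsetSum _ (fun l _ => (hv l).const_mul _)] at h
    refine h.trans (le_of_eq (Finset.sum_congr rfl fun l _ => ?_))
    rw [integral_const_mul, hV]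
  -- Step 2: the mixture over `a`
  have s2 : cMix μ * ∑ j, e j ^ ((3 - μ) / 2) ≤ ∑ l, U l * V l := by
    have lhs : ∫ a in Ioi (0 : ℝ), ∑ j, a ^ (-μ) * (e j * Lam1 (a / √(e j)))
        = ∑ j, e j ^ ((3 - μ) / 2) * cMix μ := by
      rw [integral_finsetSum _ (fun j _ => integrableOn_scale_Lam1 h0 h1 (he j))]
      exact Finset.sum_congr rfl fun j _ => integral_scale_Lam1 μ (by linarith) (he j)
    have rhs : ∫ a in Ioi (0 : ℝ), ∑ l, (a ^ (-μ) * u l a) * V l = ∑ l, U l * V l := by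
      rw [integral_finsetSum _ (fun l _ => (hu l).mul_const _)]
      refine Finset.sum_congr rfl fun l _ => ?_
      rw [integral_mul_const, hU]
    have mono : ∫ a in Ioi (0 : ℝ), ∑ j, a ^ (-μ) * (e j * Lam1 (a / √(e j)))
        ≤ ∫ a in Ioi (0 : ℝ), ∑ l, (a ^ (-μ) * u l a) * V l := by
      refine setIntegral_mono_on
        (integrable_finsetSum _ fun j _ => integrableOn_scale_Lam1 h0 h1 (he j))
        (integrable_finsetSum _ fun l _ => (hu l).mul_const _) measurableSet_Ioi ?_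
      intro a ha
      have ha0 : (0 : ℝ) < a := ha
      have hp : 0 ≤ a ^ (-μ) := (Real.rpow_pos_of_pos ha0 _).le
      have := mul_le_mul_of_nonneg_left (s1 a ha0) hp
      rw [Finset.mul_sum, Finset.mul_sum] at this
      refine this.trans (le_of_eq (Finset.sum_congr rfl fun l _ => ?_))
      ring
    rw [lhs, rhs, ← Finset.sum_mul] at mono
    rw [mul_comm]
    exact mono
  -- Step 3: the mixture at fixed `x`
  have s3 : ∀ x, ∑ l, U l * v l x ≤ dMix μ * ∑ α, w α x ^ (2 - μ / 2) := by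
    intro x
    have lhs : ∫ a in Ioi (0 : ℝ), ∑ l, (a ^ (-μ) * u l a) * v l x = ∑ l, U l * v l x := by
      rw [integral_finsetSum _ (fun l _ => (hu l).mul_const _)]
      refine Finset.sum_congr rfl fun l _ => ?_
      rw [integral_mul_const, hU]
    have rhs : ∫ a in Ioi (0 : ℝ), ∑ α, a ^ (-μ) * (w α x ^ (3 / 2 : ℝ) * Xcl (a / √(w α x)))
        = ∑ α, w α x ^ (2 - μ / 2) * dMix μ := by
      rw [integral_finsetSum _ (fun α _ => integrableOn_scale_Xcl h0 h1 (hw α x))]
      exact Finset.sum_congr rfl fun α _ => integral_scale_Xcl μ (by linarith) (hw α x)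
    have mono : ∫ a in Ioi (0 : ℝ), ∑ l, (a ^ (-μ) * u l a) * v l x
        ≤ ∫ a in Ioi (0 : ℝ), ∑ α, a ^ (-μ) * (w α x ^ (3 / 2 : ℝ) * Xcl (a / √(w α x))) := by
      refine setIntegral_mono_on
        (integrable_finsetSum _ fun l _ => (hu l).mul_const _)
        (integrable_finsetSum _ fun α _ => integrableOn_scale_Xcl h0 h1 (hw α x))
        measurableSet_Ioi ?_
      intro a ha
      have ha0 : (0 : ℝ) < a := ha
      have hp : 0 ≤ a ^ (-μ) := (Real.rpow_pos_of_pos ha0 _).le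
      have := mul_le_mul_of_nonneg_left (hpt a x ha0) hp
      rw [Finset.mul_sum, Finset.mul_sum] at this
      refine le_trans (le_of_eq (Finset.sum_congr rfl fun l _ => ?_)) this
      ring
    rw [lhs, rhs, ← Finset.sum_mul] at mono
    rw [mul_comm (dMix μ)]
    exact mono
  -- Step 4: integrate over `x`
  have s4 : ∑ l, U l * V l ≤ dMix μ * ∫ x, ∑ α, w α x ^ (2 - μ / 2) := by
    have lhs : ∫ x, ∑ l, U l * v l x = ∑ l, U l * V l := by
      rw [integral_finsetSum _ (fun l _ => (hv l).const_mul _)]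
      refine Finset.sum_congr rfl fun l _ => ?_
      rw [integral_const_mul, hV]
    have mono := integral_mono
      (integrable_finsetSum _ fun l _ => (hv l).const_mul (U l)) (hwint.const_mul (dMix μ)) s3
    rw [lhs, integral_const_mul] at mono
    exact mono
  exact s2.trans s4

end Vale.Agent.Lib.P371.SharpA
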